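import Crest.Agent.R191.Cayley1

/-!
The limit of the layered construction: a group with the relators and the Greendlinger property.
-/

set_option autoImplicit false

namespace Crest.Agent.R191

theorem closes_of_seq {L : ℕ} [NeZero L] {Q : Type} [Group Q] (f : ZMod L → Q) (R : ℕ → Q)
    (hR : ∀ i < L, R (i + 1) = R i * f (i : ℕ)) (hL : R L = R 0) : Closes f := by
  refine ⟨fun k => R k.val, fun k => ?_⟩
  simp only
  rw [cyc_val R hL, hR _ (ZMod.val_lt k)]
  simp

namespace Cay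

variable {Ω : Type} {L : ℕ} (π : ZMod L → Ω → Ω)

/-- The stages. -/
def St : ℕ → Cx Ω L
  | 0 => ⟨{.base}, ∅⟩
  | n + 1 => next π (St n)

/-- All vertices. -/
def Uinf : Set (Vtx Ω L) := {u | ∃ n, u ∈ (St π n).U}

/-- All edges. -/
def Ginf : Set (Vtx Ω L × Ω × Vtx Ω L) := {z | ∃ n, z ∈ (St π n).G}

variable {π}

theorem St_mono {n m : ℕ} (h : n ≤ m) : (St π n).U ⊆ (St π m).U ∧ (St π n).G ⊆ (St π m).G := by
  induction h with
  | refl => exact ⟨subset_rfl, subset_rfl⟩
  | step _ ih => exact ⟨ih.1.trans Set.subset_union_left, ih.2.trans Set.subset_union_left⟩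

theorem adj_inf {u v : Vtx Ω L} {b : Ω × Bool} : Adj (Ginf π) u b v ↔ ∃ n, Adj (St π n).G u b v := by
  obtain ⟨e, d⟩ := b
  cases d <;> simp [Ginf]

/-- Bounded-level walks. -/
inductive WalkLe (π : ZMod L → Ω → Ω) (M : ℕ) : Vtx Ω L → List (Ω × Bool) → Vtx Ω L → Prop
  | nil {u : Vtx Ω L} : lvl u ≤ M → WalkLe π M u [] u
  | cons {u u' v : Vtx Ω L} {b : Ω × Bool} {w : List (Ω × Bool)} : lvl u ≤ M →
      Adj (Ginf π) u b u' → WalkLe π M u' w v → WalkLe π M u (b :: w) v

theorem WalkLe.start {M : ℕ} {u v : Vtx Ω L} {w : List (Ω × Bool)} (h : WalkLe π M u w v) :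
    lvl u ≤ M := by
  cases h <;> assumption

theorem WalkLe.mono {M M' : ℕ} (hM : M ≤ M') {u v : Vtx Ω L} {w : List (Ω × Bool)}
    (h : WalkLe π M u w v) : WalkLe π M' u w v := by
  induction h with
  | nil h => exact .nil (h.trans hM)
  | cons h1 h2 _ ih => exact .cons (h1.trans hM) h2 ih

theorem WalkLe.split {M : ℕ} {u v : Vtx Ω L} {w : List (Ω × Bool)} (h : WalkLe π (M + 1) u w v)
    (hu : lvl u ≤ M) : WalkLe π M u w v ∨ ∃ w₁ b w₂ u' r, w = w₁ ++ b :: w₂ ∧
      WalkLe π M u w₁ u' ∧ Adj (Ginf π) u' b r ∧ lvl r = M + 1 ∧ WalkLe π (M + 1) r w₂ v := by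
  induction h with
  | nil _ => exact Or.inl (.nil hu)
  | @cons u u' v b w h1 h2 h3 ih =>
    by_cases h4 : lvl u' ≤ M
    · rcases ih h4 with h5 | ⟨w₁, b', w₂, u'', r, rfl, g1, g2, g3, g4⟩
      · exact Or.inl (.cons hu h2 h5)
      · exact Or.inr ⟨b :: w₁, b', w₂, u'', r, rfl, .cons hu h2 g1, g2, g3, g4⟩
    · have := h3.start
      exact Or.inr ⟨[], b, w, u, u', rfl, .nil hu, h2, by omega, h3⟩

theorem WalkLe.finish {M : ℕ} {u v : Vtx Ω L} {w : List (Ω × Bool)} (h : WalkLe π M u w v) :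
    lvl v ≤ M := by
  induction h <;> assumption

section

variable [NeZero L] (hL : 4 ≤ L)
  (P2 : ∀ k l x y, π k x = π l y → π (k + 1) x = π (l + 1) y → k = l ∧ x = y)

include hL P2

theorem inv_St (n : ℕ) : Inv π n (St π n) := by
  induction n with
  | zero =>
    refine ⟨by simp [St], ?_, ?_, ?_, by simp [St]⟩
    · rintro u ⟨e, d⟩ v v' h
      cases d <;> simp [St] at h
    · intro u hu
      simp only [St, Set.mem_singleton_iff] at hu
      simp [hu, lvl]
    · intro u a hu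
      have := hu.1
      simp only [St, Set.mem_singleton_iff] at this
      simp [this, lvl]
  | succ n ih => exact ih.next hL P2

theorem adj_new {u v : Vtx Ω L} {b : Ω × Bool} (h : Adj (Ginf π) u b v) :
    ∃ m, Adj (RadE (St π m) ∪ ArcE π (St π m)) u b v ∧ lvl u ≤ m + 1 ∧ lvl v ≤ m + 1 ∧
      (lvl u = m + 1 ∨ lvl v = m + 1) := by
  obtain ⟨n, h⟩ := adj_inf.1 h
  induction n with
  | zero =>
    obtain ⟨e, d⟩ := b
    cases d <;> simp [St] at h
  | succ n ih =>
    have hl := (inv_St hL P2 (n + 1)).adj_lvl h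
    rcases adj_union.1 h with h' | h'
    · exact ih h'
    · refine ⟨n, h', hl.1, hl.2, ?_⟩
      by_cases hu : lvl u ≤ n
      · obtain ⟨hm, rfl⟩ := (inv_St hL P2 n).new_old hu h'
        right
        simp [lvl, (inv_St hL P2 n).miss _ _ hm]
      · left; omega

theorem adj_top {u v : Vtx Ω L} {b : Ω × Bool} {m : ℕ} (h : Adj (Ginf π) u b v)
    (hu : lvl u ≤ m + 1) (hv : lvl v ≤ m + 1) (huv : lvl u = m + 1 ∨ lvl v = m + 1) :
    Adj (RadE (St π m) ∪ ArcE π (St π m)) u b v := by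
  obtain ⟨m', h1, h2, h3, h4⟩ := adj_new hL P2 h
  have : m' = m := by omega
  exact this ▸ h1

theorem run_fwd {m : ℕ} {x : Ω} {k : ZMod L} {a v : Vtx Ω L} (ha : Anch π (St π m) x k a)
    (hv : ∀ x k a i, v ≠ .arc x k a i) (t : ℕ) : ∀ (i : ℕ) (w : List (Ω × Bool)),
    i + t + 1 = L → jj π (St π m) x k a + 2 ≤ i →
    WalkLe π (m + 1) (nd π (St π m) x k a i) w v →
    FreeGroup.IsReduced ((π (k + (i - 1 : ℕ)) x, true) :: w) →
    ∃ w₂, w = fwdSeg π x (k + (i : ℕ)) t ++ w₂ := by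
  have hI := inv_St hL P2 m
  induction t with
  | zero => intro i w _ _ _ _; exact ⟨w, by simp [fwdSeg]⟩
  | succ t ih =>
    intro i w h1 h2 hw hr
    have hl := hI.lvl_nd ha i
    rw [nd_arc h2 (by omega)] at hw hl
    generalize hz : Vtx.arc x k a i = z at hw
    cases hw with
    | nil _ => exact absurd hz.symm (hv _ _ _ _)
    | @cons _ u' _ b w' g1 g2 g3 =>
      subst hz
      have g4 := adj_top hL P2 g2 g1 g3.start (Or.inl hl)
      rw [FreeGroup.isReduced_cons_cons] at hr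
      rcases hI.new_arc (hI.miss _ _ ha) g4 with ⟨rfl, rfl⟩ | ⟨rfl, rfl⟩
      · obtain ⟨w₂, rfl⟩ := ih (i + 1) w' (by omega) (by omega) g3 (by simpa using hr.2)
        refine ⟨w₂, ?_⟩
        simp only [fwdSeg, List.range_succ_eq_map, List.map_cons, List.map_map, List.cons_append,
          Nat.cast_zero, add_zero, List.cons.injEq, true_and]
        congr 2
        funext j
        simp only [Function.comp, Nat.succ_eq_add_one, Nat.cast_add, Nat.cast_one]
        congr 2
        ring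
      · simp at hr

theorem run_bwd {m : ℕ} {x : Ω} {k : ZMod L} {a v : Vtx Ω L} (ha : Anch π (St π m) x k a)
    (hv : ∀ x k a i, v ≠ .arc x k a i) (t : ℕ) : ∀ (i : ℕ) (w : List (Ω × Bool)),
    i = jj π (St π m) x k a + 1 + t → i + 2 ≤ L →
    WalkLe π (m + 1) (nd π (St π m) x k a i) w v →
    FreeGroup.IsReduced ((π (k + (i : ℕ)) x, false) :: w) →
    ∃ w₂, w = bwdSeg π x (k + (i : ℕ)) t ++ w₂ := by
  have hI := inv_St hL P2 m
  induction t with
  | zero => intro i w _ _ _ _; exact ⟨w, by simp [bwdSeg]⟩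
  | succ t ih =>
    intro i w h1 h2 hw hr
    have hl := hI.lvl_nd ha i
    rw [nd_arc (by omega) h2] at hw hl
    generalize hz : Vtx.arc x k a i = z at hw
    cases hw with
    | nil _ => exact absurd hz.symm (hv _ _ _ _)
    | @cons _ u' _ b w' g1 g2 g3 =>
      subst hz
      have g4 := adj_top hL P2 g2 g1 g3.start (Or.inl hl)
      rw [FreeGroup.isReduced_cons_cons] at hr
      rcases hI.new_arc (hI.miss _ _ ha) g4 with ⟨rfl, rfl⟩ | ⟨rfl, rfl⟩
      · simp at hr
      · obtain ⟨w₂, rfl⟩ := ih (i - 1) w' (by omega) (by omega) g3 hr.2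
        refine ⟨w₂, ?_⟩
        have hi : ((i - 1 : ℕ) : ZMod L) = (i : ℕ) - 1 := by
          rw [Nat.cast_sub (by omega), Nat.cast_one]
        simp only [bwdSeg, List.range_succ_eq_map, List.map_cons, List.map_map, List.cons_append,
          Nat.cast_zero, sub_zero, List.cons.injEq, hi]
        refine ⟨by rw [add_sub_assoc], ?_⟩
        congr 2
        funext j
        simp only [Function.comp, Nat.succ_eq_add_one, Nat.cast_add, Nat.cast_one]
        congr 2
        ring

omit hL P2 [NeZero L] in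
theorem fwdSeg_prefix (x : Ω) (k : ZMod L) {n n' : ℕ} (h : n ≤ n') :
    ∃ r, fwdSeg π x k n' = fwdSeg π x k n ++ r := by
  obtain ⟨d, rfl⟩ := Nat.exists_eq_add_of_le h
  exact ⟨_, by rw [fwdSeg, List.range_add, List.map_append]; rfl⟩

omit hL P2 [NeZero L] in
theorem bwdSeg_prefix (x : Ω) (k : ZMod L) {n n' : ℕ} (h : n ≤ n') :
    ∃ r, bwdSeg π x k n' = bwdSeg π x k n ++ r := by
  obtain ⟨d, rfl⟩ := Nat.exists_eq_add_of_le h
  exact ⟨_, by rw [bwdSeg, List.range_add, List.map_append]; rfl⟩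

theorem run_rad {m : ℕ} {u v : Vtx Ω L} {e : Ω} {d : Bool} (hu : lvl u = m)
    (hv : ∀ x k a i, v ≠ .arc x k a i) {w : List (Ω × Bool)} (hw0 : w ≠ [])
    (hw : WalkLe π (m + 1) (.rad u e d) w v) (hr : FreeGroup.IsReduced ((e, d) :: w)) :
    ∃ w₂ x k, w = fwdSeg π x k (L - 3) ++ w₂ ∨ w = bwdSeg π x k (L - 3) ++ w₂ := by
  have hI := inv_St hL P2 m
  generalize hz : Vtx.rad u e d = z at hw
  cases hw with
  | nil _ => exact absurd rfl hw0
  | @cons _ u' _ b w' g1 g2 g3 =>
    subst hz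
    have g4 := adj_top hL P2 g2 g1 g3.start (Or.inl (by simp [lvl, hu]))
    rw [FreeGroup.isReduced_cons_cons] at hr
    rcases hI.new_rad hL hu g4 with ⟨rfl, -⟩ | ⟨x, k, a, ha, -, -, -, rfl, rfl⟩ |
      ⟨x, k, ha, -, -, rfl, rfl⟩
    · simp at hr
    · have hj := jj_le (π := π) (St π m) x k a
      obtain ⟨w₂, rfl⟩ := run_fwd hL P2 ha hv (L - 3 - jj π (St π m) x k a)
        (jj π (St π m) x k a + 2) w' (by omega) le_rfl g3 hr.2
      obtain ⟨r, hr'⟩ := fwdSeg_prefix (π := π) x (k + (jj π (St π m) x k a + 1 : ℕ))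
        (n := L - 3) (n' := L - 3 - jj π (St π m) x k a + 1) (by omega)
      refine ⟨r ++ w₂, x, k + (jj π (St π m) x k a + 1 : ℕ), Or.inl ?_⟩
      rw [← List.append_assoc, ← hr']
      simp only [fwdSeg, List.range_succ_eq_map, List.map_cons, List.map_map, List.cons_append,
        Nat.cast_zero, add_zero, List.cons.injEq, true_and]
      congr 2
      funext j
      simp only [Function.comp, Nat.succ_eq_add_one, Nat.cast_add, Nat.cast_one, Nat.cast_ofNat]
      congr 2
      ring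
    · have hj := jj_le (π := π) (St π m) x k u
      obtain ⟨w₂, rfl⟩ := run_bwd hL P2 ha hv (L - 3 - jj π (St π m) x k u)
        (L - 2) w' (by omega) (by omega) g3 hr.2
      obtain ⟨r, hr'⟩ := bwdSeg_prefix (π := π) x (k + (L - 2 : ℕ) + 1)
        (n := L - 3) (n' := L - 3 - jj π (St π m) x k u + 1) (by omega)
      refine ⟨r ++ w₂, x, k + (L - 2 : ℕ) + 1, Or.inr ?_⟩
      rw [← List.append_assoc, ← hr']
      simp only [bwdSeg, List.range_succ_eq_map, List.map_cons, List.map_map, List.cons_append,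
        Nat.cast_zero, sub_zero, List.cons.injEq, add_sub_cancel_right, true_and]
      congr 2
      funext j
      simp only [Function.comp, Nat.succ_eq_add_one, Nat.cast_add, Nat.cast_one]
      congr 2
      ring

theorem green_walk (e : Ω) (M : ℕ) : ∀ w : List (Ω × Bool), FreeGroup.IsReduced w →
    WalkLe π M .base w (.rad .base e true) →
    w = [(e, true)] ∨ ∃ (w₁ w₂ : List (Ω × Bool)) (x : Ω) (k : ZMod L),
      w = w₁ ++ fwdSeg π x k (L - 3) ++ w₂ ∨ w = w₁ ++ bwdSeg π x k (L - 3) ++ w₂ := by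
  induction M with
  | zero =>
    intro w _ hw
    have := hw.finish
    simp [lvl] at this
  | succ M ih =>
    intro w hr hw
    rcases hw.split (by simp [lvl]) with h | ⟨w₁, b, w₂, u', r, rfl, g1, g2, g3, g4⟩
    · exact ih w hr h
    · have hu' := g1.finish
      have g5 := adj_top hL P2 g2 (by omega) g3.le (Or.inr g3)
      obtain ⟨hm, rfl⟩ := (inv_St hL P2 M).new_old hu' g5
      by_cases h2 : w₂ = []
      · subst h2
        left
        generalize hz : Vtx.rad u' b.1 b.2 = z at g4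
        cases g4
        simp only [Vtx.rad.injEq] at hz
        obtain ⟨rfl, rfl, hb⟩ := hz
        have hM : M = 0 := by simpa [lvl] using g3.symm
        subst hM
        cases g1 with
        | nil _ => simp [← hb]
        | cons k1 k2 k3 =>
          obtain ⟨m, -, -, -, k4⟩ := adj_new hL P2 k2
          have := k3.start
          omega
      · right
        obtain ⟨w₃, x, k, h3⟩ := run_rad hL P2 ((inv_St hL P2 M).miss _ _ hm) (by simp) h2 g4
          (hr.infix ⟨w₁, [], by simp⟩)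
        refine ⟨w₁ ++ [b], w₃, x, k, ?_⟩
        rcases h3 with rfl | rfl
        · left; simp
        · right; simp

theorem inf_det {u v v' : Vtx Ω L} {b : Ω × Bool} (h1 : Adj (Ginf π) u b v)
    (h2 : Adj (Ginf π) u b v') : v = v' := by
  obtain ⟨n, h1⟩ := adj_inf.1 h1
  obtain ⟨m, h2⟩ := adj_inf.1 h2
  exact (inv_St hL P2 (max n m)).det u b v v' (h1.mono (St_mono (le_max_left _ _)).2)
    (h2.mono (St_mono (le_max_right _ _)).2)

theorem inf_ends {z : Vtx Ω L × Ω × Vtx Ω L} (hz : z ∈ Ginf π) : z.1 ∈ Uinf π ∧ z.2.2 ∈ Uinf π := by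
  obtain ⟨n, hz⟩ := hz
  exact ⟨⟨n, ((inv_St hL P2 n).ends z hz).1⟩, ⟨n, ((inv_St hL P2 n).ends z hz).2⟩⟩

theorem inf_complete {u : Vtx Ω L} (hu : u ∈ Uinf π) (b : Ω × Bool) :
    ∃ v ∈ Uinf π, Adj (Ginf π) u b v := by
  obtain ⟨n, hu⟩ := hu
  have : ∃ v, Adj (St π (n + 1)).G u b v := by
    by_contra hc
    push Not at hc
    have h1 := (inv_St hL P2 (n + 1)).miss u b ⟨(St_mono (Nat.le_succ n)).1 hu, hc⟩
    have h2 := (inv_St hL P2 n).le u hu
    omega
  obtain ⟨v, hv⟩ := this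
  have hv' : Adj (Ginf π) u b v := adj_inf.2 ⟨_, hv⟩
  refine ⟨v, ?_, hv'⟩
  rcases hv' with ⟨-, h⟩ | ⟨-, h⟩
  · exact (inf_ends hL P2 h).2
  · exact (inf_ends hL P2 h).1

theorem inf_placed {u : Vtx Ω L} (hu : u ∈ Uinf π) (x : Ω) (k : ZMod L) :
    Placed π (Ginf π) x k u := by
  obtain ⟨n, hu⟩ := hu
  refine ((inv_St hL P2 n).old_placed hL hu x k).mono ?_
  intro z hz
  exact ⟨n + 1, hz⟩

theorem exists_perms : ∃ s : Ω → Equiv.Perm (Uinf π),
    ∀ e (y : Uinf π), ((y : Vtx Ω L), e, (s e y : Vtx Ω L)) ∈ Ginf π := by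
  choose f hf1 hf2 using fun (b : Ω × Bool) (y : Uinf π) => inf_complete hL P2 y.2 b
  refine ⟨fun e => ⟨fun y => ⟨f (e, true) y, hf1 _ _⟩, fun y => ⟨f (e, false) y, hf1 _ _⟩,
    fun y => ?_, fun y => ?_⟩, fun e y => by simpa using hf2 (e, true) y⟩
  · apply Subtype.ext
    exact inf_det hL P2 (hf2 (e, false) _) (by simpa using hf2 (e, true) y)
  · apply Subtype.ext
    exact inf_det hL P2 (hf2 (e, true) _) (by simpa using hf2 (e, false) y)

end

end Cay

open Cay in
theorem exists_group {Ω : Type} {L : ℕ} [NeZero L] (hL : 4 ≤ L) (π : ZMod L → Ω → Ω)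
    (P2 : ∀ k l x y, π k x = π l y → π (k + 1) x = π (l + 1) y → k = l ∧ x = y) :
    ∃ (N : Type) (_ : Group N) (c : Ω → N), Subgroup.closure (Set.range c) = ⊤ ∧
      (∀ x, Closes (fun k => c (π k x))) ∧ Greendlinger π c := by
  obtain ⟨s, hs⟩ := exists_perms hL P2
  let c' : Ω → Equiv.Perm (Uinf π) := fun e => (s e)⁻¹
  let N := (FreeGroup.lift c').range
  let c : Ω → N := fun e => ⟨c' e, FreeGroup.of e, by simp⟩
  have hlift : ∀ g : FreeGroup Ω, ((FreeGroup.lift c g : N) : Equiv.Perm (Uinf π)) =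
      FreeGroup.lift c' g := by
    intro g
    have : N.subtype.comp (FreeGroup.lift c) = FreeGroup.lift c' := by
      ext1 e; simp [c]
    exact DFunLike.congr_fun this g
  have hstep : ∀ e (y : Uinf π) (v : Vtx Ω L), ((y : Vtx Ω L), e, v) ∈ Ginf π → (s e y : Vtx Ω L) = v :=
    fun e y v hv => inf_det hL P2 (b := (e, true)) (by simpa using hs e y) (by simpa using hv)
  refine ⟨N, inferInstance, c, ?_, ?_, ?_⟩
  · rw [← FreeGroup.range_lift_eq_closure, MonoidHom.range_eq_top]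
    rintro ⟨_, g, rfl⟩
    exact ⟨g, Subtype.ext (hlift g)⟩
  · intro x
    let R : ℕ → N := fun i => Nat.rec 1 (fun i r => r * c (π (i : ℕ) x)) i
    refine closes_of_seq _ R (fun i _ => rfl) ?_
    apply Subtype.ext
    apply inv_injective
    ext y
    obtain ⟨p, hp1, hp2⟩ := inf_placed hL P2 y.2 x 0
    have key : ∀ i : ℕ, (((R i).1⁻¹ y : Uinf π) : Vtx Ω L) = p (i : ℕ) := by
      intro i
      induction i with
      | zero => simp [R, hp1]
      | succ i ih =>
        have e1 : (R (i + 1)).1 = (R i).1 * (s (π (i : ℕ) x))⁻¹ := rfl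
        rw [e1, mul_inv_rev, inv_inv, Equiv.Perm.mul_apply]
        apply hstep
        rw [ih]
        simpa using hp2 (i : ℕ)
    rw [key, key]
    simp
  · intro w e hr he
    have hwalk : ∀ (w : List (Ω × Bool)) (y : Uinf π), ∃ M, WalkLe π M (y : Vtx Ω L) w
        ((FreeGroup.lift c' (FreeGroup.mk w))⁻¹ y : Uinf π) := by
      intro w
      induction w with
      | nil => intro y; exact ⟨_, by simpa using WalkLe.nil le_rfl⟩
      | cons b w ih =>
        intro y
        obtain ⟨M, hM⟩ := ih ((FreeGroup.lift c' (FreeGroup.mk [b]))⁻¹ y)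
        refine ⟨max M (lvl (y : Vtx Ω L)), ?_⟩
        have e1 : FreeGroup.mk (b :: w) = FreeGroup.mk [b] * FreeGroup.mk w := by
          rw [FreeGroup.mul_mk]; rfl
        rw [e1, map_mul, mul_inv_rev, Equiv.Perm.mul_apply]
        refine WalkLe.cons (le_max_right _ _) ?_ (hM.mono (le_max_left _ _))
        obtain ⟨e, d⟩ := b
        cases d
        · have := hs e ((s e)⁻¹ y)
          simpa [c'] using this
        · simpa [c'] using hs e y
    have hb : (Vtx.base : Vtx Ω L) ∈ Uinf π := ⟨0, rfl⟩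
    obtain ⟨M, hM⟩ := hwalk w ⟨.base, hb⟩
    rw [← hlift, he] at hM
    have e2 : (((c e : Equiv.Perm (Uinf π))⁻¹ ⟨.base, hb⟩ : Uinf π) : Vtx Ω L) =
        .rad .base e true := by
      simp only [c, c', inv_inv]
      apply hstep
      refine ⟨1, Or.inr (Or.inl ⟨.base, e, Or.inl ⟨⟨rfl, ?_⟩, rfl⟩⟩)⟩
      simp [St]
    rw [e2] at hM
    exact green_walk hL P2 e M w hr hM

end Crest.Agent.R191
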