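import Crest.Agent.R191.Defs

/-!
Layer-by-layer construction of the Cayley complex: one step.
-/

set_option autoImplicit false

namespace Crest.Agent.R191

theorem cyc_val {L : ℕ} [NeZero L] {α : Type} (f : ℕ → α) (hf : f L = f 0) (l : ZMod L) :
    f (l + 1).val = f (l.val + 1) := by
  have hl := ZMod.val_lt l
  have h1 : l + 1 = ((l.val + 1 : ℕ) : ZMod L) := by simp
  rw [h1, ZMod.val_natCast]
  by_cases h : l.val + 1 < L
  · rw [Nat.mod_eq_of_lt h]
  · have : l.val + 1 = L := by omega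
    rw [this, Nat.mod_self, hf]

namespace Cay

/-- Potential vertices. -/
inductive Vtx (Ω : Type) (L : ℕ) : Type
  | base : Vtx Ω L
  | rad : Vtx Ω L → Ω → Bool → Vtx Ω L
  | arc : Ω → ZMod L → Vtx Ω L → ℕ → Vtx Ω L

variable {Ω : Type} {L : ℕ}

/-- The level. -/
def lvl : Vtx Ω L → ℕ
  | .base => 0
  | .rad v _ _ => lvl v + 1
  | .arc _ _ v _ => lvl v + 1

/-- A stage of the construction. -/
structure Cx (Ω : Type) (L : ℕ) : Type where
  U : Set (Vtx Ω L)
  G : Set (Vtx Ω L × Ω × Vtx Ω L)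

/-- Signed adjacency. -/
def Adj {V : Type} (G : Set (V × Ω × V)) (u : V) (a : Ω × Bool) (v : V) : Prop :=
  (a.2 = true ∧ (u, a.1, v) ∈ G) ∨ (a.2 = false ∧ (v, a.1, u) ∈ G)

@[simp] theorem adj_true {V : Type} {G : Set (V × Ω × V)} {u v : V} {e : Ω} :
    Adj G u (e, true) v ↔ (u, e, v) ∈ G := by simp [Adj]

@[simp] theorem adj_false {V : Type} {G : Set (V × Ω × V)} {u v : V} {e : Ω} :
    Adj G u (e, false) v ↔ (v, e, u) ∈ G := by simp [Adj]

theorem Adj.mono {V : Type} {G G' : Set (V × Ω × V)} (h : G ⊆ G') {u v : V} {a : Ω × Bool}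
    (ha : Adj G u a v) : Adj G' u a v := by
  rcases ha with ⟨h1, h2⟩ | ⟨h1, h2⟩
  · exact Or.inl ⟨h1, h h2⟩
  · exact Or.inr ⟨h1, h h2⟩

/-- A missing half-edge. -/
def Miss (S : Cx Ω L) (u : Vtx Ω L) (a : Ω × Bool) : Prop := u ∈ S.U ∧ ∀ v, ¬ Adj S.G u a v

variable (π : ZMod L → Ω → Ω)

open Classical in
/-- Number of old edges on the new face. -/
noncomputable def jj (S : Cx Ω L) (x : Ω) (k : ZMod L) (a : Vtx Ω L) : ℕ :=
  if ∃ v, (a, π k x, v) ∈ S.G then 1 else 0

open Classical in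
/-- The last old vertex on the new face. -/
noncomputable def ss (S : Cx Ω L) (x : Ω) (k : ZMod L) (a : Vtx Ω L) : Vtx Ω L :=
  if h : ∃ v, (a, π k x, v) ∈ S.G then h.choose else a

/-- The new vertices on the new face. -/
noncomputable def nd (S : Cx Ω L) (x : Ω) (k : ZMod L) (a : Vtx Ω L) (i : ℕ) : Vtx Ω L :=
  if i = jj π S x k a + 1 then .rad (ss π S x k a) (π (k + (jj π S x k a : ℕ)) x) true
  else if i + 1 = L then .rad a (π (k - 1) x) false else .arc x k a i

/-- Anchors of new faces. -/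
def Anch (S : Cx Ω L) (x : Ω) (k : ZMod L) (a : Vtx Ω L) : Prop := Miss S a (π (k - 1) x, false)

/-- Radial edges. -/
def RadE (S : Cx Ω L) : Set (Vtx Ω L × Ω × Vtx Ω L) :=
  {z | ∃ u e, (Miss S u (e, true) ∧ z = (u, e, .rad u e true)) ∨
    (Miss S u (e, false) ∧ z = (.rad u e false, e, u))}

/-- Arc edges. -/
def ArcE (S : Cx Ω L) : Set (Vtx Ω L × Ω × Vtx Ω L) :=
  {z | ∃ x k a i, Anch π S x k a ∧ jj π S x k a + 1 ≤ i ∧ i + 2 ≤ L ∧
    z = (nd π S x k a i, π (k + (i : ℕ)) x, nd π S x k a (i + 1))}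

/-- New vertices. -/
def NewV (S : Cx Ω L) : Set (Vtx Ω L) :=
  {z | (∃ u e d, Miss S u (e, d) ∧ z = .rad u e d) ∨
    ∃ x k a i, Anch π S x k a ∧ jj π S x k a + 2 ≤ i ∧ i + 2 ≤ L ∧ z = .arc x k a i}

/-- The next stage. -/
def next (S : Cx Ω L) : Cx Ω L := ⟨S.U ∪ NewV π S, S.G ∪ (RadE S ∪ ArcE π S)⟩

/-- The face `x` is placed with its corner `k` at `u`. -/
def Placed {V : Type} (G : Set (V × Ω × V)) (x : Ω) (k : ZMod L) (u : V) : Prop :=
  ∃ p : ZMod L → V, p k = u ∧ ∀ l, (p l, π l x, p (l + 1)) ∈ G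

/-- The invariant. -/
structure Inv (n : ℕ) (S : Cx Ω L) : Prop where
  ends : ∀ z ∈ S.G, z.1 ∈ S.U ∧ z.2.2 ∈ S.U
  det : ∀ u a v v', Adj S.G u a v → Adj S.G u a v' → v = v'
  le : ∀ u ∈ S.U, lvl u ≤ n
  miss : ∀ u a, Miss S u a → lvl u = n
  face : ∀ u x k v w, (v, π (k - 1) x, u) ∈ S.G → (u, π k x, w) ∈ S.G → Placed π S.G x k u

variable {π}

theorem jj_cases (S : Cx Ω L) (x : Ω) (k : ZMod L) (a : Vtx Ω L) :
    (jj π S x k a = 0 ∧ ss π S x k a = a ∧ ∀ v, (a, π k x, v) ∉ S.G) ∨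
    (jj π S x k a = 1 ∧ (a, π k x, ss π S x k a) ∈ S.G) := by
  by_cases h : ∃ v, (a, π k x, v) ∈ S.G
  · right
    refine ⟨by simp [jj, h], ?_⟩
    rw [ss, dif_pos h]
    exact h.choose_spec
  · left
    refine ⟨by simp [jj, h], by rw [ss, dif_neg h], fun v hv => h ⟨v, hv⟩⟩

theorem jj_le (S : Cx Ω L) (x : Ω) (k : ZMod L) (a : Vtx Ω L) : jj π S x k a ≤ 1 := by
  rcases jj_cases (π := π) S x k a with h | h <;> omega

theorem Inv.detO {n : ℕ} {S : Cx Ω L} (h : Inv π n S) {u v v' : Vtx Ω L} {e : Ω}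
    (h1 : (u, e, v) ∈ S.G) (h2 : (u, e, v') ∈ S.G) : v = v' :=
  h.det u (e, true) v v' (by simpa) (by simpa)

theorem Inv.detI {n : ℕ} {S : Cx Ω L} (h : Inv π n S) {u v v' : Vtx Ω L} {e : Ω}
    (h1 : (v, e, u) ∈ S.G) (h2 : (v', e, u) ∈ S.G) : v = v' :=
  h.det u (e, false) v v' (by simpa) (by simpa)

theorem Inv.anch_miss {n : ℕ} {S : Cx Ω L} (h : Inv π n S) {x : Ω} {k : ZMod L} {a : Vtx Ω L}
    (ha : Anch π S x k a) : Miss S (ss π S x k a) (π (k + (jj π S x k a : ℕ)) x, true) := by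
  rcases jj_cases (π := π) S x k a with ⟨h1, h2, h3⟩ | ⟨h1, h2⟩
  · rw [h1, h2]
    exact ⟨ha.1, fun v => by simpa using h3 v⟩
  · rw [h1]
    refine ⟨(h.ends _ h2).2, fun v hv => ?_⟩
    obtain ⟨p, hp1, hp2⟩ := h.face (ss π S x k a) x (k + 1) a v (by simpa using h2)
      (by simpa using hv)
    have e1 : p k = a := h.detI (hp1 ▸ hp2 k) h2
    have := hp2 (k - 1)
    rw [sub_add_cancel, e1] at this
    exact ha.2 _ (by simpa using this)

theorem Inv.lvl_nd {n : ℕ} {S : Cx Ω L} (h : Inv π n S) {x : Ω} {k : ZMod L} {a : Vtx Ω L}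
    (ha : Anch π S x k a) (i : ℕ) : lvl (nd π S x k a i) = n + 1 := by
  unfold nd
  split_ifs
  · simp [lvl, h.miss _ _ (h.anch_miss ha)]
  · simp [lvl, h.miss _ _ ha]
  · simp [lvl, h.miss _ _ ha]

theorem Inv.nd_mem {n : ℕ} {S : Cx Ω L} (h : Inv π n S) {x : Ω} {k : ZMod L} {a : Vtx Ω L}
    (ha : Anch π S x k a) {i : ℕ} (h1 : jj π S x k a + 1 ≤ i) (h2 : i + 1 ≤ L) :
    nd π S x k a i ∈ NewV π S := by
  unfold nd
  split_ifs with h3 h4
  · exact Or.inl ⟨_, _, _, h.anch_miss ha, rfl⟩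
  · exact Or.inl ⟨_, _, _, ha, rfl⟩
  · exact Or.inr ⟨x, k, a, i, ha, by omega, by omega, rfl⟩

theorem Inv.lvl_new {n : ℕ} {S : Cx Ω L} (h : Inv π n S) {z : Vtx Ω L} (hz : z ∈ NewV π S) :
    lvl z = n + 1 := by
  rcases hz with ⟨u, e, d, hm, rfl⟩ | ⟨x, k, a, i, ha, -, -, rfl⟩
  · simp [lvl, h.miss _ _ hm]
  · simp [lvl, h.miss _ _ ha]

theorem nd_eq_arc {S : Cx Ω L} {x x' : Ω} {k k' : ZMod L} {a a' : Vtx Ω L} {i i' : ℕ}
    (h : nd π S x k a i = .arc x' k' a' i') : x = x' ∧ k = k' ∧ a = a' ∧ i = i' := by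
  unfold nd at h
  split_ifs at h
  simpa using h

theorem nd_arc {S : Cx Ω L} {x : Ω} {k : ZMod L} {a : Vtx Ω L} {i : ℕ}
    (h1 : jj π S x k a + 2 ≤ i) (h2 : i + 2 ≤ L) : nd π S x k a i = .arc x k a i := by
  unfold nd
  rw [if_neg (by omega), if_neg (by omega)]

theorem nd_eq_rad {S : Cx Ω L} {x : Ω} {k : ZMod L} {a u : Vtx Ω L} {i : ℕ} {e : Ω} {d : Bool}
    (h : nd π S x k a i = .rad u e d) :
    (i = jj π S x k a + 1 ∧ u = ss π S x k a ∧ e = π (k + (jj π S x k a : ℕ)) x ∧ d = true) ∨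
    (i + 1 = L ∧ u = a ∧ e = π (k - 1) x ∧ d = false) := by
  unfold nd at h
  split_ifs at h with h1 h2
  · left
    simp only [Vtx.rad.injEq] at h
    exact ⟨h1, h.1.symm, h.2.1.symm, h.2.2.symm⟩
  · right
    simp only [Vtx.rad.injEq] at h
    exact ⟨h2, h.1.symm, h.2.1.symm, h.2.2.symm⟩

/-- New edges at an old vertex. -/
theorem Inv.new_old {n : ℕ} {S : Cx Ω L} (h : Inv π n S) {u v : Vtx Ω L} {b : Ω × Bool}
    (hu : lvl u ≤ n) (hb : Adj (RadE S ∪ ArcE π S) u b v) : Miss S u b ∧ v = .rad u b.1 b.2 := by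
  obtain ⟨e, d⟩ := b
  cases d
  · rw [adj_false] at hb
    rcases hb with ⟨u', e', ⟨hm, he⟩ | ⟨hm, he⟩⟩ | ⟨x, k, a, i, ha, -, -, he⟩
    · simp only [Prod.mk.injEq] at he
      obtain ⟨rfl, rfl, rfl⟩ := he
      have := h.miss _ _ hm
      simp [lvl] at hu; omega
    · simp only [Prod.mk.injEq] at he
      obtain ⟨rfl, rfl, rfl⟩ := he
      exact ⟨hm, rfl⟩
    · simp only [Prod.mk.injEq] at he
      obtain ⟨-, -, rfl⟩ := he
      rw [h.lvl_nd ha] at hu; omega
  · rw [adj_true] at hb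
    rcases hb with ⟨u', e', ⟨hm, he⟩ | ⟨hm, he⟩⟩ | ⟨x, k, a, i, ha, -, -, he⟩
    · simp only [Prod.mk.injEq] at he
      obtain ⟨rfl, rfl, rfl⟩ := he
      exact ⟨hm, rfl⟩
    · simp only [Prod.mk.injEq] at he
      obtain ⟨rfl, rfl, rfl⟩ := he
      have := h.miss _ _ hm
      simp [lvl] at hu; omega
    · simp only [Prod.mk.injEq] at he
      obtain ⟨rfl, -, -⟩ := he
      rw [h.lvl_nd ha] at hu; omega

/-- New edges at a new radial vertex. -/
theorem Inv.new_rad {n : ℕ} {S : Cx Ω L} (h : Inv π n S) (hL : 4 ≤ L) {u v : Vtx Ω L} {e : Ω}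
    {d : Bool} {b : Ω × Bool} (hu : lvl u = n)
    (hb : Adj (RadE S ∪ ArcE π S) (.rad u e d) b v) :
    (b = (e, !d) ∧ v = u) ∨
    (∃ x k a, Anch π S x k a ∧ d = true ∧ u = ss π S x k a ∧ e = π (k + (jj π S x k a : ℕ)) x ∧
      b = (π (k + (jj π S x k a + 1 : ℕ)) x, true) ∧ v = nd π S x k a (jj π S x k a + 2)) ∨
    (∃ x k, Anch π S x k u ∧ d = false ∧ e = π (k - 1) x ∧
      b = (π (k + (L - 2 : ℕ)) x, false) ∧ v = nd π S x k u (L - 2)) := by
  obtain ⟨e₀, d₀⟩ := b
  cases d₀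
  · rw [adj_false] at hb
    rcases hb with ⟨u', e', ⟨hm, he⟩ | ⟨hm, he⟩⟩ | ⟨x, k, a, i, ha, hi1, hi2, he⟩
    · simp only [Prod.mk.injEq, Vtx.rad.injEq] at he
      obtain ⟨rfl, rfl, rfl, rfl, rfl⟩ := he
      exact Or.inl ⟨rfl, rfl⟩
    · simp only [Prod.mk.injEq] at he
      obtain ⟨rfl, rfl, rfl⟩ := he
      have := h.miss _ _ hm
      simp [lvl] at this; omega
    · simp only [Prod.mk.injEq] at he
      obtain ⟨rfl, rfl, he⟩ := he
      rcases nd_eq_rad he.symm with ⟨h1, -⟩ | ⟨h1, rfl, h3, h4⟩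
      · omega
      · have : i = L - 2 := by omega
        subst this
        exact Or.inr (Or.inr ⟨x, k, ha, h4, h3, rfl, rfl⟩)
  · rw [adj_true] at hb
    rcases hb with ⟨u', e', ⟨hm, he⟩ | ⟨hm, he⟩⟩ | ⟨x, k, a, i, ha, hi1, hi2, he⟩
    · simp only [Prod.mk.injEq] at he
      obtain ⟨rfl, rfl, rfl⟩ := he
      have := h.miss _ _ hm
      simp [lvl] at this; omega
    · simp only [Prod.mk.injEq, Vtx.rad.injEq] at he
      obtain ⟨⟨rfl, rfl, rfl⟩, rfl, rfl⟩ := he
      exact Or.inl ⟨rfl, rfl⟩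
    · simp only [Prod.mk.injEq] at he
      obtain ⟨he, rfl, rfl⟩ := he
      rcases nd_eq_rad he.symm with ⟨h1, h2, h3, h4⟩ | ⟨h1, -⟩
      · subst h1
        exact Or.inr (Or.inl ⟨x, k, a, ha, h4, h2, h3, rfl, rfl⟩)
      · omega

/-- New edges at a new arc vertex. -/
theorem Inv.new_arc {n : ℕ} {S : Cx Ω L} (h : Inv π n S) {a v : Vtx Ω L} {x : Ω} {k : ZMod L}
    {i : ℕ} {b : Ω × Bool} (hu : lvl a = n)
    (hb : Adj (RadE S ∪ ArcE π S) (.arc x k a i) b v) :
    (b = (π (k + (i : ℕ)) x, true) ∧ v = nd π S x k a (i + 1)) ∨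
    (b = (π (k + (i - 1 : ℕ)) x, false) ∧ v = nd π S x k a (i - 1)) := by
  obtain ⟨e₀, d₀⟩ := b
  cases d₀
  · rw [adj_false] at hb
    rcases hb with ⟨u', e', ⟨hm, he⟩ | ⟨hm, he⟩⟩ | ⟨x', k', a', i', ha, hi1, hi2, he⟩
    · simp at he
    · simp only [Prod.mk.injEq] at he
      obtain ⟨rfl, rfl, rfl⟩ := he
      have := h.miss _ _ hm
      simp [lvl] at this; omega
    · simp only [Prod.mk.injEq] at he
      obtain ⟨rfl, rfl, he⟩ := he
      obtain ⟨rfl, rfl, rfl, rfl⟩ := nd_eq_arc he.symm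
      exact Or.inr ⟨rfl, rfl⟩
  · rw [adj_true] at hb
    rcases hb with ⟨u', e', ⟨hm, he⟩ | ⟨hm, he⟩⟩ | ⟨x', k', a', i', ha, hi1, hi2, he⟩
    · simp only [Prod.mk.injEq] at he
      obtain ⟨rfl, rfl, rfl⟩ := he
      have := h.miss _ _ hm
      simp [lvl] at this; omega
    · simp at he
    · simp only [Prod.mk.injEq] at he
      obtain ⟨he, rfl, rfl⟩ := he
      obtain ⟨rfl, rfl, rfl, rfl⟩ := nd_eq_arc he.symm
      exact Or.inl ⟨rfl, rfl⟩

theorem adj_union {V : Type} {G G' : Set (V × Ω × V)} {u v : V} {b : Ω × Bool} :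
    Adj (G ∪ G') u b v ↔ Adj G u b v ∨ Adj G' u b v := by
  obtain ⟨e, d⟩ := b
  cases d <;> simp

theorem Inv.adj_lvl {n : ℕ} {S : Cx Ω L} (h : Inv π n S) {u v : Vtx Ω L} {b : Ω × Bool}
    (hb : Adj S.G u b v) : lvl u ≤ n ∧ lvl v ≤ n := by
  rcases hb with ⟨-, hb⟩ | ⟨-, hb⟩
  · exact ⟨h.le _ (h.ends _ hb).1, h.le _ (h.ends _ hb).2⟩
  · exact ⟨h.le _ (h.ends _ hb).2, h.le _ (h.ends _ hb).1⟩

/-- The new face of an anchor is placed. -/
theorem Inv.anch_placed [NeZero L] {n : ℕ} {S : Cx Ω L} (h : Inv π n S) (hL : 4 ≤ L) {x : Ω}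
    {k : ZMod L} {a : Vtx Ω L} (ha : Anch π S x k a) :
    ∃ p : ZMod L → Vtx Ω L, p k = a ∧ p (k + (jj π S x k a : ℕ)) = ss π S x k a ∧
      (∀ i : ℕ, jj π S x k a + 1 ≤ i → i + 1 ≤ L → p (k + (i : ℕ)) = nd π S x k a i) ∧
      ∀ l, (p l, π l x, p (l + 1)) ∈ (next π S).G := by
  let full : ℕ → Vtx Ω L := fun i =>
    if i = 0 ∨ L ≤ i then a else if i ≤ jj π S x k a then ss π S x k a else nd π S x k a i
  have hj := jj_le (π := π) S x k a
  have hval : ∀ i : ℕ, i < L → (k + (i : ℕ) - k).val = i := by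
    intro i hi
    rw [add_sub_cancel_left, ZMod.val_natCast, Nat.mod_eq_of_lt hi]
  have hfull : ∀ i, jj π S x k a + 1 ≤ i → i + 1 ≤ L → full i = nd π S x k a i := by
    intro i h1 h2
    simp only [full]
    rw [if_neg (by omega), if_neg (by omega)]
  have hfj : full (jj π S x k a) = ss π S x k a := by
    simp only [full]
    rcases jj_cases (π := π) S x k a with ⟨h1, h2, -⟩ | ⟨h1, -⟩
    · rw [h1, h2]; simp
    · rw [if_neg (by omega), if_pos le_rfl]
  have hedge : ∀ i < L, (full i, π (k + (i : ℕ)) x, full (i + 1)) ∈ (next π S).G := by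
    intro i hi
    by_cases h1 : i < jj π S x k a
    · rcases jj_cases (π := π) S x k a with ⟨h2, -⟩ | ⟨h2, h3⟩
      · omega
      · have : i = 0 := by omega
        subst this
        left
        have e1 : full (0 + 1) = ss π S x k a := by rw [← hfj, h2]
        rw [e1]
        simpa [full] using h3
    by_cases h2 : i = jj π S x k a
    · subst h2
      right; left
      rw [hfj, hfull _ le_rfl (by omega)]
      refine ⟨_, _, Or.inl ⟨h.anch_miss ha, ?_⟩⟩
      simp [nd]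
    by_cases h3 : i + 1 = L
    · right; left
      rw [hfull i (by omega) (by omega)]
      refine ⟨a, _, Or.inr ⟨ha, ?_⟩⟩
      have e1 : full (i + 1) = a := by simp [full, h3]
      have e2 : k + (i : ℕ) = k - 1 := by
        have : ((i + 1 : ℕ) : ZMod L) = 0 := by rw [h3]; simp
        push_cast at this
        linear_combination this
      rw [e1, e2, nd, if_neg (by omega), if_pos h3]
    · right; right
      rw [hfull i (by omega) (by omega), hfull (i + 1) (by omega) (by omega)]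
      exact ⟨x, k, a, i, ha, by omega, by omega, rfl⟩
  refine ⟨fun l => full (l - k).val, by simp [full], ?_, ?_, ?_⟩
  · simp only
    rw [hval _ (by omega), hfj]
  · intro i h1 h2
    simp only
    rw [hval _ (by omega), hfull i h1 h2]
  · intro l
    have := hedge _ (ZMod.val_lt (l - k))
    simp only
    rw [show l + 1 - k = (l - k) + 1 by ring, cyc_val full (by simp [full])]
    simpa using this

theorem Placed.mono {V : Type} {G G' : Set (V × Ω × V)} (hG : G ⊆ G') {x : Ω} {k : ZMod L} {u : V}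
    (h : Placed π G x k u) : Placed π G' x k u := by
  obtain ⟨p, h1, h2⟩ := h
  exact ⟨p, h1, fun l => hG (h2 l)⟩

/-- All faces at old vertices are placed in the next stage. -/
theorem Inv.old_placed [NeZero L] {n : ℕ} {S : Cx Ω L} (h : Inv π n S) (hL : 4 ≤ L)
    {u : Vtx Ω L} (hu : u ∈ S.U) (x : Ω) (k : ZMod L) : Placed π (next π S).G x k u := by
  by_cases h1 : Anch π S x k u
  · obtain ⟨p, hp1, -, -, hp2⟩ := h.anch_placed hL h1
    exact ⟨p, hp1, hp2⟩
  · have : ∃ a, (a, π (k - 1) x, u) ∈ S.G := by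
      by_contra hc
      push Not at hc
      exact h1 ⟨hu, fun v hv => hc v (by simpa using hv)⟩
    obtain ⟨a, ha⟩ := this
    by_cases h2 : ∃ w, (u, π k x, w) ∈ S.G
    · obtain ⟨w, hw⟩ := h2
      exact (h.face u x k a w ha hw).mono Set.subset_union_left
    · have hA : Anch π S x (k - 1) a := by
        refine ⟨(h.ends _ ha).1, fun v hv => h2 ?_⟩
        obtain ⟨p, hp1, hp2⟩ := h.face a x (k - 1) v u (by simpa using hv) ha
        have e1 := hp2 (k - 1)
        rw [hp1, sub_add_cancel] at e1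
        have e2 : p k = u := h.detO e1 ha
        exact ⟨_, e2 ▸ hp2 k⟩
      obtain ⟨p, hp1, hp3, -, hp2⟩ := h.anch_placed hL hA
      refine ⟨p, ?_, hp2⟩
      rcases jj_cases (π := π) S x (k - 1) a with ⟨-, -, h3⟩ | ⟨h3, h4⟩
      · exact absurd ha (h3 u)
      · rw [h3] at hp3
        simp only [Nat.cast_one, sub_add_cancel] at hp3
        rw [hp3]
        exact h.detO h4 ha

theorem cast_L_sub_two [NeZero L] (hL : 4 ≤ L) (k : ZMod L) :
    k + ((L - 2 : ℕ) : ZMod L) + 1 = k - 1 := by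
  have : ((L - 2 + 2 : ℕ) : ZMod L) = 0 := by
    rw [Nat.sub_add_cancel (by omega)]; simp
  rw [Nat.cast_add] at this
  simp only [Nat.cast_ofNat] at this
  linear_combination this

theorem Inv.next [NeZero L] {n : ℕ} {S : Cx Ω L} (h : Inv π n S) (hL : 4 ≤ L)
    (P2 : ∀ k l x y, π k x = π l y → π (k + 1) x = π (l + 1) y → k = l ∧ x = y) :
    Inv π (n + 1) (next π S) := by
  have hold : ∀ u b v, lvl u ≤ n → Adj (Cay.next π S).G u b v →
      Adj S.G u b v ∨ (Miss S u b ∧ v = .rad u b.1 b.2) := by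
    intro u b v hu hb
    rcases adj_union.1 hb with hb | hb
    · exact Or.inl hb
    · exact Or.inr (h.new_old hu hb)
  have hnew : ∀ u b v, lvl u = n + 1 → Adj (Cay.next π S).G u b v →
      Adj (RadE S ∪ ArcE π S) u b v := by
    intro u b v hu hb
    rcases adj_union.1 hb with hb | hb
    · have := (h.adj_lvl hb).1; omega
    · exact hb
  have hends : ∀ z ∈ (Cay.next π S).G, z.1 ∈ (Cay.next π S).U ∧ z.2.2 ∈ (Cay.next π S).U := by
    rintro z (hz | ⟨u, e, ⟨hm, rfl⟩ | ⟨hm, rfl⟩⟩ | ⟨x, k, a, i, ha, hi1, hi2, rfl⟩)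
    · exact ⟨Or.inl (h.ends z hz).1, Or.inl (h.ends z hz).2⟩
    · exact ⟨Or.inl hm.1, Or.inr (Or.inl ⟨_, _, _, hm, rfl⟩)⟩
    · exact ⟨Or.inr (Or.inl ⟨_, _, _, hm, rfl⟩), Or.inl hm.1⟩
    · exact ⟨Or.inr (h.nd_mem ha hi1 (by omega)), Or.inr (h.nd_mem ha (by omega) (by omega))⟩
  have hmemU : ∀ u b v, Adj (Cay.next π S).G u b v → u ∈ (Cay.next π S).U := by
    rintro u b v (⟨-, hb⟩ | ⟨-, hb⟩)
    · exact (hends _ hb).1
    · exact (hends _ hb).2
  refine ⟨hends, ?_, ?_, ?_, ?_⟩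
  · intro u b v v' h1 h2
    rcases hmemU _ _ _ h1 with hu | hu
    · have hu' := h.le u hu
      rcases hold u b v hu' h1 with g1 | ⟨g1, rfl⟩ <;> rcases hold u b v' hu' h2 with g2 | ⟨g2, rfl⟩
      · exact h.det _ _ _ _ g1 g2
      · exact absurd g1 (g2.2 _)
      · exact absurd g2 (g1.2 _)
      · rfl
    · have hl := h.lvl_new hu
      have g1 := hnew _ _ _ hl h1
      have g2 := hnew _ _ _ hl h2
      rcases hu with ⟨u, e, d, hm, rfl⟩ | ⟨x, k, a, i, ha, hi1, hi2, rfl⟩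
      · have hu := h.miss _ _ hm
        rcases h.new_rad hL hu g1 with ⟨a1, a2⟩ | ⟨x, k, a, ha, a1, a2, a3, a4, a5⟩ |
            ⟨x, k, ha, a1, a2, a3, a4⟩ <;>
          rcases h.new_rad hL hu g2 with ⟨b1, b2⟩ | ⟨x', k', a', ha', b1, b2, b3, b4, b5⟩ |
            ⟨x', k', ha', b1, b2, b3, b4⟩
        · rw [a2, b2]
        · rw [a1, b1] at b4; simp at b4
        · rw [a1, b1] at b3; simp at b3
        · rw [b1, a1] at a4; simp at a4
        · rw [a4] at b4
          simp only [Prod.mk.injEq, and_true] at b4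
          push_cast at b4
          rw [← add_assoc, ← add_assoc] at b4
          obtain ⟨e1, rfl⟩ := P2 _ _ _ _ (a3.symm.trans b3) b4
          have hka : k = k' ∧ a = a' := by
            rcases jj_cases (π := π) S x k a with ⟨c1, c2, c3⟩ | ⟨c1, c2⟩ <;>
              rcases jj_cases (π := π) S x k' a' with ⟨d1, d2, d3⟩ | ⟨d1, d2⟩
            · rw [c1, d1] at e1
              exact ⟨by simpa using e1, by rw [← c2, ← d2, ← a2, ← b2]⟩
            · rw [c1, d1] at e1
              exfalso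
              have e2 : k - 1 = k' := by push_cast at e1; linear_combination e1
              rw [← b2, a2, c2, ← e2] at d2
              exact ha.2 _ (by simpa using d2)
            · rw [c1, d1] at e1
              exfalso
              have e2 : k' - 1 = k := by push_cast at e1; linear_combination -e1
              rw [← a2, b2, d2, ← e2] at c2
              exact ha'.2 _ (by simpa using c2)
            · rw [c1, d1] at e1
              have e2 : k = k' := by simpa using e1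
              subst e2
              rw [← a2] at c2
              rw [← b2] at d2
              exact ⟨rfl, h.detI c2 d2⟩
          obtain ⟨rfl, rfl⟩ := hka
          rw [a5, b5]
        · rw [a1] at b1; simp at b1
        · rw [b1, a1] at a3; simp at a3
        · rw [a1] at b1; simp at b1
        · rw [a3] at b3
          simp only [Prod.mk.injEq, and_true] at b3
          have := P2 _ _ _ _ b3 (by
            rw [cast_L_sub_two hL, cast_L_sub_two hL]; exact a2.symm.trans b2)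
          obtain ⟨e1, rfl⟩ := this
          have e2 : k = k' := by simpa using e1
          subst e2
          rw [a4, b4]
      · have hu := h.miss _ _ ha
        rcases h.new_arc hu g1 with ⟨a1, a2⟩ | ⟨a1, a2⟩ <;>
          rcases h.new_arc hu g2 with ⟨b1, b2⟩ | ⟨b1, b2⟩
        · rw [a2, b2]
        · rw [a1] at b1; simp at b1
        · rw [a1] at b1; simp at b1
        · rw [a2, b2]
  · rintro u (hu | hu)
    · exact (h.le u hu).trans (Nat.le_succ n)
    · exact (h.lvl_new hu).le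
  · rintro u b ⟨hu | hu, hm⟩
    · exfalso
      by_cases h1 : Miss S u b
      · obtain ⟨e, d⟩ := b
        cases d
        · exact hm (.rad u e false) (adj_false.2 (Or.inr (Or.inl ⟨u, e, Or.inr ⟨h1, rfl⟩⟩)))
        · exact hm (.rad u e true) (adj_true.2 (Or.inr (Or.inl ⟨u, e, Or.inl ⟨h1, rfl⟩⟩)))
      · exact h1 ⟨hu, fun v hv => hm v (hv.mono Set.subset_union_left)⟩
    · exact h.lvl_new hu
  · intro u x k v w h1 h2
    rcases (hends _ h2).1 with hu | hu
    · exact h.old_placed hL hu x k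
    · have hl := h.lvl_new hu
      have g1 := hnew _ _ _ hl (adj_false.2 h1)
      have g2 := hnew _ _ _ hl (adj_true.2 h2)
      rcases hu with ⟨u', e, d, hm, hu⟩ | ⟨x', k', a, i, ha, hi1, hi2, hu⟩
      · simp only at hu
        subst hu
        have hu := h.miss _ _ hm
        rcases h.new_rad hL hu g1 with ⟨a1, a2⟩ | ⟨x₁, k₁, a, ha, a1, a2, a3, a4, a5⟩ |
            ⟨x₁, k₁, ha, a1, a2, a3, a4⟩ <;>
          rcases h.new_rad hL hu g2 with ⟨b1, b2⟩ | ⟨x', k', a', ha', b1, b2, b3, b4, b5⟩ |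
            ⟨x', k', ha', b1, b2, b3, b4⟩
        · simp only [Prod.mk.injEq] at a1 b1
          rw [← a1.2] at b1; simp at b1
        · simp only [Prod.mk.injEq, and_true] at a1 b4
          push_cast at b4
          rw [← add_assoc] at b4
          obtain ⟨e1, rfl⟩ := P2 _ _ _ _ (a1.1.trans b3) (by rw [sub_add_cancel]; exact b4)
          obtain ⟨p, -, -, hp, hp2⟩ := h.anch_placed hL ha'
          refine ⟨p, ?_, hp2⟩
          have hj := jj_le (π := π) S x k' a'
          have := hp (jj π S x k' a' + 1) le_rfl (by omega)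
          rw [show k = k' + ((jj π S x k' a' + 1 : ℕ) : ZMod L) by
            push_cast; linear_combination e1, this, nd, if_pos rfl, b1, b2, b3]
        · simp at b3
        · simp at a4
        · simp at a4
        · simp at a4
        · simp only [Prod.mk.injEq, and_true] at a3 b1
          obtain ⟨e1, rfl⟩ := P2 _ _ _ _ a3 (by
            rw [sub_add_cancel, cast_L_sub_two hL]; exact b1.1.trans a2)
          obtain ⟨p, -, -, hp, hp2⟩ := h.anch_placed hL ha
          refine ⟨p, ?_, hp2⟩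
          have hj := jj_le (π := π) S x k₁ u'
          have := hp (L - 2 + 1) (by omega) (by omega)
          rw [show k = k₁ + ((L - 2 + 1 : ℕ) : ZMod L) by
            rw [Nat.cast_add, Nat.cast_one]; linear_combination e1, this, nd, if_neg (by omega),
            if_pos (by omega), a1, a2]
        · rw [a1] at b1; simp at b1
        · simp at b3
      · simp only at hu
        subst hu
        have hu := h.miss _ _ ha
        rcases h.new_arc hu g1 with ⟨a1, a2⟩ | ⟨a1, a2⟩ <;>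
          rcases h.new_arc hu g2 with ⟨b1, b2⟩ | ⟨b1, b2⟩
        · simp at a1
        · simp at a1
        · simp only [Prod.mk.injEq, and_true] at a1 b1
          have hi : ((i - 1 : ℕ) : ZMod L) + 1 = (i : ℕ) := by
            rw [← Nat.cast_succ, Nat.succ_eq_add_one, Nat.sub_add_cancel (by omega)]
          obtain ⟨e1, rfl⟩ := P2 _ _ _ _ a1 (by rw [sub_add_cancel, add_assoc, hi]; exact b1)
          obtain ⟨p, -, -, hp, hp2⟩ := h.anch_placed hL ha
          refine ⟨p, ?_, hp2⟩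
          rw [show k = k' + (i : ℕ) by rw [← hi]; linear_combination e1,
            hp i (by omega) (by omega), nd_arc hi1 hi2]
        · simp at b1

end Cay

end Crest.Agent.R191
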