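import Mathlib
import Crest.Prelude.Def_Cost

/-!
Row 191 (fixed price counterexample): shared definitions.
-/

set_option autoImplicit false

namespace Crest.Agent.R191

open MeasureTheory

/-! ### Labelled graphs -/

/-- `Reach A φ u g v`: there is a path from `u` to `v` along edges of `A` (triples
`(source, letter, target)`, usable in both directions) whose `φ`-label (product from left to right,
inverse label for an edge used backwards) is `g`. -/
inductive Reach {V Λ Q : Type} [Group Q] (A : Set (V × Λ × V)) (φ : V × Λ × V → Q) (u : V) :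
    Q → V → Prop
  | refl : Reach A φ u 1 u
  | fwd {g : Q} {v : V} {l : Λ} {w : V} : Reach A φ u g v → (v, l, w) ∈ A →
      Reach A φ u (g * φ (v, l, w)) w
  | bwd {g : Q} {v : V} {l : Λ} {w : V} : Reach A φ u g v → (w, l, v) ∈ A →
      Reach A φ u (g * (φ (w, l, v))⁻¹) w

/-- `Gen Δ x g`: in the action groupoid, the arrow `(g, x)` is a product of arrows of `Δ` and
their inverses. -/
inductive Gen {Γ X : Type} [Group Γ] [MulAction Γ X] (Δ : Set (Γ × X)) (x : X) : Γ → Prop
  | one : Gen Δ x 1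
  | fwd {g γ : Γ} : Gen Δ x g → (γ, g • x) ∈ Δ → Gen Δ x (γ * g)
  | bwd {g γ : Γ} : Gen Δ x g → (γ, γ⁻¹ • g • x) ∈ Δ → Gen Δ x (γ⁻¹ * g)

/-! ### The Bernoulli shift -/

/-- The space of the Bernoulli shift with alphabet `[0,1]`. -/
def Bern (Γ : Type) : Type := Γ → unitInterval

instance (Γ : Type) : MeasurableSpace (Bern Γ) :=
  inferInstanceAs (MeasurableSpace (Γ → unitInterval))

instance (Γ : Type) [Countable Γ] : StandardBorelSpace (Bern Γ) :=
  inferInstanceAs (StandardBorelSpace (Γ → unitInterval))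

/-- The product of Lebesgue measures. -/
noncomputable def bernMeasure (Γ : Type) : Measure (Bern Γ) :=
  Measure.infinitePi (fun _ : Γ => (volume : Measure unitInterval))

instance (Γ : Type) : IsProbabilityMeasure (bernMeasure Γ) :=
  inferInstanceAs (IsProbabilityMeasure
    (Measure.infinitePi (fun _ : Γ => (volume : Measure unitInterval))))

instance (Γ : Type) [Group Γ] : MulAction Γ (Bern Γ) where
  smul g ω := fun h => ω (g⁻¹ * h)
  one_smul ω := by
    funext h
    show ω (1⁻¹ * h) = ω h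
    simp
  mul_smul g g' ω := by
    funext h
    show ω ((g * g')⁻¹ * h) = ω (g'⁻¹ * (g⁻¹ * h))
    simp [mul_assoc]

theorem bern_smul_apply {Γ : Type} [Group Γ] (g : Γ) (ω : Bern Γ) (h : Γ) :
    (g • ω) h = ω (g⁻¹ * h) := rfl

/-! ### Faces -/

/-- `f` has trivial cyclic product: it is the coboundary of a potential. -/
def Closes {L : ℕ} {Q : Type} [Group Q] (f : ZMod L → Q) : Prop :=
  ∃ pre : ZMod L → Q, ∀ k, pre (k + 1) = pre k * f k

/-- `n` consecutive letters of the face `x`, starting at position `k`, read forwards. -/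
def fwdSeg {L : ℕ} {Ω : Type} (π : ZMod L → Ω → Ω) (x : Ω) (k : ZMod L) (n : ℕ) :
    List (Ω × Bool) :=
  (List.range n).map (fun i : ℕ => (π (k + (i : ZMod L)) x, true))

/-- `n` consecutive letters of the face `x`, read backwards from the corner `k`. -/
def bwdSeg {L : ℕ} {Ω : Type} (π : ZMod L → Ω → Ω) (x : Ω) (k : ZMod L) (n : ℕ) :
    List (Ω × Bool) :=
  (List.range n).map (fun i : ℕ => (π (k - 1 - (i : ZMod L)) x, false))

/-- Greendlinger-type property of `c : Ω → N`. -/
def Greendlinger {L : ℕ} {Ω N : Type} [Group N] (π : ZMod L → Ω → Ω) (c : Ω → N) : Prop :=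
  ∀ (w : List (Ω × Bool)) (e : Ω), FreeGroup.IsReduced w →
    FreeGroup.lift c (FreeGroup.mk w) = c e →
    w = [(e, true)] ∨ ∃ (w₁ w₂ : List (Ω × Bool)) (x : Ω) (k : ZMod L),
      w = w₁ ++ fwdSeg π x k (L - 3) ++ w₂ ∨ w = w₁ ++ bwdSeg π x k (L - 3) ++ w₂

/-- Multiset form of small-set expansion by a factor `40` for at most `F₀` faces. -/
def MExp {L : ℕ} {Ω : Type} [Fintype Ω] (π : ZMod L → Ω → Ω) (F₀ : ℕ) : Prop :=
  ∀ (ℓ μ : Ω → ℕ), (∀ k x, ℓ x ≤ μ (π k x)) →
    (Finset.univ.filter (fun x => ℓ x ≠ 0)).card ≤ F₀ → 40 * ∑ x, ℓ x ≤ ∑ e, μ e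

/-! ### The group -/

/-- Positions on a face. -/
abbrev Pos : Type := ZMod 165

/-- Slots: the two ends of an edge and the corners of a face. -/
inductive Slot : Type
  | ini : Slot
  | ter : Slot
  | cor : Pos → Slot
  deriving DecidableEq, Fintype

/-- Relators of the big group. -/
def rels : Set (FreeGroup (Pos ⊕ Slot)) :=
  {r | ∃ k : Pos,
    r = (FreeGroup.of (Sum.inl k))⁻¹ * FreeGroup.of (Sum.inr Slot.ini) * FreeGroup.of (Sum.inl k) *
        (FreeGroup.of (Sum.inr (Slot.cor (k - 1))))⁻¹ ∨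
    r = (FreeGroup.of (Sum.inl k))⁻¹ * FreeGroup.of (Sum.inr Slot.ter) * FreeGroup.of (Sum.inl k) *
        (FreeGroup.of (Sum.inr (Slot.cor k)))⁻¹}

/-- The big group. -/
abbrev Big : Type := PresentedGroup rels

/-- The generators `p_k`. -/
def P (k : Pos) : Big := PresentedGroup.of (Sum.inl k)

/-- The generators `T_s`. -/
def T (s : Slot) : Big := PresentedGroup.of (Sum.inr s)

/-- The map from the free group on the `p_k`. -/
def ι : FreeGroup Pos →* Big := FreeGroup.lift P

theorem rel_ini (k : Pos) : (P k)⁻¹ * T Slot.ini * P k = T (Slot.cor (k - 1)) := by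
  have h : (PresentedGroup.mk rels ((FreeGroup.of (Sum.inl k))⁻¹ * FreeGroup.of (Sum.inr Slot.ini) *
      FreeGroup.of (Sum.inl k) * (FreeGroup.of (Sum.inr (Slot.cor (k - 1))))⁻¹)) = 1 :=
    PresentedGroup.one_of_mem ⟨k, Or.inl rfl⟩
  simp only [map_mul, map_inv] at h
  exact mul_inv_eq_one.mp h

theorem rel_ter (k : Pos) : (P k)⁻¹ * T Slot.ter * P k = T (Slot.cor k) := by
  have h : (PresentedGroup.mk rels ((FreeGroup.of (Sum.inl k))⁻¹ * FreeGroup.of (Sum.inr Slot.ter) *
      FreeGroup.of (Sum.inl k) * (FreeGroup.of (Sum.inr (Slot.cor k)))⁻¹)) = 1 :=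
    PresentedGroup.one_of_mem ⟨k, Or.inr rfl⟩
  simp only [map_mul, map_inv] at h
  exact mul_inv_eq_one.mp h

end Crest.Agent.R191
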