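import Crest.Agent.R191.Defs

/-!
Task R191-E: random colour-compatible permutations expand small sets.

`N = |Om B n|`.  `cls b b' = {y | col ini y = b ∧ col ter y = b'}` has `N / B²` elements.

Plan for `expansion`.
1. (one permutation) Let `Pk k = {σ : Perm (Om B n) | ∀ x, col ini (σ x) = col (cor (k-1)) x ∧
   col ter (σ x) = col (cor k) x}`, `τ T b b' = |T ∩ cls b b'| / |cls b b'|` (a real number).  For all
   finsets `S, T`:  `#{σ ∈ Pk k | ∀ x ∈ S, σ x ∈ T} ≤ #(Pk k) * ∏ x ∈ S, τ T (col (cor (k-1)) x) (col (cor k) x)`.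
   Induction on `S`, inserting `x` with `(b,b')` its pair of corner colours, `c = |cls b b'|`,
   `t = |T ∩ cls b b'|`, `j = #{z ∈ S | z has the same corner colours as x}`.  The map
   `(σ, y') ↦ (swap (σ x) y' * σ, σ x)` is injective from
   `{(σ,y') | σ (S ∪ {x}) ⊆ T, y' ∈ cls b b' \ σ S}` (size `count * (c - j)`) to
   `{(σ',y) | σ' S ⊆ T, y ∈ (T ∩ cls b b') \ σ' S}` (size `count' * (t - j)`); so
   `count * (c-j) ≤ count' * (t-j)`, and `(t-j)/(c-j) ≤ t/c` (note `j < c`; `x ∉ S`).
2. `Conf B n = Fintype.piFinset Pk`, so for `K = {1,3,...,163}` (positions `2i+1`, `i < 82`)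
   `#{p ∈ Conf | ∀ k, ∀ x ∈ S, p k x ∈ T} ≤ #Conf * ∏ x ∈ S, w x`,
   `w x = ∏ i < 82, τ T (col (cor (2i)) x) (col (cor (2i+1)) x)`.
3. The 164 corner slots are distinct, so `∑ x, w x = N * (|T| / N)^82` (independence of the
   coordinates of `Slot → Fin B`; `∑ b b', τ T b b' = B² |T| / N`).
4. For `w ≥ 0`, `s ≥ 1`: `∑_{S, |S| = s} ∏_{x ∈ S} w x ≤ (e * W / s)^s` whenever `∑ w ≤ W`, `W > 0`
   (`λ^s * e_s ≤ ∏ (1 + λ w x) ≤ exp (λ ∑ w)` with `λ = s / W`, `Finset.prod_one_add`); with `w = 1`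
   this gives `choose N t ≤ (e N / t)^t`.
5. If `p` is not expanding there are `S` with `1 ≤ s = |S| ≤ N/240` and `T` with `|T| = 40 s`
   (enlarge the neighbourhood, `Finset.exists_subsuperset_card_eq`), `p k S ⊆ T` for all `k`.
   Union bound: with `u = 40 s / N ≤ 1/6`, the term for `s` is at most
   `((e/u)^40 * (e * 40 * u^81))^s = (40 * e^41 * u^41)^s ≤ (40 * (1/2)^41)^s ≤ (1/3)^s`,
   and `∑_{s ≥ 1} 3^{-s} ≤ 1/2`.
-/

set_option autoImplicit false

namespace Crest.Agent.R191

/-- The base space of the random model. -/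
abbrev Om (B n : ℕ) : Type := (Slot → Fin B) × Fin n

/-- The colour of a slot. -/
def col {B n : ℕ} (s : Slot) (x : Om B n) : Fin B := x.1 s

/-- Colour compatibility. -/
def Compat {B n : ℕ} (p : Pos → Equiv.Perm (Om B n)) : Prop :=
  ∀ k x, col Slot.ini (p k x) = col (Slot.cor (k - 1)) x ∧
    col Slot.ter (p k x) = col (Slot.cor k) x

open Classical in
/-- The configuration space. -/
noncomputable def Conf (B n : ℕ) : Finset (Pos → Equiv.Perm (Om B n)) :=
  Finset.univ.filter Compat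

/-- Small sets expand by a factor `40`. -/
def Expanding {Ω : Type} [Fintype Ω] (p : Pos → Equiv.Perm Ω) : Prop :=
  ∀ S T : Finset Ω, 240 * S.card ≤ Fintype.card Ω → (∀ k, ∀ x ∈ S, p k x ∈ T) →
    40 * S.card ≤ T.card

namespace Ex

open Finset

/-! ### One permutation -/

section One

variable {Ω C : Type} [Fintype Ω] [DecidableEq Ω] [DecidableEq C]

/-- Permutations carrying the colouring `a` to the colouring `t`. -/
def Pc (a t : Ω → C) : Finset (Equiv.Perm Ω) := univ.filter (fun σ => ∀ x, t (σ x) = a x)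

/-- The colour class. -/
def cls (t : Ω → C) (c : C) : Finset Ω := univ.filter (fun y => t y = c)

/-- Compatible permutations sending `S` into `T`. -/
def Av (a t : Ω → C) (S T : Finset Ω) : Finset (Equiv.Perm Ω) :=
  (Pc a t).filter (fun σ => ∀ x ∈ S, σ x ∈ T)

theorem mem_Av {a t : Ω → C} {S T : Finset Ω} {σ : Equiv.Perm Ω} :
    σ ∈ Av a t S T ↔ (∀ x, t (σ x) = a x) ∧ ∀ x ∈ S, σ x ∈ T := by
  simp [Av, Pc]

omit [Fintype Ω] in
theorem card_sdiff_image {a t : Ω → C} {σ : Equiv.Perm Ω} (hσ : ∀ x, t (σ x) = a x)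
    (S U : Finset Ω) (c : C) (hU : ∀ y ∈ U, t y = c) (hS : ∀ x ∈ S, a x = c → σ x ∈ U) :
    (U \ S.image σ).card + (S.filter (fun z => a z = c)).card = U.card := by
  have h1 : U ∩ S.image σ = (S.filter (fun z => a z = c)).image σ := by
    ext y
    simp only [mem_inter, mem_image, mem_filter]
    constructor
    · rintro ⟨hy, z, hz, rfl⟩
      exact ⟨z, ⟨hz, by rw [← hσ z, hU _ hy]⟩, rfl⟩
    · rintro ⟨z, ⟨hz, hc⟩, rfl⟩
      exact ⟨hS z hz hc, z, hz, rfl⟩
  have h2 := card_sdiff_add_card_inter U (S.image σ)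
  rw [h1, card_image_of_injective _ σ.injective] at h2
  exact h2

theorem step (a t : Ω → C) (S T : Finset Ω) (x : Ω) (hx : x ∉ S) :
    (Av a t (insert x S) T).card * (cls t (a x)).card ≤
      (Av a t S T).card * (T ∩ cls t (a x)).card := by
  set j := (S.filter (fun z => a z = a x)).card with hj
  set c := (cls t (a x)).card with hc
  set τ := (T ∩ cls t (a x)).card with hτ
  have hτc : τ ≤ c := card_le_card inter_subset_right
  rcases (Av a t (insert x S) T).eq_empty_or_nonempty with h0 | ⟨σ₀, hσ₀⟩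
  · simp [h0]
  have hcl : ∀ y, y ∈ cls t (a x) ↔ t y = a x := fun y => by simp [cls]
  have e1 : ∀ σ ∈ Av a t (insert x S) T, (cls t (a x) \ S.image σ).card + j = c := by
    intro σ hσ
    rw [mem_Av] at hσ
    refine card_sdiff_image hσ.1 S _ (a x) (fun y hy => (hcl y).1 hy) ?_
    intro z _ hz
    rw [hcl, hσ.1, hz]
  have e2 : ∀ σ ∈ Av a t S T, ((T ∩ cls t (a x)) \ S.image σ).card + j = τ := by
    intro σ hσ
    rw [mem_Av] at hσ
    refine card_sdiff_image hσ.1 S _ (a x) (fun y hy => (hcl y).1 (mem_inter.1 hy).2) ?_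
    intro z hzS hz
    rw [mem_inter, hcl, hσ.1, hz]
    exact ⟨hσ.2 z hzS, rfl⟩
  have hjc : j < c := by
    have h := e1 σ₀ hσ₀
    have : 0 < (cls t (a x) \ S.image σ₀).card := by
      refine card_pos.2 ⟨σ₀ x, ?_⟩
      rw [mem_sdiff, hcl, (mem_Av.1 hσ₀).1]
      refine ⟨rfl, ?_⟩
      intro hm
      obtain ⟨z, hz, hzx⟩ := mem_image.1 hm
      exact hx (σ₀.injective hzx ▸ hz)
    omega
  have key : ((Av a t (insert x S) T).sigma (fun σ => cls t (a x) \ S.image σ)).card ≤
      ((Av a t S T).sigma (fun σ => (T ∩ cls t (a x)) \ S.image σ)).card := by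
    refine card_le_card_of_injOn
      (fun q => ⟨Equiv.swap (q.1 x) q.2 * q.1, q.1 x⟩) ?_ ?_
    · rintro ⟨σ, y⟩ hq
      simp only [coe_sigma, Set.mem_sigma_iff, mem_coe, mem_sdiff, mem_Av, hcl] at hq
      obtain ⟨⟨h1, h2⟩, h3, h4⟩ := hq
      have hfix : ∀ z ∈ S, Equiv.swap (σ x) y (σ z) = σ z := by
        intro z hz
        refine Equiv.swap_apply_of_ne_of_ne ?_ ?_
        · intro h; exact hx (σ.injective h ▸ hz)
        · intro h; exact h4 (mem_image.2 ⟨z, hz, h⟩)
      simp only [coe_sigma, Set.mem_sigma_iff, mem_coe, mem_sdiff, mem_Av, mem_inter, hcl,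
        Equiv.Perm.coe_mul, Function.comp_apply]
      refine ⟨⟨?_, ?_⟩, ⟨h2 x (mem_insert_self _ _), h1 x⟩, ?_⟩
      · intro z
        rw [Equiv.swap_apply_def]
        split_ifs with ha hb
        · rw [h3, ← h1 z, ha, h1]
        · rw [h1, ← h1 z, hb, h3]
        · exact h1 z
      · intro z hz
        rw [hfix z hz]
        exact h2 z (mem_insert_of_mem hz)
      · intro hm
        obtain ⟨z, hz, hzx⟩ := mem_image.1 hm
        simp only [Function.comp_apply] at hzx
        rw [hfix z hz] at hzx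
        exact hx (σ.injective hzx ▸ hz)
    · rintro ⟨σ, y⟩ - ⟨σ', y'⟩ - h
      simp only [Sigma.mk.injEq, heq_eq_eq] at h
      obtain ⟨h1, h2⟩ := h
      have h3 : y = y' := by
        have := congrArg (fun ρ : Equiv.Perm Ω => ρ x) h1
        simpa using this
      subst h3
      rw [h2] at h1
      have h4 : σ = σ' := mul_left_cancel h1
      subst h4
      rfl
  have k1 : ∑ σ ∈ Av a t (insert x S) T, (cls t (a x) \ S.image σ).card =
      (Av a t (insert x S) T).card * (c - j) :=
    sum_const_nat (fun σ hσ => by have := e1 σ hσ; omega)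
  have k2 : ∑ σ ∈ Av a t S T, ((T ∩ cls t (a x)) \ S.image σ).card =
      (Av a t S T).card * (τ - j) :=
    sum_const_nat (fun σ hσ => by have := e2 σ hσ; omega)
  rw [card_sigma, card_sigma, k1, k2] at key
  set u := (Av a t (insert x S) T).card
  set v := (Av a t S T).card
  have h5 : (τ - j) * c ≤ τ * (c - j) := by
    rcases le_or_gt j τ with h | h
    · obtain ⟨d, hd⟩ := Nat.exists_eq_add_of_le h
      obtain ⟨e, he⟩ := Nat.exists_eq_add_of_le hτc
      rw [he, hd]
      have e3 : j + d - j = d := by omega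
      have e4 : j + d + e - j = d + e := by omega
      rw [e3, e4]
      nlinarith [Nat.zero_le (j * e)]
    · rw [Nat.sub_eq_zero_of_le h.le]; simp
  have hpos : 0 < c - j := by omega
  refine Nat.le_of_mul_le_mul_right ?_ hpos
  calc u * c * (c - j) = u * (c - j) * c := by ring
    _ ≤ v * (τ - j) * c := Nat.mul_le_mul_right _ key
    _ = v * ((τ - j) * c) := by ring
    _ ≤ v * (τ * (c - j)) := Nat.mul_le_mul_left _ h5
    _ = v * τ * (c - j) := by ring

/-- The density of `T` in a colour class. -/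
noncomputable def tau (t : Ω → C) (T : Finset Ω) (c : C) : ℝ :=
  ((T ∩ cls t c).card : ℝ) / (cls t c).card

theorem tau_nonneg (t : Ω → C) (T : Finset Ω) (c : C) : 0 ≤ tau t T c := by
  unfold tau; positivity

theorem one_perm (a t : Ω → C) (hc : ∀ c, 0 < (cls t c).card) (S T : Finset Ω) :
    ((Av a t S T).card : ℝ) ≤ (Pc a t).card * ∏ x ∈ S, tau t T (a x) := by
  induction S using Finset.induction_on with
  | empty => simp [Av]
  | insert x S hx ih =>
    have h := step a t S T x hx
    have h' : ((Av a t (insert x S) T).card : ℝ) * (cls t (a x)).card ≤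
        (Av a t S T).card * (T ∩ cls t (a x)).card := by exact_mod_cast h
    have hp : (0 : ℝ) < (cls t (a x)).card := by exact_mod_cast hc (a x)
    have h2 : ((Av a t (insert x S) T).card : ℝ) ≤ (Av a t S T).card * tau t T (a x) := by
      unfold tau
      rw [← mul_div_assoc, le_div_iff₀ hp]
      exact h'
    rw [prod_insert hx]
    calc _ ≤ (Av a t S T).card * tau t T (a x) := h2
      _ ≤ ((Pc a t).card * ∏ x ∈ S, tau t T (a x)) * tau t T (a x) :=
          mul_le_mul_of_nonneg_right ih (tau_nonneg _ _ _)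
      _ = _ := by ring

theorem sum_tau [Fintype C] (t : Ω → C) (T : Finset Ω) (m : ℕ) (hm : ∀ c, (cls t c).card = m) :
    ∑ c, tau t T c = (T.card : ℝ) / m := by
  have h : T.card = ∑ c, (T ∩ cls t c).card := by
    rw [card_eq_sum_card_fiberwise (f := t) (t := univ) (fun _ _ => mem_univ _)]
    refine sum_congr rfl (fun c _ => congrArg _ ?_)
    ext y; simp [cls]
  rw [h]
  simp only [tau, hm]
  rw [← sum_div]
  push_cast
  rfl

end One

/-! ### Independence of coordinates -/

theorem sum_comp_inj {ι σ β : Type} [Fintype ι] [Fintype σ] [Fintype β] [DecidableEq ι]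
    [DecidableEq σ] (e : ι → σ) (he : Function.Injective e) :
    ∃ m : ℕ, ∀ F : (ι → β) → ℝ, ∑ f : σ → β, F (fun i => f (e i)) = m * ∑ h, F h := by
  classical
  let R := {s // s ∉ Set.range e}
  let E : ι ⊕ R ≃ σ := (Equiv.sumCongr (Equiv.ofInjective e he) (Equiv.refl R)).trans
    (Equiv.sumCompl (fun s => s ∈ Set.range e))
  have hE : ∀ i, E (Sum.inl i) = e i := fun i => rfl
  let G : (σ → β) ≃ (ι → β) × (R → β) :=
    (Equiv.arrowCongr E.symm (Equiv.refl β)).trans (Equiv.sumArrowEquivProdArrow ι R β)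
  have hG : ∀ f : σ → β, (G f).1 = fun i => f (e i) := fun f => rfl
  refine ⟨Fintype.card (R → β), fun F => ?_⟩
  calc ∑ f : σ → β, F (fun i => f (e i)) = ∑ f : σ → β, F (G f).1 := by simp only [hG]
    _ = ∑ q : (ι → β) × (R → β), F q.1 := Equiv.sum_comp G (fun q => F q.1)
    _ = _ := by
      rw [Fintype.sum_prod_type_right]
      simp

/-! ### Elementary symmetric sums -/

theorem esymm_le {Ω : Type} [Fintype Ω] [DecidableEq Ω] (w : Ω → ℝ) (hw : ∀ x, 0 ≤ w x)
    (W : ℝ) (hW : 0 < W) (hs : ∑ x, w x ≤ W) (s : ℕ) (h1 : 0 < s) :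
    ∑ S ∈ powersetCard s (univ : Finset Ω), ∏ x ∈ S, w x ≤ (Real.exp 1 * W / s) ^ s := by
  have hs0 : (0 : ℝ) < s := by exact_mod_cast h1
  set l : ℝ := s / W with hl
  have hl0 : 0 < l := by positivity
  have a1 : l ^ s * ∑ S ∈ powersetCard s (univ : Finset Ω), ∏ x ∈ S, w x ≤
      ∏ x, (1 + l * w x) := by
    rw [prod_one_add, mul_sum]
    calc ∑ S ∈ powersetCard s (univ : Finset Ω), l ^ s * ∏ x ∈ S, w x
        = ∑ S ∈ powersetCard s (univ : Finset Ω), ∏ x ∈ S, (l * w x) := by
          refine sum_congr rfl (fun S hS => ?_)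
          rw [prod_mul_distrib, prod_const, (mem_powersetCard.1 hS).2]
      _ ≤ _ := by
          refine sum_le_sum_of_subset_of_nonneg ?_ ?_
          · intro S _; simp
          · intro S _ _
            exact prod_nonneg (fun x _ => mul_nonneg hl0.le (hw x))
  have a2 : ∏ x, (1 + l * w x) ≤ Real.exp 1 ^ s := by
    calc ∏ x, (1 + l * w x) ≤ ∏ x, Real.exp (l * w x) := by
          refine prod_le_prod (fun x _ => ?_) (fun x _ => ?_)
          · have := mul_nonneg hl0.le (hw x); linarith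
          · have := Real.add_one_le_exp (l * w x); linarith
      _ = Real.exp (l * ∑ x, w x) := by rw [← Real.exp_sum, mul_sum]
      _ ≤ Real.exp (s * 1) := by
          refine Real.exp_le_exp.2 ?_
          calc l * ∑ x, w x ≤ l * W := mul_le_mul_of_nonneg_left hs hl0.le
            _ = s * 1 := by rw [hl]; field_simp
      _ = Real.exp 1 ^ s := Real.exp_nat_mul 1 s
  have a3 : (Real.exp 1 * W / s) ^ s = Real.exp 1 ^ s / l ^ s := by
    rw [← div_pow]; congr 1; rw [hl]; field_simp
  rw [a3, le_div_iff₀ (pow_pos hl0 s), mul_comm]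
  exact a1.trans a2

/-! ### The concrete colourings -/

/-- The two ends of an edge. -/
def e0 : Bool → Slot
  | false => Slot.ini
  | true => Slot.ter

/-- The two corners at position `k`. -/
def ek (k : Pos) : Bool → Slot
  | false => Slot.cor (k - 1)
  | true => Slot.cor k

/-- Target colour. -/
def tc {B n : ℕ} (y : Om B n) : Bool → Fin B := fun b => y.1 (e0 b)

/-- Source colour at position `k`. -/
def ac {B n : ℕ} (k : Pos) (x : Om B n) : Bool → Fin B := fun b => x.1 (ek k b)

theorem compat_iff {B n : ℕ} (p : Pos → Equiv.Perm (Om B n)) :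
    Compat p ↔ ∀ k x, tc (p k x) = ac k x := by
  refine forall_congr' (fun k => forall_congr' (fun x => ?_))
  rw [funext_iff, Bool.forall_bool]
  rfl

theorem conf_eq (B n : ℕ) :
    Conf B n = Fintype.piFinset (fun k : Pos => Pc (ac k) (tc (B := B) (n := n))) := by
  ext p
  simp [Conf, compat_iff, Pc, Fintype.mem_piFinset]

/-- The odd positions. -/
def od (i : Fin 82) : Pos := ((2 * i.val + 1 : ℕ) : ZMod 165)

theorem od_val (i : Fin 82) : (od i).val = 2 * i.val + 1 := by
  unfold od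
  rw [ZMod.val_natCast]
  have := i.2
  omega

theorem od_sub (i : Fin 82) : (od i - 1).val = 2 * i.val := by
  have : od i - 1 = ((2 * i.val : ℕ) : ZMod 165) := by
    unfold od; push_cast; ring
  rw [this, ZMod.val_natCast]
  have := i.2
  omega

theorem od_inj : Function.Injective od := by
  intro i j h
  have := congrArg ZMod.val h
  rw [od_val, od_val] at this
  exact Fin.ext (by omega)

theorem ek_inj : Function.Injective (fun q : Fin 82 × Bool => ek (od q.1) q.2) := by
  rintro ⟨i, b⟩ ⟨j, c⟩ h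
  cases b <;> cases c <;> simp only [ek, Slot.cor.injEq] at h <;>
    have := congrArg ZMod.val h <;> simp only [od_val, od_sub] at this
  · rw [show i = j from Fin.ext (by omega)]
  · omega
  · omega
  · rw [show i = j from Fin.ext (by omega)]

theorem e0_inj : Function.Injective e0 := by
  intro b c h
  cases b <;> cases c <;> simp_all [e0]

theorem card_cls (B n : ℕ) : ∃ m : ℕ, (∀ c, (cls (tc (B := B) (n := n)) c).card = m) ∧
    m * B ^ 2 = Fintype.card (Om B n) := by
  obtain ⟨m, hm⟩ := sum_comp_inj (β := Fin B) e0 e0_inj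
  refine ⟨m * n, fun c => ?_, ?_⟩
  · have h := hm (fun h => if h = c then 1 else 0)
    simp only [sum_ite_eq', mem_univ, if_true, mul_one] at h
    have h2 : ((cls (tc (B := B) (n := n)) c).card : ℝ) =
        ∑ y : Om B n, if tc y = c then 1 else 0 := by
      simp [cls]
    have h3 : ((cls (tc (B := B) (n := n)) c).card : ℝ) = m * n := by
      rw [h2, Fintype.sum_prod_type, ← h, sum_mul]
      refine sum_congr rfl (fun f _ => ?_)
      show ∑ _y : Fin n, (if (fun i => f (e0 i)) = c then (1 : ℝ) else 0) = _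
      rw [sum_const, card_univ, Fintype.card_fin, nsmul_eq_mul, mul_comm]
    exact_mod_cast h3
  · have h := hm (fun _ => 1)
    simp only [sum_const, card_univ, nsmul_eq_mul, mul_one] at h
    have h2 : Fintype.card (Slot → Fin B) = m * Fintype.card (Bool → Fin B) := by
      exact_mod_cast h
    rw [Fintype.card_prod, h2]
    simp only [Fintype.card_pi, Fintype.card_fin, prod_const, card_univ, Fintype.card_bool]
    ring

/-- The weight of a point. -/
noncomputable def wt {B n : ℕ} (T : Finset (Om B n)) (x : Om B n) : ℝ :=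
  ∏ i : Fin 82, tau tc T (ac (od i) x)

theorem wt_nonneg {B n : ℕ} (T : Finset (Om B n)) (x : Om B n) : 0 ≤ wt T x :=
  prod_nonneg (fun _ _ => tau_nonneg _ _ _)

theorem sum_wt {B n : ℕ} (hB : 0 < B) (hn : 0 < n) (T : Finset (Om B n)) :
    ∑ x, wt T x = Fintype.card (Om B n) * ((T.card : ℝ) / Fintype.card (Om B n)) ^ 82 := by
  obtain ⟨m, hm, hmN⟩ := card_cls B n
  obtain ⟨m', hm'⟩ := sum_comp_inj (β := Fin B) _ ek_inj
  have hpow : ∀ g : (Bool → Fin B) → ℝ,
      ∑ h : Fin 82 × Bool → Fin B, ∏ i : Fin 82, g (fun b => h (i, b)) = (∑ c, g c) ^ 82 := by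
    intro g
    rw [Fintype.sum_pow]
    exact Equiv.sum_comp (Equiv.curry (Fin 82) Bool (Fin B)) (fun p => ∏ i : Fin 82, g (p i))
  have h1 := hm' (fun h => ∏ i : Fin 82, tau tc T (fun b => h (i, b)))
  have h2 := hm' (fun h => ∏ i : Fin 82, (fun _ => (1 : ℝ)) (fun b => h (i, b)))
  rw [hpow] at h1
  rw [hpow (fun _ => 1)] at h2
  rw [sum_tau tc T m hm] at h1
  simp only [prod_const_one, sum_const, card_univ, nsmul_eq_mul, mul_one] at h2
  have h3 : (Fintype.card (Bool → Fin B) : ℝ) = (B : ℝ) ^ 2 := by simp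
  rw [h3] at h2
  have h4 : (Fintype.card (Om B n) : ℝ) = m' * ((B : ℝ) ^ 2) ^ 82 * n := by
    rw [Fintype.card_prod, ← h2, Fintype.card_fin, Nat.cast_mul]
  have h5 : ∑ x, wt T x = n * (m' * ((T.card : ℝ) / m) ^ 82) := by
    rw [Fintype.sum_prod_type, ← h1, mul_sum]
    refine sum_congr rfl (fun f _ => ?_)
    show ∑ _y : Fin n, (∏ i : Fin 82, tau tc T (fun b => f (ek (od i) b))) = _
    rw [sum_const, card_univ, Fintype.card_fin, nsmul_eq_mul]
  have hN : (0 : ℝ) < Fintype.card (Om B n) := by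
    have : Nonempty (Fin B) := ⟨⟨0, hB⟩⟩
    have : Nonempty (Fin n) := ⟨⟨0, hn⟩⟩
    exact_mod_cast Fintype.card_pos
  have h6 : (m : ℝ) * (B : ℝ) ^ 2 = Fintype.card (Om B n) := by exact_mod_cast hmN
  have hm0 : (m : ℝ) ≠ 0 := by
    intro h; rw [h] at h6; linarith
  have hB0 : (B : ℝ) ≠ 0 := by exact_mod_cast hB.ne'
  have h7 : (T.card : ℝ) / m = (B : ℝ) ^ 2 * ((T.card : ℝ) / Fintype.card (Om B n)) := by
    rw [← h6]; field_simp
  rw [h5, h7, mul_pow]
  generalize ((T.card : ℝ) / Fintype.card (Om B n)) ^ 82 = z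
  rw [h4]
  generalize ((B : ℝ) ^ 2) ^ 82 = y
  ring

open Classical in
theorem conf_bound {B n : ℕ} (hB : 0 < B) (hn : 0 < n) (S T : Finset (Om B n)) :
    (((Conf B n).filter (fun p => ∀ k, ∀ x ∈ S, p k x ∈ T)).card : ℝ) ≤
      (Conf B n).card * ∏ x ∈ S, wt T x := by
  obtain ⟨m, hm, hmN⟩ := card_cls B n
  have hm0 : 0 < m := by
    have : Nonempty (Fin B) := ⟨⟨0, hB⟩⟩
    have : Nonempty (Fin n) := ⟨⟨0, hn⟩⟩
    have : 0 < Fintype.card (Om B n) := Fintype.card_pos
    rcases Nat.eq_zero_or_pos m with h | h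
    · rw [h] at hmN; omega
    · exact h
  have h1 : (Conf B n).filter (fun p => ∀ k, ∀ x ∈ S, p k x ∈ T) =
      Fintype.piFinset (fun k : Pos => Av (ac k) tc S T) := by
    ext p
    simp only [conf_eq, mem_filter, Fintype.mem_piFinset, Av]
    exact ⟨fun h k => ⟨h.1 k, h.2 k⟩, fun h => ⟨fun k => (h k).1, fun k => (h k).2⟩⟩
  rw [h1, conf_eq, Fintype.card_piFinset, Fintype.card_piFinset]
  push_cast
  let K : Finset Pos := univ.image od
  have h2 : ∏ x ∈ S, wt T x = ∏ k : Pos, if k ∈ K then ∏ x ∈ S, tau tc T (ac k x) else 1 := by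
    rw [prod_ite_mem, univ_inter, prod_image (fun i _ j _ h => od_inj h)]
    unfold wt
    exact prod_comm
  rw [h2, ← prod_mul_distrib]
  refine prod_le_prod (fun k _ => by positivity) (fun k _ => ?_)
  split_ifs
  · exact one_perm _ _ (fun c => by rw [hm c]; exact hm0) S T
  · rw [mul_one]
    exact_mod_cast card_le_card (filter_subset _ _)

theorem geom (M : ℕ) : ∑ s ∈ Icc 1 M, ((1 : ℝ) / 3) ^ s ≤ 1 / 2 - (1 / 3) ^ M / 2 := by
  induction M with
  | zero => simp
  | succ M ih =>
    rw [sum_Icc_succ_top (by omega), pow_succ]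
    linarith

theorem term_le (N : ℝ) (hN : 0 < N) (s : ℕ) (h1 : 0 < s) (h2 : 240 * (s : ℝ) ≤ N) :
    (Real.exp 1 * N / ((40 * s : ℕ) : ℝ)) ^ (40 * s) *
      (Real.exp 1 * (N * (((40 * s : ℕ) : ℝ) / N) ^ 82) / s) ^ s ≤ (1 / 3) ^ s := by
  have hs0 : (0 : ℝ) < s := by exact_mod_cast h1
  rw [pow_mul, ← mul_pow]
  refine pow_le_pow_left₀ (by positivity) ?_ s
  set u : ℝ := ((40 * s : ℕ) : ℝ) / N with hu
  have hu0 : 0 < u := by rw [hu]; push_cast; positivity
  have hu6 : u ≤ 1 / 6 := by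
    rw [hu, div_le_iff₀ hN]; push_cast; linarith
  have a1 : Real.exp 1 * N / ((40 * s : ℕ) : ℝ) = Real.exp 1 / u := by
    rw [hu]; push_cast; field_simp
  have a2 : Real.exp 1 * (N * u ^ 82) / s = 40 * Real.exp 1 * u ^ 81 := by
    have : N * u = 40 * s := by rw [hu]; push_cast; field_simp
    rw [div_eq_iff hs0.ne']
    calc Real.exp 1 * (N * u ^ 82) = Real.exp 1 * u ^ 81 * (N * u) := by ring
      _ = _ := by rw [this]; ring
  rw [a1, a2]
  have a3 : (Real.exp 1 / u) ^ 40 * (40 * Real.exp 1 * u ^ 81) = 40 * (Real.exp 1 * u) ^ 41 := by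
    field_simp
  rw [a3]
  have a4 : Real.exp 1 * u ≤ 1 / 2 := by
    have := Real.exp_one_lt_d9
    nlinarith
  have a5 : (Real.exp 1 * u) ^ 41 ≤ (1 / 2) ^ 41 := pow_le_pow_left₀ (by positivity) a4 41
  have a6 : (40 : ℝ) * (1 / 2) ^ 41 ≤ 1 / 3 := by norm_num
  linarith

end Ex

theorem conf_nonempty (B n : ℕ) : (Conf B n).Nonempty := by
  have hk : ∀ k : Pos, k - 1 ≠ k := fun k h => by
    have : (1 : ZMod 165) = 0 := by simpa using h
    exact absurd this (by decide)
  let ρ : Pos → Equiv.Perm Slot := fun k =>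
    Equiv.swap Slot.ini (Slot.cor (k - 1)) * Equiv.swap Slot.ter (Slot.cor k)
  refine ⟨fun k => Equiv.prodCongr (Equiv.arrowCongr (ρ k).symm (Equiv.refl _)) (Equiv.refl _), ?_⟩
  simp only [Conf, Finset.mem_filter, Finset.mem_univ, true_and]
  intro k x
  have h1 : ρ k Slot.ini = Slot.cor (k - 1) := by
    simp [ρ, Equiv.swap_apply_def]
  have h2 : ρ k Slot.ter = Slot.cor k := by
    simp [ρ, Equiv.swap_apply_def, (hk k).symm]
  constructor
  · show x.1 (ρ k Slot.ini) = x.1 _
    rw [h1]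
  · show x.1 (ρ k Slot.ter) = x.1 _
    rw [h2]

open Classical in
theorem expansion (B n : ℕ) (hB : 0 < B) (hn : 0 < n) :
    2 * ((Conf B n).filter (fun p => ¬ Expanding p)).card ≤ (Conf B n).card := by
  set N := Fintype.card (Om B n) with hNdef
  have hN : (0 : ℝ) < N := by
    have : Nonempty (Fin B) := ⟨⟨0, hB⟩⟩
    have : Nonempty (Fin n) := ⟨⟨0, hn⟩⟩
    exact_mod_cast Fintype.card_pos
  have hsub : (Conf B n).filter (fun p => ¬ Expanding p) ⊆
      (Finset.Icc 1 (N / 240)).biUnion (fun s =>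
        (Finset.powersetCard (40 * s) Finset.univ).biUnion (fun T =>
          (Finset.powersetCard s Finset.univ).biUnion (fun S =>
            (Conf B n).filter (fun p => ∀ k, ∀ x ∈ S, p k x ∈ T)))) := by
    intro p hp
    obtain ⟨hp1, hp2⟩ := Finset.mem_filter.1 hp
    unfold Expanding at hp2
    push Not at hp2
    obtain ⟨S, T, h1, h2, h3⟩ := hp2
    obtain ⟨T', hT1, -, hT3⟩ := Finset.exists_subsuperset_card_eq (Finset.subset_univ T)
      (n := 40 * S.card) h3.le (by rw [Finset.card_univ]; omega)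
    simp only [Finset.mem_biUnion, Finset.mem_Icc, Finset.mem_powersetCard, Finset.subset_univ,
      true_and, Finset.mem_filter]
    refine ⟨S.card, ⟨by omega, by omega⟩, T', hT3, S, rfl, hp1, fun k x hx => hT1 (h2 k x hx)⟩
  have hcard : (((Conf B n).filter (fun p => ¬ Expanding p)).card : ℝ) ≤
      ∑ s ∈ Finset.Icc 1 (N / 240), ∑ T ∈ Finset.powersetCard (40 * s) Finset.univ,
        ∑ S ∈ Finset.powersetCard s Finset.univ,
          (((Conf B n).filter (fun p => ∀ k, ∀ x ∈ S, p k x ∈ T)).card : ℝ) := by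
    have h := (Finset.card_le_card hsub).trans (Finset.card_biUnion_le.trans
      (Finset.sum_le_sum (fun s _ => Finset.card_biUnion_le.trans
        (Finset.sum_le_sum (fun T _ => Finset.card_biUnion_le)))))
    exact_mod_cast h
  have hterm : ∀ s ∈ Finset.Icc 1 (N / 240),
      ∑ T ∈ Finset.powersetCard (40 * s) Finset.univ,
        ∑ S ∈ Finset.powersetCard s Finset.univ,
          (((Conf B n).filter (fun p => ∀ k, ∀ x ∈ S, p k x ∈ T)).card : ℝ) ≤
      (Conf B n).card * (1 / 3) ^ s := by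
    intro s hs
    obtain ⟨hs1, hs2⟩ := Finset.mem_Icc.1 hs
    have hs0 : (0 : ℝ) < s := by exact_mod_cast hs1
    have h240 : 240 * (s : ℝ) ≤ N := by
      have : 240 * s ≤ N := by omega
      exact_mod_cast this
    set Z : ℝ := (Real.exp 1 * (N * (((40 * s : ℕ) : ℝ) / N) ^ 82) / s) ^ s with hZ
    have hZ0 : 0 ≤ Z := by rw [hZ]; positivity
    have hT : ∀ T ∈ Finset.powersetCard (40 * s) (Finset.univ : Finset (Om B n)),
        ∑ S ∈ Finset.powersetCard s Finset.univ,
          (((Conf B n).filter (fun p => ∀ k, ∀ x ∈ S, p k x ∈ T)).card : ℝ) ≤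
        (Conf B n).card * Z := by
      intro T hT
      have hTc := (Finset.mem_powersetCard.1 hT).2
      refine (Finset.sum_le_sum (fun S _ => Ex.conf_bound hB hn S T)).trans ?_
      rw [← Finset.mul_sum]
      refine mul_le_mul_of_nonneg_left ?_ (by positivity)
      refine Ex.esymm_le _ (Ex.wt_nonneg T) _ ?_ ?_ s hs1
      · push_cast; positivity
      · rw [Ex.sum_wt hB hn T, hTc]
    have hch := Ex.esymm_le (fun _ : Om B n => (1 : ℝ)) (fun _ => zero_le_one) N hN
      (by rw [Finset.sum_const, Finset.card_univ, nsmul_eq_mul, mul_one]) (40 * s) (by omega)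
    simp only [Finset.prod_const_one] at hch
    calc _ ≤ ∑ T ∈ Finset.powersetCard (40 * s) (Finset.univ : Finset (Om B n)),
          (Conf B n).card * Z := Finset.sum_le_sum hT
      _ = (Conf B n).card * ((∑ T ∈ Finset.powersetCard (40 * s)
            (Finset.univ : Finset (Om B n)), (1 : ℝ)) * Z) := by
          rw [Finset.sum_mul, Finset.mul_sum]
          simp only [one_mul]
      _ ≤ (Conf B n).card * ((Real.exp 1 * N / ((40 * s : ℕ) : ℝ)) ^ (40 * s) * Z) :=
          mul_le_mul_of_nonneg_left (mul_le_mul_of_nonneg_right hch hZ0) (by positivity)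
      _ ≤ _ := mul_le_mul_of_nonneg_left (Ex.term_le N hN s hs1 h240) (by positivity)
  have hfin : (((Conf B n).filter (fun p => ¬ Expanding p)).card : ℝ) ≤
      (Conf B n).card * (1 / 2) := by
    refine hcard.trans ((Finset.sum_le_sum hterm).trans ?_)
    rw [← Finset.mul_sum]
    refine mul_le_mul_of_nonneg_left ?_ (by positivity)
    have := Ex.geom (N / 240)
    have h2 : (0 : ℝ) ≤ (1 / 3) ^ (N / 240) / 2 := by positivity
    linarith
  have : (2 : ℝ) * ((Conf B n).filter (fun p => ¬ Expanding p)).card ≤ (Conf B n).card := by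
    linarith
  exact_mod_cast this

end Crest.Agent.R191
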