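import Crest.Agent.R191.Defs

/-!
Finite groups with large girth (residual finiteness of free groups, quantitative form).
-/

set_option autoImplicit false

namespace Crest.Agent.R191

namespace Gr

theorem finite_ball (C : Type) [Fintype C] [DecidableEq C] (R : ℕ) :
    {w : FreeGroup C | w.norm ≤ R}.Finite := by
  have h : {l : List (C × Bool) | l.length ≤ R}.Finite := List.finite_length_le _ R
  refine (h.image FreeGroup.mk).subset ?_
  intro w hw
  exact ⟨w.toWord, hw, FreeGroup.mk_toWord⟩

theorem exists_perm {C : Type} [Fintype C] [DecidableEq C] (R : ℕ) (b : C) :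
    ∃ σ : Equiv.Perm {w : FreeGroup C // w.norm ≤ R}, ∀ (x y : {w : FreeGroup C // w.norm ≤ R}),
      y.1 = FreeGroup.of b * x.1 → σ x = y := by
  classical
  have : Finite {w : FreeGroup C // w.norm ≤ R} := (finite_ball C R).to_subtype
  let B := {w : FreeGroup C // w.norm ≤ R}
  let D := {x : B // (FreeGroup.of b * x.1).norm ≤ R}
  let f : D → B := fun x => x.1
  let g : D → B := fun x => ⟨FreeGroup.of b * x.1.1, x.2⟩
  have hf : Function.Injective f := Subtype.val_injective
  have hg : Function.Injective g := by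
    intro x y h
    have := congrArg Subtype.val h
    exact Subtype.ext (Subtype.ext (mul_left_cancel this))
  obtain ⟨σ, hσ⟩ := Equiv.Perm.exists_extending_pair f g hf hg
  refine ⟨σ, fun x y h => ?_⟩
  have := hσ ⟨x, h ▸ y.2⟩
  exact this.trans (Subtype.ext h.symm)

end Gr

theorem exists_girth (C : Type) [Fintype C] [DecidableEq C] (R : ℕ) :
    ∃ (H : Type) (_ : Group H) (_ : Fintype H) (τ : C → H),
      ∀ w : FreeGroup C, w ≠ 1 → w.norm ≤ R → FreeGroup.lift τ w ≠ 1 := by
  classical
  have : Finite {w : FreeGroup C // w.norm ≤ R} := (Gr.finite_ball C R).to_subtype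
  choose τ hτ using fun b : C => Gr.exists_perm R b
  refine ⟨Equiv.Perm {w : FreeGroup C // w.norm ≤ R}, inferInstance, Fintype.ofFinite _, τ, ?_⟩
  have key : ∀ (l : List (C × Bool)), l.length ≤ R → ∀ (h : (FreeGroup.mk l).norm ≤ R),
      FreeGroup.lift τ (FreeGroup.mk l) ⟨1, by simp⟩ = ⟨FreeGroup.mk l, h⟩ := by
    intro l
    induction l with
    | nil => intro _ h; rfl
    | cons a l ih =>
      intro hl h
      have hl' : l.length ≤ R := by simp at hl; omega
      have hn : (FreeGroup.mk l).norm ≤ R := FreeGroup.norm_mk_le.trans hl'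
      have e : FreeGroup.mk (a :: l) = FreeGroup.mk [a] * FreeGroup.mk l := by
        rw [FreeGroup.mul_mk]; rfl
      have e1 : FreeGroup.lift τ (FreeGroup.mk (a :: l)) ⟨1, by simp⟩ =
          FreeGroup.lift τ (FreeGroup.mk [a]) ⟨FreeGroup.mk l, hn⟩ := by
        rw [← ih hl' hn, e, map_mul]; rfl
      rw [e1]
      obtain ⟨b, _ | _⟩ := a
      · have e2 : FreeGroup.mk [(b, false)] = (FreeGroup.of b)⁻¹ := rfl
        rw [e2, map_inv, FreeGroup.lift_apply_of, Equiv.Perm.inv_eq_iff_eq]
        refine (hτ b _ _ ?_).symm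
        simp only [e, e2, mul_inv_cancel_left]
      · have e2 : FreeGroup.mk [(b, true)] = FreeGroup.of b := rfl
        rw [e2, FreeGroup.lift_apply_of]
        exact hτ b _ _ (by simp only [e, e2])
  intro w hw hn h1
  have := key w.toWord hn (by rw [FreeGroup.mk_toWord]; exact hn)
  have h2 := congrArg Subtype.val this
  simp only [FreeGroup.mk_toWord, h1] at h2
  exact hw h2.symm

end Crest.Agent.R191
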