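import Mathlib

/-! # Grushko's theorem (Stallings' binding ties) and a spanning-star lemma -/

set_option autoImplicit false

namespace Crest.Agent.R191.Grushko

open Monoid Monoid.CoprodI

/-- Paths in a graph whose edges `r a b g` carry group labels; the label of a path is the product. -/
inductive R {V H : Type*} [Group H] (r : V → V → H → Prop) : V → V → H → Prop
  | refl (a : V) : R r a a 1
  | fwd {a b c : V} {m g : H} : r a b m → R r b c g → R r a c (m * g)
  | bwd {a b c : V} {m g : H} : r b a m → R r b c g → R r a c (m⁻¹ * g)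

section basic
variable {V H : Type*} [Group H] {r : V → V → H → Prop}

theorem R.trans {a b c : V} {g h : H} (h1 : R r a b g) (h2 : R r b c h) : R r a c (g * h) := by
  induction h1 with
  | refl a => simpa using h2
  | fwd e _ ih => rw [mul_assoc]; exact R.fwd e (ih h2)
  | bwd e _ ih => rw [mul_assoc]; exact R.bwd e (ih h2)

theorem R.single {a b : V} {m : H} (e : r a b m) : R r a b m := by
  simpa using R.fwd e (R.refl b)

theorem R.single' {a b : V} {m : H} (e : r a b m) : R r b a m⁻¹ := by
  simpa using R.bwd e (R.refl a)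

theorem R.symm {a b : V} {g : H} (h1 : R r a b g) : R r b a g⁻¹ := by
  induction h1 with
  | refl a => simpa using R.refl a
  | fwd e _ ih => rw [mul_inv_rev]; exact ih.trans (R.single' e)
  | bwd e _ ih => rw [mul_inv_rev, inv_inv]; exact ih.trans (R.single e)

theorem R.map {V' H' : Type*} [Group H'] {r' : V' → V' → H' → Prop} (f : V → V') (φ : H →* H')
    (h : ∀ a b m, r a b m → R r' (f a) (f b) (φ m)) {a b : V} {g : H} (h1 : R r a b g) :
    R r' (f a) (f b) (φ g) := by
  induction h1 with
  | refl a => simpa using R.refl (f a)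
  | fwd e _ ih => rw [map_mul]; exact (h _ _ _ e).trans ih
  | bwd e _ ih => rw [map_mul, map_inv]; exact (h _ _ _ e).symm.trans ih

theorem R.mono {r' : V → V → H → Prop} (h : ∀ a b m, r a b m → r' a b m) {a b : V} {g : H}
    (h1 : R r a b g) : R r' a b g :=
  R.map id (MonoidHom.id H) (fun a b m e => R.single (h a b m e)) h1

theorem R.closure {u : V} {L : Set H} (h : ∀ m ∈ L, R r u u m) {g : H}
    (hg : g ∈ Subgroup.closure L) : R r u u g := by
  induction hg using Subgroup.closure_induction with
  | mem x hx => exact h x hx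
  | one => exact R.refl u
  | mul x y _ _ hx hy => exact hx.trans hy
  | inv x _ hx => exact hx.symm

end basic

/-- Star form of the component of `u`. -/
theorem star {V H : Type*} [Group H] (E : Finset (V × V × H)) (u : V) :
    ∃ (C : Finset V) (φ : V → H) (L : Finset H) (E' : Finset (V × V × H)),
      u ∈ C ∧ φ u = 1 ∧ E' ⊆ E ∧ C.card + L.card + E'.card ≤ E.card + 1 ∧
      (∀ c ∈ C, c = u ∨ ∃ e ∈ E, c = e.1 ∨ c = e.2.1) ∧
      ∀ e ∈ E, (e.1 ∈ C ∧ e.2.1 ∈ C ∧ φ e.1 * e.2.2 * (φ e.2.1)⁻¹ ∈ Subgroup.closure (L : Set H)) ∨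
        (e.1 ∉ C ∧ e.2.1 ∉ C ∧ e ∈ E') := by
  classical
  have key : ∀ n : ℕ, ∀ (C : Finset V) (φ : V → H) (L : Finset H) (E' : Finset (V × V × H)),
      E'.card = n → u ∈ C → φ u = 1 → E' ⊆ E → C.card + L.card + E'.card ≤ E.card + 1 →
      (∀ c ∈ C, c = u ∨ ∃ e ∈ E, c = e.1 ∨ c = e.2.1) →
      (∀ e ∈ E, (e.1 ∈ C ∧ e.2.1 ∈ C ∧
        φ e.1 * e.2.2 * (φ e.2.1)⁻¹ ∈ Subgroup.closure (L : Set H)) ∨ e ∈ E') →
      ∃ (C : Finset V) (φ : V → H) (L : Finset H) (E' : Finset (V × V × H)),
      u ∈ C ∧ φ u = 1 ∧ E' ⊆ E ∧ C.card + L.card + E'.card ≤ E.card + 1 ∧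
      (∀ c ∈ C, c = u ∨ ∃ e ∈ E, c = e.1 ∨ c = e.2.1) ∧
      ∀ e ∈ E, (e.1 ∈ C ∧ e.2.1 ∈ C ∧ φ e.1 * e.2.2 * (φ e.2.1)⁻¹ ∈ Subgroup.closure (L : Set H)) ∨
        (e.1 ∉ C ∧ e.2.1 ∉ C ∧ e ∈ E') := by
    intro n
    induction n using Nat.strong_induction_on with
    | _ n ih =>
    intro C φ L E' hn hu hφ hsub hcard hC hinv
    by_cases hex : ∃ e ∈ E', e.1 ∈ C ∨ e.2.1 ∈ C
    · obtain ⟨e, he, hec⟩ := hex
      have hlt : (E'.erase e).card < n := hn ▸ Finset.card_erase_lt_of_mem he
      have hce : (E'.erase e).card + 1 = E'.card := Finset.card_erase_add_one he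
      have hsub' : E'.erase e ⊆ E := (Finset.erase_subset _ _).trans hsub
      by_cases h1 : e.1 ∈ C
      · by_cases h2 : e.2.1 ∈ C
        · refine ih _ hlt C φ (insert (φ e.1 * e.2.2 * (φ e.2.1)⁻¹) L) _ rfl hu hφ hsub' ?_ hC ?_
          · have := Finset.card_insert_le (φ e.1 * e.2.2 * (φ e.2.1)⁻¹) L
            omega
          · intro f hf
            by_cases hfe : f = e
            · subst hfe
              exact Or.inl ⟨h1, h2, Subgroup.subset_closure (by simp)⟩
            · rcases hinv f hf with h | h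
              · exact Or.inl ⟨h.1, h.2.1, Subgroup.closure_mono (by simp) h.2.2⟩
              · exact Or.inr (Finset.mem_erase.2 ⟨hfe, h⟩)
        · refine ih _ hlt (insert e.2.1 C) (Function.update φ e.2.1 (φ e.1 * e.2.2)) L _ rfl
            (Finset.mem_insert_of_mem hu) ?_ hsub' ?_ ?_ ?_
          · rw [Function.update_of_ne (by rintro rfl; exact h2 hu), hφ]
          · have := Finset.card_insert_le e.2.1 C
            omega
          · intro c hc
            rcases Finset.mem_insert.1 hc with rfl | hc
            · exact Or.inr ⟨e, hsub he, Or.inr rfl⟩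
            · exact hC c hc
          · intro f hf
            by_cases hfe : f = e
            · subst hfe
              refine Or.inl ⟨Finset.mem_insert_of_mem h1, Finset.mem_insert_self _ _, ?_⟩
              rw [Function.update_of_ne (by intro h; exact h2 (h ▸ h1)), Function.update_self]
              simp
            · rcases hinv f hf with h | h
              · refine Or.inl ⟨Finset.mem_insert_of_mem h.1, Finset.mem_insert_of_mem h.2.1, ?_⟩
                rw [Function.update_of_ne (by intro h'; exact h2 (h' ▸ h.1)),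
                  Function.update_of_ne (by intro h'; exact h2 (h' ▸ h.2.1))]
                exact h.2.2
              · exact Or.inr (Finset.mem_erase.2 ⟨hfe, h⟩)
      · have h2 : e.2.1 ∈ C := hec.resolve_left h1
        refine ih _ hlt (insert e.1 C) (Function.update φ e.1 (φ e.2.1 * e.2.2⁻¹)) L _ rfl
            (Finset.mem_insert_of_mem hu) ?_ hsub' ?_ ?_ ?_
        · rw [Function.update_of_ne (by rintro rfl; exact h1 hu), hφ]
        · have := Finset.card_insert_le e.1 C
          omega
        · intro c hc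
          rcases Finset.mem_insert.1 hc with rfl | hc
          · exact Or.inr ⟨e, hsub he, Or.inl rfl⟩
          · exact hC c hc
        · intro f hf
          by_cases hfe : f = e
          · subst hfe
            refine Or.inl ⟨Finset.mem_insert_self _ _, Finset.mem_insert_of_mem h2, ?_⟩
            rw [Function.update_self, Function.update_of_ne (by intro h; exact h1 (h ▸ h2))]
            simp
          · rcases hinv f hf with h | h
            · refine Or.inl ⟨Finset.mem_insert_of_mem h.1, Finset.mem_insert_of_mem h.2.1, ?_⟩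
              rw [Function.update_of_ne (by intro h'; exact h1 (h' ▸ h.1)),
                Function.update_of_ne (by intro h'; exact h1 (h' ▸ h.2.1))]
              exact h.2.2
            · exact Or.inr (Finset.mem_erase.2 ⟨hfe, h⟩)
    · push Not at hex
      refine ⟨C, φ, L, E', hu, hφ, hsub, hcard, hC, fun e he => ?_⟩
      rcases hinv e he with h | h
      · exact Or.inl h
      · exact Or.inr ⟨(hex e h).1, (hex e h).2, h⟩
  exact key E.card {u} (fun _ => 1) ∅ E rfl (by simp) rfl (Finset.Subset.refl _) (by simp; omega)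
    (by simp) (fun e he => Or.inr he)

section main
variable {ι : Type*} {M : ι → Type*} [∀ i, Group (M i)] {V : Type*}

/-- all edges, labelled in the free product -/
def rT (E : Finset (V × V × Σ i, M i)) (a b : V) (g : CoprodI M) : Prop :=
  ∃ i, ∃ m : M i, (a, b, (⟨i, m⟩ : Σ i, M i)) ∈ E ∧ g = of m

/-- edges of colour `i` -/
def rC (E : Finset (V × V × Σ i, M i)) (i : ι) (a b : V) (m : M i) : Prop :=
  (a, b, (⟨i, m⟩ : Σ i, M i)) ∈ E

/-- paths cut into monochromatic segments -/
inductive Seg (E : Finset (V × V × Σ i, M i)) : V → V → List (Σ i, M i) → Prop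
  | nil (a : V) : Seg E a a []
  | cons {a b c : V} {i : ι} {m : M i} {l : List (Σ i, M i)} :
      R (rC E i) a b m → Seg E b c l → Seg E a c (⟨i, m⟩ :: l)

theorem seg_step {E : Finset (V × V × Σ i, M i)}
    (hno : ∀ i a b, R (rC E i) a b 1 → a = b) {a b c : V} {i : ι} {m : M i}
    (h : R (rC E i) a b m) (w : Word M) (hw : Seg E b c w.toList) :
    ∃ w' : Word M, Seg E a c w'.toList ∧ w'.prod = of m * w.prod := by
  have aux : ∀ {a b : V} {m : M i} (w : Word M), w.fstIdx ≠ some i → R (rC E i) a b m →
      Seg E b c w.toList → ∃ w' : Word M, Seg E a c w'.toList ∧ w'.prod = of m * w.prod := by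
    intro a b m w hi h hw
    by_cases hm : m = 1
    · subst hm
      obtain rfl := hno _ _ _ h
      exact ⟨w, hw, by simp⟩
    · exact ⟨Word.cons m w hi hm, Seg.cons h hw, by simp⟩
  by_cases hi : w.fstIdx = some i
  · induction w using Word.consRecOn with
    | empty => simp [Word.fstIdx] at hi
    | cons j m' w h1 h2 _ =>
      simp only [Word.fstIdx_cons, Option.some.injEq] at hi
      subst hi
      simp only [Word.cons_toList] at hw
      cases hw with
      | cons h' hw' =>
        obtain ⟨w', hs, hp⟩ := aux w h1 (h.trans h') hw'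
        exact ⟨w', hs, by simp [hp, mul_assoc]⟩
  · exact aux w hi h hw

theorem binding_tie {E : Finset (V × V × Σ i, M i)} {a b : V} (hab : a ≠ b)
    (h : R (rT E) a b 1) : ∃ i a b, a ≠ b ∧ R (rC E i) a b 1 := by
  classical
  by_contra hno
  have hno' : ∀ i a b, R (rC E i) a b 1 → a = b := by
    intro i a b h
    by_contra hne
    exact hno ⟨i, a, b, hne, h⟩
  have key : ∀ {a b : V} {g : CoprodI M}, R (rT E) a b g →
      ∃ w : Word M, Seg E a b w.toList ∧ w.prod = g := by
    intro a b g h
    induction h with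
    | refl a => exact ⟨Word.empty, Seg.nil a, rfl⟩
    | fwd e _ ih =>
      obtain ⟨w, hw, rfl⟩ := ih
      obtain ⟨i, m, hm, rfl⟩ := e
      exact seg_step hno' (R.single (r := rC E i) hm) w hw
    | bwd e _ ih =>
      obtain ⟨w, hw, rfl⟩ := ih
      obtain ⟨i, m, hm, rfl⟩ := e
      rw [← map_inv]
      exact seg_step hno' (R.single' (r := rC E i) hm) w hw
  obtain ⟨w, hw, hp⟩ := key h
  have : w = Word.empty := Word.equiv.symm.injective (by
    change w.prod = Word.prod Word.empty
    rw [hp]; rfl)
  subst this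
  cases hw
  exact hab rfl

theorem core [Fintype ι] (o : V) : ∀ (n : ℕ) (W : Finset V) (E : Finset (V × V × Σ i, M i)),
    W.card = n → o ∈ W → (∀ e ∈ E, e.1 ∈ W ∧ e.2.1 ∈ W) → (∀ v ∈ W, ∃ g, R (rT E) o v g) →
    (∀ g, R (rT E) o o g) →
    ∃ T : ∀ i, Finset (M i), (∀ i, Subgroup.closure (T i : Set (M i)) = ⊤) ∧
      ∑ i, (T i).card + W.card ≤ E.card + 1 := by
  classical
  -- the edges of colour `i`
  have hfib : ∀ (E : Finset (V × V × Σ i, M i)) (i : ι), ∃ Ei : Finset (V × V × M i),
      (∀ a b m, (a, b, m) ∈ Ei ↔ (a, b, (⟨i, m⟩ : Σ i, M i)) ∈ E) ∧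
      Ei.card = (E.filter fun e => e.2.2.1 = i).card := by
    intro E i
    let emb : V × V × M i ↪ V × V × Σ i, M i :=
      ⟨fun e => (e.1, e.2.1, ⟨i, e.2.2⟩), by
        rintro ⟨a, b, m⟩ ⟨a', b', m'⟩ h
        simpa using h⟩
    refine ⟨E.preimage emb emb.injective.injOn, fun a b m => by simp [emb], ?_⟩
    rw [← Finset.card_map emb]
    congr 1
    ext ⟨a, b, j, m⟩
    simp only [Finset.mem_map, Finset.mem_preimage, Finset.mem_filter]
    constructor
    · rintro ⟨⟨a', b', m'⟩, h1, h2⟩
      have h3 := congrArg (fun e : V × V × Σ i, M i => e.2.2.1) h2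
      exact ⟨h2 ▸ h1, h3.symm⟩
    · rintro ⟨h1, rfl⟩
      exact ⟨(a, b, m), h1, rfl⟩
  intro n
  induction n using Nat.strong_induction_on with
  | _ n ih =>
  intro W E hn ho hE hconn hsurj
  by_cases hW : ∀ v ∈ W, v = o
  · choose Ei hEi hcard using hfib E
    refine ⟨fun i => (Ei i).image fun e => e.2.2, fun i => ?_, ?_⟩
    · rw [eq_top_iff]
      intro m _
      let π : CoprodI M →* M i := lift <| Pi.mulSingle i (MonoidHom.id (M i))
      have h1 : R (fun (_ _ : Unit) (x : M i) =>
          x ∈ Subgroup.closure (((Ei i).image fun e => e.2.2 : Finset (M i)) : Set (M i)))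
          () () (π (of m)) := by
        refine R.map (fun _ => ()) π ?_ (hsurj (of m))
        rintro a b g ⟨j, m', hm', rfl⟩
        refine R.single ?_
        by_cases hj : j = i
        · subst hj
          rw [of_leftInverse j m']
          refine Subgroup.subset_closure ?_
          simp only [Finset.coe_image, Set.mem_image, Finset.mem_coe]
          exact ⟨(a, b, m'), (hEi _ _ _ _).2 hm', rfl⟩
        · simp [π, lift_of, Pi.mulSingle_eq_of_ne hj]
      rw [of_leftInverse i m] at h1
      generalize hu : () = u at h1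
      clear hu
      generalize hv : u = v at h1
      rw [← hv] at h1
      have : ∀ (u v : Unit) (x : M i), R (fun (_ _ : Unit) (x : M i) =>
          x ∈ Subgroup.closure (((Ei i).image fun e => e.2.2 : Finset (M i)) : Set (M i))) u v x →
          x ∈ Subgroup.closure (((Ei i).image fun e => e.2.2 : Finset (M i)) : Set (M i)) := by
        intro u v x h
        induction h with
        | refl => exact one_mem _
        | fwd e _ ih => exact mul_mem e ih
        | bwd e _ ih => exact mul_mem (inv_mem e) ih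
      exact this _ _ _ h1
    · have h1 : W.card ≤ 1 := Finset.card_le_one.2 fun a ha b hb => (hW a ha).trans (hW b hb).symm
      have h2 : ∑ i, ((Ei i).image fun e => e.2.2).card ≤ E.card := by
        rw [Finset.card_eq_sum_card_fiberwise (f := fun e => e.2.2.1) (s := E) (t := Finset.univ)
          (fun _ _ => by simp)]
        exact Finset.sum_le_sum fun i _ => Finset.card_image_le.trans (hcard i).le
      beta_reduce
      omega
  · push Not at hW
    obtain ⟨v0, hv0, hv0o⟩ := hW
    obtain ⟨g, hg⟩ := hconn v0 hv0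
    have h1 : R (rT E) o v0 1 := by simpa using (hsurj g⁻¹).trans hg
    obtain ⟨i, a, b, hab, htie⟩ := binding_tie hv0o.symm h1
    -- orient the tie so that the vertex removed is not the base point
    obtain ⟨u, v, huv, hvo, htie⟩ : ∃ u v, u ≠ v ∧ v ≠ o ∧ R (rC E i) u v 1 := by
      by_cases hb : b = o
      · exact ⟨b, a, hab.symm, fun h => hab (h.trans hb.symm), by simpa using htie.symm⟩
      · exact ⟨a, b, hab, hb, htie⟩
    obtain ⟨Ei, hEi, hcard⟩ := hfib E i
    obtain ⟨C, φ, L, E', huC, hφ, hsub, hcount, hCW, hinv⟩ := star Ei u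
    have hpath : ∀ {a b : V} {m : M i}, R (rC E i) a b m → a ∈ C →
        b ∈ C ∧ φ a * m * (φ b)⁻¹ ∈ Subgroup.closure (L : Set (M i)) := by
      intro a b m h
      induction h with
      | refl a => intro ha; exact ⟨ha, by simp⟩
      | @fwd a b c m g e _ ih =>
        intro ha
        rcases hinv (a, b, m) ((hEi _ _ _).2 e) with h | h
        · obtain ⟨h1, h2⟩ := ih h.2.1
          refine ⟨h1, ?_⟩
          have := mul_mem h.2.2 h2
          simpa [mul_assoc] using this
        · exact absurd ha h.1
      | @bwd a b c m g e _ ih =>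
        intro ha
        rcases hinv (b, a, m) ((hEi _ _ _).2 e) with h | h
        · obtain ⟨h1, h2⟩ := ih h.1
          refine ⟨h1, ?_⟩
          have := mul_mem (inv_mem h.2.2) h2
          simpa [mul_assoc] using this
        · exact absurd ha h.2.1
    obtain ⟨hvC, hφv⟩ := hpath htie huC
    have hφv' : φ v ∈ Subgroup.closure (L : Set (M i)) := by
      simpa [hφ] using hφv
    have hedgeW : ∀ e ∈ Ei, e.1 ∈ W ∧ e.2.1 ∈ W := fun e he =>
      hE (e.1, e.2.1, ⟨i, e.2.2⟩) ((hEi _ _ _).1 he)
    have hCW' : ∀ c ∈ C, c ≠ u → c ∈ W := by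
      intro c hc hcu
      rcases hCW c hc with h | ⟨e, he, rfl | rfl⟩
      · exact absurd h hcu
      · exact (hedgeW e he).1
      · exact (hedgeW e he).2
    have hvW : v ∈ W := hCW' v hvC huv.symm
    have huW : u ∈ W := by
      have : ∀ {a b : V} {m : M i}, R (rC E i) a b m → a = b ∨ a ∈ W := by
        intro a b m h
        cases h with
        | refl => exact Or.inl rfl
        | fwd e _ => exact Or.inr (hE _ e).1
        | bwd e _ => exact Or.inr (hE _ e).2
      exact (this htie).resolve_left huv
    let f : V → V := fun x => if x = v then u else x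
    have hfW : ∀ x ∈ W, f x ∈ W.erase v := by
      intro x hx
      by_cases hxv : x = v
      · simp [f, hxv, huv, huW]
      · simp [f, hxv, hx]
    have hfu : f u = u := by simp [f]
    have hfo : f o = o := by simp [f, hvo.symm]
    let E1 : Finset (V × V × Σ i, M i) :=
      (E.filter fun e => ¬ e.2.2.1 = i).image fun e => (f e.1, f e.2.1, e.2.2)
    let E2 : Finset (V × V × Σ i, M i) := ((C.erase u).erase v).image fun w => (u, w, ⟨i, φ w⟩)
    let E3 : Finset (V × V × Σ i, M i) := L.image fun m => (u, u, ⟨i, m⟩)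
    let E4 : Finset (V × V × Σ i, M i) := E'.image fun e => (f e.1, f e.2.1, ⟨i, e.2.2⟩)
    let En := E1 ∪ E2 ∪ E3 ∪ E4
    have hloop : ∀ m ∈ Subgroup.closure (L : Set (M i)), R (rT En) u u (of m) := by
      intro m hm
      have : R (rC En i) u u m := R.closure (fun m hm => R.single (by
        simp only [rC, En, E3, Finset.mem_union, Finset.mem_image]
        exact Or.inl (Or.inr ⟨m, hm, rfl⟩))) hm
      exact R.map (r' := rT En) id of (fun a b m e => R.single (r := rT En) ⟨i, m, e, rfl⟩) this
    have hstar : ∀ c ∈ C, R (rT En) u (f c) (of (φ c)) := by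
      intro c hc
      by_cases hcv : c = v
      · subst hcv
        simpa [f] using hloop _ hφv'
      · by_cases hcu : c = u
        · subst hcu
          rw [hfu, hφ, map_one]; exact R.refl _
        · refine R.single ⟨i, φ c, ?_, rfl⟩
          simp only [En, E2, Finset.mem_union, Finset.mem_image]
          refine Or.inl (Or.inl (Or.inr ⟨c, by simp [hcv, hcu, hc], ?_⟩))
          simp [f, hcv]
    have hmap : ∀ a b g, rT E a b g → R (rT En) (f a) (f b) (MonoidHom.id _ g) := by
      rintro a b g ⟨j, m, hm, rfl⟩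
      by_cases hj : j = i
      · subst hj
        rcases hinv (a, b, m) ((hEi _ _ _).2 hm) with h | h
        · have := ((hstar a h.1).symm.trans (hloop _ h.2.2)).trans (hstar b h.2.1)
          simpa [mul_assoc] using this
        · refine R.single ⟨j, m, ?_, rfl⟩
          simp only [En, E4, Finset.mem_union, Finset.mem_image]
          exact Or.inr ⟨(a, b, m), h.2.2, rfl⟩
      · refine R.single ⟨j, m, ?_, rfl⟩
        simp only [En, E1, Finset.mem_union, Finset.mem_image]
        exact Or.inl (Or.inl (Or.inl ⟨(a, b, ⟨j, m⟩), by simp [hm, hj], rfl⟩))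
    have hcW : (W.erase v).card + 1 = W.card := Finset.card_erase_add_one hvW
    refine (ih (W.erase v).card (by omega) (W.erase v) En rfl
      (Finset.mem_erase.2 ⟨hvo.symm, ho⟩) ?_ ?_ ?_).elim fun T hT' => ?_
    rotate_right
    · obtain ⟨hT, hTc⟩ := hT'
      refine ⟨T, hT, ?_⟩
      have c1 : E1.card ≤ (E.filter fun e => ¬ e.2.2.1 = i).card := Finset.card_image_le
      have c2 : E2.card ≤ ((C.erase u).erase v).card := Finset.card_image_le
      have c3 : E3.card ≤ L.card := Finset.card_image_le
      have c4 : E4.card ≤ E'.card := Finset.card_image_le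
      have c5 : (C.erase u).card + 1 = C.card := Finset.card_erase_add_one huC
      have c6 : ((C.erase u).erase v).card + 1 = (C.erase u).card :=
        Finset.card_erase_add_one (Finset.mem_erase.2 ⟨huv.symm, hvC⟩)
      have c7 := Finset.card_filter_add_card_filter_not (s := E) (fun e => e.2.2.1 = i)
      have c8 : En.card ≤ E1.card + E2.card + E3.card + E4.card :=
        (Finset.card_union_le _ _).trans (Nat.add_le_add_right ((Finset.card_union_le _ _).trans
          (Nat.add_le_add_right (Finset.card_union_le _ _) _)) _)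
      omega
    · intro e he
      have huW' : u ∈ W.erase v := Finset.mem_erase.2 ⟨huv, huW⟩
      simp only [En, E1, E2, E3, E4, Finset.mem_union, Finset.mem_image] at he
      rcases he with ((⟨e', he', rfl⟩ | ⟨w, hw, rfl⟩) | ⟨m, _, rfl⟩) | ⟨e', he', rfl⟩
      · have := hE e' (Finset.mem_filter.1 he').1
        exact ⟨hfW _ this.1, hfW _ this.2⟩
      · simp only [Finset.mem_erase] at hw
        exact ⟨huW', Finset.mem_erase.2 ⟨hw.1, hCW' w hw.2.2 hw.2.1⟩⟩
      · exact ⟨huW', huW'⟩
      · have := hedgeW e' (hsub he')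
        exact ⟨hfW _ this.1, hfW _ this.2⟩
    · intro x hx
      obtain ⟨hxv, hxW⟩ := Finset.mem_erase.1 hx
      obtain ⟨g, hg⟩ := hconn x hxW
      have := R.map f (MonoidHom.id _) hmap hg
      rw [hfo] at this
      exact ⟨g, by simpa [f, hxv] using this⟩
    · intro g
      have := R.map f (MonoidHom.id _) hmap (hsurj g)
      rwa [hfo] at this

theorem exists_graph (S : Finset (CoprodI M)) :
    ∃ (W : Finset ℕ) (E : Finset (ℕ × ℕ × Σ i, M i)), 0 ∈ W ∧ (∀ e ∈ E, e.1 ∈ W ∧ e.2.1 ∈ W) ∧
      (∀ v ∈ W, ∃ g, R (rT E) 0 v g) ∧ (∀ s ∈ S, R (rT E) 0 0 s) ∧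
      E.card + 1 ≤ W.card + S.card := by
  classical
  have hmono : ∀ {E E' : Finset (ℕ × ℕ × Σ i, M i)}, E ⊆ E' → ∀ {a b g}, R (rT E) a b g →
      R (rT E') a b g := by
    intro E E' h a b g hr
    exact hr.mono fun a b m ⟨i, m', hm, he⟩ => ⟨i, m', h hm, he⟩
  induction S using Finset.induction_on with
  | empty => exact ⟨{0}, ∅, by simp, by simp, by simpa using ⟨1, R.refl 0⟩, by simp, by simp⟩
  | insert s S hs ih =>
    obtain ⟨W, E, h0, hE, hconn, hS, hc⟩ := ih
    have inner : ∀ g : CoprodI M, ∃ (W' : Finset ℕ) (E' : Finset (ℕ × ℕ × Σ i, M i)) (c : ℕ),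
        E ⊆ E' ∧ 0 ∈ W' ∧ c ∈ W' ∧ (∀ e ∈ E', e.1 ∈ W' ∧ e.2.1 ∈ W') ∧
        (∀ v ∈ W', ∃ g, R (rT E') 0 v g) ∧ R (rT E') c 0 g ∧
        E'.card + W.card ≤ W'.card + E.card := by
      intro g
      induction g using induction_left with
      | one => exact ⟨W, E, 0, Finset.Subset.refl _, h0, h0, hE, hconn, R.refl 0, by omega⟩
      | @mul i m x ih =>
        obtain ⟨W', E', c, h1, h2, h3, h4, h5, h6, h7⟩ := ih
        obtain ⟨d, hd⟩ := Infinite.exists_notMem_finset W'
        have hsub : E' ⊆ insert (d, c, ⟨i, m⟩) E' := Finset.subset_insert _ _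
        have hnew : R (rT (insert (d, c, (⟨i, m⟩ : Σ i, M i)) E')) d 0 (of m * x) :=
          R.fwd ⟨i, m, Finset.mem_insert_self _ _, rfl⟩ (hmono hsub h6)
        refine ⟨insert d W', insert (d, c, ⟨i, m⟩) E', d, h1.trans hsub,
          Finset.mem_insert_of_mem h2, Finset.mem_insert_self _ _, ?_, ?_, hnew, ?_⟩
        · intro e he
          rcases Finset.mem_insert.1 he with rfl | he
          · exact ⟨Finset.mem_insert_self _ _, Finset.mem_insert_of_mem h3⟩
          · exact ⟨Finset.mem_insert_of_mem (h4 e he).1, Finset.mem_insert_of_mem (h4 e he).2⟩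
        · intro v hv
          rcases Finset.mem_insert.1 hv with rfl | hv
          · exact ⟨_, hnew.symm⟩
          · obtain ⟨g, hg⟩ := h5 v hv
            exact ⟨g, hmono hsub hg⟩
        · have := Finset.card_insert_le (d, c, (⟨i, m⟩ : Σ i, M i)) E'
          rw [Finset.card_insert_of_notMem hd]
          omega
    rw [Finset.card_insert_of_notMem hs]
    induction s using induction_left with
    | one =>
      refine ⟨W, E, h0, hE, hconn, ?_, by omega⟩
      intro t ht
      rcases Finset.mem_insert.1 ht with rfl | ht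
      · exact R.refl 0
      · exact hS t ht
    | @mul i m x _ =>
      obtain ⟨W', E', c, h1, h2, h3, h4, h5, h6, h7⟩ := inner x
      have hsub : E' ⊆ insert (0, c, ⟨i, m⟩) E' := Finset.subset_insert _ _
      refine ⟨W', insert (0, c, ⟨i, m⟩) E', h2, ?_, ?_, ?_, ?_⟩
      · intro e he
        rcases Finset.mem_insert.1 he with rfl | he
        · exact ⟨h2, h3⟩
        · exact h4 e he
      · intro v hv
        obtain ⟨g, hg⟩ := h5 v hv
        exact ⟨g, hmono hsub hg⟩
      · intro t ht
        rcases Finset.mem_insert.1 ht with rfl | ht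
        · exact R.fwd ⟨i, m, Finset.mem_insert_self _ _, rfl⟩ (hmono hsub h6)
        · exact hmono (h1.trans hsub) (hS t ht)
      · have := Finset.card_insert_le (0, c, (⟨i, m⟩ : Σ i, M i)) E'
        omega

/-- **Grushko's theorem**. -/
theorem grushko [Fintype ι] (S : Finset (CoprodI M))
    (hS : Subgroup.closure (S : Set (CoprodI M)) = ⊤) :
    ∃ T : ∀ i, Finset (M i), (∀ i, Subgroup.closure (T i : Set (M i)) = ⊤) ∧
      ∑ i, (T i).card ≤ S.card := by
  obtain ⟨W, E, h0, hE, hconn, hS', hc⟩ := exists_graph S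
  obtain ⟨T, hT, hTc⟩ := core 0 _ W E rfl h0 hE hconn
    (fun g => R.closure (L := S) (fun m hm => hS' m hm) (hS ▸ Subgroup.mem_top g))
  exact ⟨T, hT, by omega⟩

end main

/-- Grushko's theorem for a free power. -/
theorem grushko_pow {Q : Type*} [Group Q] {A : Type*} [Fintype A] [Nonempty A]
    (S : Finset (CoprodI fun _ : A => Q))
    (hS : Subgroup.closure (S : Set (CoprodI fun _ : A => Q)) = ⊤) :
    ∃ T : Finset Q, Subgroup.closure (T : Set Q) = ⊤ ∧ Fintype.card A * T.card ≤ S.card := by
  obtain ⟨T, hT, hc⟩ := grushko S hS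
  obtain ⟨a, -, ha⟩ := Finset.exists_min_image Finset.univ (fun a => (T a).card)
    Finset.univ_nonempty
  refine ⟨T a, hT a, le_trans ?_ hc⟩
  have := Finset.card_nsmul_le_sum Finset.univ (fun a => (T a).card) _ ha
  simpa using this

end Crest.Agent.R191.Grushko
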