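import Crest.Agent.R191.Reach
import Crest.Agent.R191.GrushkoCore

/-!
Task R191-G: Grushko's theorem (groupoid form) for a free product of `|H|` copies of `N`.
It follows from `rank_lemma` and the group form `Grushko.grushko_pow` (file `GrushkoCore.lean`).
-/

set_option autoImplicit false

namespace Crest.Agent.R191

theorem grushko {H N V : Type} [Group N] [Fintype H] [Nonempty H] (r : ℕ)
    (hr : ∀ S : Finset N, Subgroup.closure (S : Set N) = ⊤ → r ≤ S.card)
    (A : Finset (V × Monoid.CoprodI (fun _ : H => N) × V)) (Vs : Finset V)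
    (hA : ∀ e ∈ A, e.1 ∈ Vs ∧ e.2.2 ∈ Vs) (v₀ : V) (hv₀ : v₀ ∈ Vs)
    (hreach : ∀ v ∈ Vs, ∀ g, Reach (A : Set (V × Monoid.CoprodI (fun _ : H => N) × V))
      (fun e => e.2.1) v₀ g v) :
    Fintype.card H * r + Vs.card ≤ A.card + 1 := by
  obtain ⟨S, hS, hcl⟩ := rank_lemma A (fun e => e.2.1) Vs v₀ (fun v hv => ⟨1, hreach v hv 1⟩)
  have htop : Subgroup.closure (S : Set (Monoid.CoprodI fun _ : H => N)) = ⊤ := by
    rw [hcl, eq_top_iff]
    intro g _
    exact hreach v₀ hv₀ g
  obtain ⟨T, hT, hc⟩ := Grushko.grushko_pow S htop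
  have h1 := Nat.mul_le_mul_left (Fintype.card H) (hr T hT)
  have _ := hA
  omega

end Crest.Agent.R191
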