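import Crest.Agent.R191.Expand

/-!
Task R191-S: the random model is asymptotically free (switching argument), and the existence of a
good model.  `conf_nonempty` and `expansion` from `Expand.lean` (task R191-E) may be used.

Notation: for `p ∈ Conf B n` and a letter `a = (k, ε) : Pos × Bool`, `st p a = p k` or `(p k)⁻¹`.
`FreeGroup.lift p (mk (a :: w)) x = st p a (FreeGroup.lift p (mk w) x)`: the head of the list is the
LAST step.  For a word `w` and start `x` let `vis p w x : List (Om B n)` be the visited vertices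
(`vis p [] x = [x]`, `vis p (a :: w) x = st p a (head) :: vis p w x`).

**Switching lemma.**  Let `a :: w` be reduced, `m = w.length + 1`, `x` fixed.  For `p` let
`u = lift p (mk w) x`, `cl p` = the class allowed for `st p a u` (for `ε = true`: `y` with
`(col ini y, col ter y) = (col (cor (k-1)) u, col (cor k) u)`; for `ε = false`: `y` with
`(col (cor (k-1)) y, col (cor k) y) = (col ini u, col ter u)`), of size `c = N / B² ≥ n`.  Let
`A : List (Om B n) → Finset (Om B n)` be any target depending only on the visited list, with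
`|A l ∩ class| ≤ α` for every class.  Then
`#{p ∈ Conf | (vis p w x).Nodup ∧ st p a u ∈ A (vis p w x)} * (c - m) ≤ #Conf * α`.
Proof: for such `p` and `y' ∈ cl p \ vis p w x`, `y = st p a u`, let `p'` be `p` with `p k` replaced by
`swap y y' * p k` (`ε = true`) or `p k * swap y y'` (`ε = false`); so `st p' a = swap y y' * st p a`,
`st p' (k, !ε) = st p (k, !ε) * swap y y'`.  `p' ∈ Conf`, `vis p' w x = vis p w x` (an earlier step
`z ↦ z'` with letter `a` has `z' ≠ y'` since `y'` is not visited, and `z' ≠ y` since otherwise `z = u`,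
contradicting `Nodup`; an earlier step `z ↦ z'` with letter `(k, !ε)` has `z ≠ y'`, and `z = y` gives
`z' = u`, so by `Nodup` it is the last step of `w`, contradicting reducedness), and
`(p, y') ↦ (p', y)` is injective into `{(p', y) | y ∈ A (vis p' w x) ∩ cl p'}`
(`y' = st p' a u` is recovered, then `p`).

(i) With `A l = l.toFinset`: `#{p ∈ Conf | ¬ (vis p w x).Nodup} * (n - |w|) ≤ #Conf * |w|²` for reduced `w`
(induction on `w`).  In particular for `f ≠ 1` (`w = f.toWord ≠ []`), `lift p f x = x` is that rare.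

(ii) For reduced `w` and slots `s, s'`: either `(ι (mk w))⁻¹ * T s' * ι (mk w) = T s`, or the average
over `x` and `p ∈ Conf` of `[col s' (lift p (mk w) x) = col s x]` is `≤ η`, where
`η = 2/B + |w|²/(n - |w|)` (say, for `n ≥ 2|w|`).  Induction on `w`, generalizing `s'`.  `w = []`: `s = s'`, or the fraction is
exactly `1/B`.  `a :: w`, `a = (k,true)`: if `s' = ini` or `ter`, use `Compat`, `rel_ini`/`rel_ter` and the
induction hypothesis with `cor (k-1)`/`cor k`; if `s'` is a corner it is fresh: take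
`A l = {y | col s' y = col s x}`, `|A ∩ class| = c / B`.  `a = (k,false)`: if `s' = cor (k-1)` or
`cor k` reduce to `ini`/`ter`, otherwise fresh.

**Existence.**  Markov: for each of the finitely many `f ∈ 𝒟` and `(g,s,s')`, the proportion of
`p ∈ Conf` whose bad fraction exceeds `ε` is at most `η/ε`.  Choose `B`, then `n`, so large that the
sum of these is `< 1/2`; with `expansion` some `p ∈ Conf` is good for everything.
-/

set_option autoImplicit false

namespace Crest.Agent.R191

namespace Sw

open Finset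

section general
variable {K Ω : Type} [DecidableEq K] [DecidableEq Ω]

/-- The image of a letter under `p`. -/
def st {G : Type} [Group G] (p : K → G) (a : K × Bool) : G := if a.2 then p a.1 else (p a.1)⁻¹

omit [DecidableEq K] in
theorem lift_cons {G : Type} [Group G] (p : K → G) (a : K × Bool) (w : List (K × Bool)) :
    FreeGroup.lift p (FreeGroup.mk (a :: w)) = st p a * FreeGroup.lift p (FreeGroup.mk w) := by
  obtain ⟨k, e⟩ := a
  cases e <;> simp [st]

/-- The end point of the walk. -/
def endp (p : K → Equiv.Perm Ω) : List (K × Bool) → Ω → Ω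
  | [], x => x
  | a :: w, x => st p a (endp p w x)

/-- The visited vertices. -/
def vis (p : K → Equiv.Perm Ω) : List (K × Bool) → Ω → List Ω
  | [], x => [x]
  | a :: w, x => endp p (a :: w) x :: vis p w x

omit [DecidableEq K] [DecidableEq Ω] in
theorem lift_eq_endp (p : K → Equiv.Perm Ω) (w : List (K × Bool)) (x : Ω) :
    FreeGroup.lift p (FreeGroup.mk w) x = endp p w x := by
  classical
  induction w with
  | nil => rfl
  | cons a w ih => rw [lift_cons, Equiv.Perm.mul_apply, ih, endp]

omit [DecidableEq K] [DecidableEq Ω] in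
theorem length_vis (p : K → Equiv.Perm Ω) (w : List (K × Bool)) (x : Ω) :
    (vis p w x).length = w.length + 1 := by
  induction w with
  | nil => rfl
  | cons a w ih => simp [vis, ih]

omit [DecidableEq K] [DecidableEq Ω] in
theorem mem_vis (p : K → Equiv.Perm Ω) {w w' : List (K × Bool)} (h : w' <:+ w) (x : Ω) :
    endp p w' x ∈ vis p w x := by
  induction w with
  | nil => obtain rfl := List.suffix_nil.1 h; simp [endp, vis]
  | cons a w ih =>
    rcases List.suffix_cons_iff.1 h with rfl | h
    · simp [vis]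
    · exact List.mem_cons_of_mem _ (ih h)

omit [DecidableEq K] [DecidableEq Ω] in
theorem eq_of_nodup {p : K → Equiv.Perm Ω} {w w' : List (K × Bool)} {x : Ω}
    (hn : (vis p w x).Nodup) (h : w' <:+ w) (he : endp p w' x = endp p w x) : w' = w := by
  cases w with
  | nil => exact List.suffix_nil.1 h
  | cons a w =>
    rcases List.suffix_cons_iff.1 h with rfl | h
    · rfl
    · exact absurd (he ▸ mem_vis p h x) (List.nodup_cons.1 hn).1

omit [DecidableEq K] [DecidableEq Ω] in
theorem vis_congr {p p' : K → Equiv.Perm Ω} {w : List (K × Bool)} {x : Ω}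
    (h : ∀ w', w' <:+ w → endp p' w' x = endp p w' x) : vis p' w x = vis p w x := by
  induction w with
  | nil => rfl
  | cons a w ih =>
    rw [vis, vis, h _ List.suffix_rfl, ih fun w' hw => h w' (hw.trans (List.suffix_cons a w))]

/-- The switched configuration. -/
def sw (p : K → Equiv.Perm Ω) (a : K × Bool) (y y' : Ω) : K → Equiv.Perm Ω :=
  Function.update p a.1 (if a.2 then Equiv.swap y y' * p a.1 else p a.1 * Equiv.swap y y')

theorem st_sw_self (p : K → Equiv.Perm Ω) (a : K × Bool) (y y' : Ω) :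
    st (sw p a y y') a = Equiv.swap y y' * st p a := by
  obtain ⟨k, e⟩ := a
  cases e <;> simp [st, sw]

theorem st_sw_neg (p : K → Equiv.Perm Ω) (a : K × Bool) (y y' : Ω) :
    st (sw p a y y') (a.1, !a.2) = st p (a.1, !a.2) * Equiv.swap y y' := by
  obtain ⟨k, e⟩ := a
  cases e <;> simp [st, sw]

theorem st_sw_ne (p : K → Equiv.Perm Ω) {a b : K × Bool} (h : b.1 ≠ a.1) (y y' : Ω) :
    st (sw p a y y') b = st p b := by
  simp [st, sw, Function.update_of_ne h]

omit [DecidableEq K] [DecidableEq Ω] in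
theorem st_neg (p : K → Equiv.Perm Ω) (a : K × Bool) : st p (a.1, !a.2) = (st p a)⁻¹ := by
  obtain ⟨k, e⟩ := a
  cases e <;> simp [st]

theorem sw_sw (p : K → Equiv.Perm Ω) (a : K × Bool) (y y' : Ω) : sw (sw p a y y') a y y' = p := by
  obtain ⟨k, e⟩ := a
  cases e <;> simp [sw, mul_assoc, ← mul_assoc (Equiv.swap y y')]

theorem endp_sw {p : K → Equiv.Perm Ω} {a : K × Bool} {w : List (K × Bool)} {x y' : Ω}
    (hr : FreeGroup.IsReduced (a :: w)) (hn : (vis p w x).Nodup) (hy : y' ∉ vis p w x) :
    ∀ w', w' <:+ w → endp (sw p a (endp p (a :: w) x) y') w' x = endp p w' x := by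
  intro w'
  induction w' with
  | nil => exact fun _ => rfl
  | cons b w' ih =>
    intro h
    have h' : w' <:+ w := (List.suffix_cons b w').trans h
    have hz := mem_vis p h' x
    have hz' := mem_vis p h x
    show st (sw p a (endp p (a :: w) x) y') b (endp (sw p a (endp p (a :: w) x) y') w' x)
      = st p b (endp p w' x)
    rw [ih h']
    by_cases hb : b.1 = a.1
    · by_cases hb' : b.2 = a.2
      · obtain rfl : b = a := Prod.ext hb hb'
        rw [st_sw_self, Equiv.Perm.mul_apply]
        refine Equiv.swap_apply_of_ne_of_ne (fun e => ?_) fun e => hy (e ▸ hz')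
        have := eq_of_nodup hn h' ((st p b).injective e)
        have hl := h.length_le
        simp [this] at hl
      · obtain rfl : b = (a.1, !a.2) := Prod.ext hb (by revert hb'; cases b.2 <;> cases a.2 <;> simp)
        rw [st_sw_neg, Equiv.Perm.mul_apply, Equiv.swap_apply_of_ne_of_ne (fun e => ?_)
          fun e : endp p w' x = y' => hy (e ▸ hz)]
        have e' : endp p ((a.1, !a.2) :: w') x = endp p w x := by
          rw [endp, e, st_neg, endp]
          simp
        obtain rfl := eq_of_nodup hn h e'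
        have := (FreeGroup.isReduced_cons_cons.1 hr).1 rfl
        simp at this
    · rw [st_sw_ne p hb]

/-- The switching lemma. -/
theorem switching [Fintype Ω] {C : Type} [DecidableEq C] (Cf : Finset (K → Equiv.Perm Ω))
    {a : K × Bool} (src tgt : Ω → C) (h1 : ∀ p ∈ Cf, ∀ u, tgt (st p a u) = src u)
    (h2 : ∀ p ∈ Cf, ∀ y y', tgt y = tgt y' → sw p a y y' ∈ Cf) {w : List (K × Bool)}
    (hr : FreeGroup.IsReduced (a :: w)) (x : Ω) (A : List Ω → Finset Ω) {c α : ℕ}
    (hc : ∀ b, c ≤ #{y | tgt y = b})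
    (hA : ∀ l : List Ω, l.length = w.length + 1 → ∀ b, #{y ∈ A l | tgt y = b} ≤ α) :
    #{p ∈ Cf | (vis p w x).Nodup ∧ endp p (a :: w) x ∈ A (vis p w x)} * (c - (w.length + 1))
      ≤ #Cf * α := by
  classical
  refine card_mul_le_card_mul (fun p p' => ∃ y' ∉ vis p w x, tgt y' = src (endp p w x) ∧
    p' = sw p a (endp p (a :: w) x) y') (fun p hp => ?_) fun p' hp' => ?_
  · obtain ⟨hp, -⟩ := mem_filter.1 hp
    refine le_trans ?_ (card_le_card_of_injOn 
      (s := ({y | tgt y = src (endp p w x)} : Finset Ω) \ (vis p w x).toFinset)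
      (fun y' => sw p a (endp p (a :: w) x) y') (fun y' hy => ?_) fun y₁ _ y₂ _ e => ?_)
    · refine le_trans ?_ (le_card_sdiff _ _)
      exact tsub_le_tsub (hc _) ((List.toFinset_card_le _).trans (length_vis p w x).le)
    · simp only [coe_sdiff, coe_filter, mem_univ, true_and, List.coe_toFinset, Set.mem_sdiff,
        Set.mem_ofPred_eq] at hy
      refine mem_coe.2 ((mem_bipartiteAbove _).2 ⟨h2 p hp _ _ ?_, y', hy.2, hy.1, rfl⟩)
      rw [hy.1, endp, h1 p hp]
    · have := congrArg (fun q : K → Equiv.Perm Ω => st q a (endp p w x)) e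
      simpa [st_sw_self, endp] using this
  · refine le_trans (card_le_card_of_injOn
      (t := {y ∈ A (vis p' w x) | tgt y = src (endp p' w x)}) (fun p => endp p (a :: w) x)
      (fun p hp => ?_) fun p₁ hp₁ p₂ hp₂ e => ?_) (hA _ (length_vis p' w x) _)
    · obtain ⟨hp0, y', hy, -, rfl⟩ := (mem_bipartiteBelow _).1 (mem_coe.1 hp)
      obtain ⟨hp1, hn, hA'⟩ := mem_filter.1 hp0
      have := endp_sw hr hn hy
      rw [vis_congr this, this _ List.suffix_rfl]
      exact mem_coe.2 (mem_filter.2 ⟨hA', h1 p hp1 _⟩)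
    · obtain ⟨hp₁, y₁, hy₁, -, e₁⟩ := (mem_bipartiteBelow _).1 (mem_coe.1 hp₁)
      obtain ⟨hp₂, y₂, hy₂, -, e₂⟩ := (mem_bipartiteBelow _).1 (mem_coe.1 hp₂)
      have f₁ := endp_sw hr (mem_filter.1 hp₁).2.1 hy₁ _ List.suffix_rfl
      have f₂ := endp_sw hr (mem_filter.1 hp₂).2.1 hy₂ _ List.suffix_rfl
      have g₁ : st p' a (endp p' w x) = y₁ := by
        rw [e₁, f₁, st_sw_self]; simp [endp]
      have g₂ : st p' a (endp p' w x) = y₂ := by
        rw [e₂, f₂, st_sw_self]; simp [endp]
      simp only at e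
      rw [← sw_sw p₁ a (endp p₁ (a :: w) x) y₁, ← e₁, ← sw_sw p₂ a (endp p₂ (a :: w) x) y₂, ← e₂, e,
        ← g₁, ← g₂]

end general

variable {B n : ℕ}

/-- The slots read at the target of a step. -/
def tsl (a : Pos × Bool) : Slot × Slot :=
  if a.2 then (Slot.ini, Slot.ter) else (Slot.cor (a.1 - 1), Slot.cor a.1)

/-- The pair of colours of a pair of slots. -/
def col2 (s : Slot × Slot) (y : Om B n) : Fin B × Fin B := (col s.1 y, col s.2 y)

theorem tsl_ne (a : Pos × Bool) : (tsl a).1 ≠ (tsl a).2 := by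
  obtain ⟨k, e⟩ := a
  cases e
  · simp only [tsl, Bool.false_eq_true, if_false, ne_eq, Slot.cor.injEq, sub_eq_self]
    decide
  · simp [tsl]

theorem mem_conf {p : Pos → Equiv.Perm (Om B n)} : p ∈ Conf B n ↔ Compat p := by simp [Conf]

theorem compat_iff {p : Pos → Equiv.Perm (Om B n)} :
    Compat p ↔ ∀ k u, col2 (tsl (k, true)) (p k u) = col2 (tsl (k, false)) u := by
  simp [Compat, col2, tsl]

theorem col2_st {p : Pos → Equiv.Perm (Om B n)} (hp : p ∈ Conf B n) (a : Pos × Bool) (u : Om B n) :
    col2 (tsl a) (st p a u) = col2 (tsl (a.1, !a.2)) u := by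
  obtain ⟨k, e⟩ := a
  have := compat_iff.1 (mem_conf.1 hp) k
  cases e
  · simpa [st] using (this ((p k)⁻¹ u)).symm
  · exact this u

theorem sw_mem {p : Pos → Equiv.Perm (Om B n)} (hp : p ∈ Conf B n) (a : Pos × Bool) (y y' : Om B n)
    (h : col2 (tsl a) y = col2 (tsl a) y') : sw p a y y' ∈ Conf B n := by
  obtain ⟨k, e⟩ := a
  have hs : ∀ z, col2 (tsl (k, e)) (Equiv.swap y y' z) = col2 (tsl (k, e)) z := fun z =>
    Equiv.apply_swap_eq_self h z
  have := compat_iff.1 (mem_conf.1 hp)
  refine mem_conf.2 (compat_iff.2 fun k' u => ?_)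
  by_cases hk : k' = k
  · subst hk
    cases e
    · simp only [sw, Function.update_self, Bool.false_eq_true, if_false, Equiv.Perm.mul_apply]
      rw [this, hs]
    · simp only [sw, Function.update_self, if_true, Equiv.Perm.mul_apply]
      rw [hs, this]
  · rw [sw, Function.update_of_ne hk, this]

theorem conj_tsl (a : Pos × Bool) :
    (st P a)⁻¹ * T (tsl a).1 * st P a = T (tsl (a.1, !a.2)).1 ∧
      (st P a)⁻¹ * T (tsl a).2 * st P a = T (tsl (a.1, !a.2)).2 := by
  obtain ⟨k, e⟩ := a
  cases e
  · simp [st, tsl, ← rel_ini k, ← rel_ter k, mul_assoc]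
  · exact ⟨rel_ini k, rel_ter k⟩

/-- Change the colour of one slot. -/
def upd (y : Om B n) (s : Slot) (b : Fin B) : Om B n := (Function.update y.1 s b, y.2)

theorem col_upd_ne (y : Om B n) {s s' : Slot} (h : s' ≠ s) (b : Fin B) :
    col s' (upd y s b) = col s' y := Function.update_of_ne h _ _

theorem card_fresh (Q : Om B n → Prop) [DecidablePred Q] (s : Slot) (g : Om B n → Fin B)
    (hQ : ∀ y b, Q y → Q (upd y s b)) (hg : ∀ y b, g (upd y s b) = g y) :
    #{y | Q y ∧ col s y = g y} * B = #{y | Q y} := by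
  have : #(({y | Q y ∧ col s y = g y} : Finset (Om B n)) ×ˢ (univ : Finset (Fin B))) = #{y | Q y} := by
    refine card_nbij' (fun z => upd z.1 s z.2) (fun y => (upd y s (g y), col s y)) ?_ ?_ ?_ ?_
    · rintro ⟨y, b⟩ h
      simp only [coe_product, coe_filter, mem_univ, true_and, Set.mem_prod, Set.mem_ofPred_eq] at h ⊢
      exact hQ _ _ h.1.1
    · intro y h
      simp only [coe_product, coe_filter, mem_univ, true_and, Set.mem_prod, Set.mem_ofPred_eq,
        coe_univ, Set.mem_univ, and_true] at h ⊢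
      exact ⟨hQ _ _ h, by rw [hg]; simp [col, upd]⟩
    · rintro ⟨y, b⟩ h
      simp only [coe_product, coe_filter, mem_univ, true_and, Set.mem_prod, Set.mem_ofPred_eq] at h
      simp only [hg, ← h.1.2]
      simp [upd, col]
    · intro y _
      simp [upd, col]
  rwa [card_product, card_univ, Fintype.card_fin] at this

theorem card_class {s : Slot × Slot} (hs : s.1 ≠ s.2) (b : Fin B × Fin B) :
    #{y : Om B n | col2 s y = b} * B * B = Fintype.card (Om B n) := by
  have h1 := card_fresh (B := B) (n := n) (fun _ => True) s.1 (fun _ => b.1) (fun _ _ h => h)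
    fun _ _ => rfl
  have h2 := card_fresh (B := B) (n := n) (fun y => True ∧ col s.1 y = b.1) s.2 (fun _ => b.2)
    (fun y b' h => by rwa [col_upd_ne y hs]) fun _ _ => rfl
  rw [← h2, filter_true, card_univ] at h1
  rw [← h1]
  congr 3
  ext y
  simp [col2, Prod.ext_iff]

/-- The common size of the classes. -/
def cc (B n : ℕ) : ℕ := Fintype.card (Om B n) / (B * B)

theorem card_class_eq (hB : 0 < B) {s : Slot × Slot} (hs : s.1 ≠ s.2) (b : Fin B × Fin B) :
    #{y : Om B n | col2 s y = b} = cc B n := by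
  rw [cc, ← card_class hs b, mul_assoc, Nat.mul_div_cancel _ (Nat.mul_pos hB hB)]

theorem two_le_card_slot : 2 ≤ Fintype.card Slot :=
  Fintype.one_lt_card_iff.2 ⟨Slot.ini, Slot.ter, by simp⟩

theorem le_cc (hB : 0 < B) : n ≤ cc B n := by
  rw [cc, Nat.le_div_iff_mul_le (Nat.mul_pos hB hB), mul_comm, ← sq]
  simp only [Fintype.card_prod, Fintype.card_fun, Fintype.card_fin]
  exact Nat.mul_le_mul_right _ (Nat.pow_le_pow_right hB two_le_card_slot)

theorem card_not_nodup (hB : 0 < B) {L : ℕ} (x : Om B n) : ∀ {w : List (Pos × Bool)},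
    FreeGroup.IsReduced w → w.length ≤ L →
    #{p ∈ Conf B n | ¬ (vis p w x).Nodup} * (n - L) ≤ #(Conf B n) * L * w.length
  | [], _, _ => by simp [vis]
  | a :: w, hr, hL => by
    have ih := card_not_nodup hB x (hr.infix (List.suffix_cons a w).isInfix)
      ((Nat.le_succ _).trans hL)
    have h := switching (Conf B n) (col2 (tsl (a.1, !a.2))) (col2 (tsl a))
      (fun p hp u => col2_st hp a u) (fun p hp y y' => sw_mem hp a y y') hr x List.toFinset
      (c := n) (α := L) (fun b => (card_class_eq hB (tsl_ne a) b).symm ▸ le_cc hB)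
      fun l hl b => (card_filter_le _ _).trans ((List.toFinset_card_le _).trans (hl ▸ hL))
    have h' : #{p ∈ Conf B n | ¬ (vis p (a :: w) x).Nodup} ≤ #{p ∈ Conf B n | ¬ (vis p w x).Nodup}
        + #{p ∈ Conf B n | (vis p w x).Nodup ∧ endp p (a :: w) x ∈ (vis p w x).toFinset} := by
      refine le_trans (card_le_card fun p hp => ?_) (card_union_le _ _)
      simp only [mem_filter, vis, List.nodup_cons, mem_union, List.mem_toFinset] at hp ⊢
      tauto
    have h2 := (Nat.mul_le_mul_left _ (Nat.sub_le_sub_left hL n)).trans h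
    refine (Nat.mul_le_mul_right _ h').trans ?_
    rw [add_mul, List.length_cons, mul_add, mul_one]
    exact add_le_add ih h2

/-- The error term. -/
noncomputable def eta (B n L : ℕ) : ℝ := 2 / B + L * L / (n - L : ℕ)

theorem not_nodup_le (hB : 0 < B) {L : ℕ} (hn : L < n) (x : Om B n) {w : List (Pos × Bool)}
    (hr : FreeGroup.IsReduced w) (hL : w.length ≤ L) :
    (#{p ∈ Conf B n | ¬ (vis p w x).Nodup} : ℝ) ≤ #(Conf B n) * (L * L / (n - L : ℕ)) := by
  have h := (card_not_nodup hB x hr hL).trans (Nat.mul_le_mul_left _ hL)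
  have h0 : (0 : ℝ) < (n - L : ℕ) := by exact_mod_cast Nat.sub_pos_of_lt hn
  rw [← mul_div_assoc, le_div_iff₀ h0, ← mul_assoc]
  exact_mod_cast h

theorem fresh_le (hB : 0 < B) {L : ℕ} (hn : 2 * L < n) (x : Om B n) {a : Pos × Bool}
    {w : List (Pos × Bool)} (hr : FreeGroup.IsReduced (a :: w)) (hL : (a :: w).length ≤ L)
    {s' : Slot} (h1 : (tsl a).1 ≠ s') (h2 : (tsl a).2 ≠ s') (b' : Fin B) :
    (#{p ∈ Conf B n | col s' (endp p (a :: w) x) = b'} : ℝ) ≤ #(Conf B n) * eta B n L := by
  have hc : ∀ b, #{y ∈ ({y : Om B n | col s' y = b'} : Finset (Om B n)) | col2 (tsl a) y = b} * B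
      = cc B n := fun b => by
    rw [← card_class_eq hB (tsl_ne a) b, ← card_fresh (fun y => col2 (tsl a) y = b) s' (fun _ => b')
      (fun y c h => by rwa [col2, col_upd_ne y h1, col_upd_ne y h2]) fun _ _ => rfl, filter_filter]
    simp only [and_comm]
  have h := switching (Conf B n) (col2 (tsl (a.1, !a.2))) (col2 (tsl a))
    (fun p hp u => col2_st hp a u) (fun p hp y y' => sw_mem hp a y y') hr x
    (fun _ => {y | col s' y = b'}) (c := cc B n) (α := cc B n / B)
    (fun b => (card_class_eq hB (tsl_ne a) b).ge)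
    fun l hl b => (Nat.le_div_iff_mul_le hB).2 (hc b).le
  have h' : #{p ∈ Conf B n | col s' (endp p (a :: w) x) = b'} ≤
      #{p ∈ Conf B n | (vis p w x).Nodup ∧
        endp p (a :: w) x ∈ ({y | col s' y = b'} : Finset (Om B n))}
      + #{p ∈ Conf B n | ¬ (vis p w x).Nodup} := by
    refine le_trans (card_le_card fun p hp => ?_) (card_union_le _ _)
    simp only [mem_filter, mem_union, mem_univ, true_and] at hp ⊢
    tauto
  have h3 := not_nodup_le hB (L := L) (by omega) x (hr.infix (List.suffix_cons a w).isInfix)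
    ((Nat.le_succ _).trans hL)
  generalize #{p ∈ Conf B n | (vis p w x).Nodup ∧
    endp p (a :: w) x ∈ ({y | col s' y = b'} : Finset (Om B n))} = u at h h'
  have hcn := le_cc (n := n) hB
  have h4 : u * B * cc B n ≤ #(Conf B n) * 2 * cc B n := by
    have e1 : cc B n ≤ 2 * (cc B n - (w.length + 1)) := by
      rw [List.length_cons] at hL; omega
    calc u * B * cc B n ≤ u * B * (2 * (cc B n - (w.length + 1))) := Nat.mul_le_mul_left _ e1
      _ = 2 * B * (u * (cc B n - (w.length + 1))) := by ring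
      _ ≤ 2 * B * (#(Conf B n) * (cc B n / B)) := Nat.mul_le_mul_left _ h
      _ = #(Conf B n) * 2 * (cc B n / B * B) := by ring
      _ ≤ _ := Nat.mul_le_mul_left _ (Nat.div_mul_le_self _ _)
  have h5 : (u : ℝ) ≤ #(Conf B n) * (2 / B) := by
    rw [← mul_div_assoc, le_div_iff₀ (by exact_mod_cast hB)]
    exact_mod_cast Nat.le_of_mul_le_mul_right h4 (by omega)
  rw [eta, mul_add]
  exact le_trans (by exact_mod_cast h') (add_le_add h5 h3)

theorem sum_col_le (hB : 0 < B) {L : ℕ} (hn : 2 * L < n) (s : Slot) :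
    ∀ {w : List (Pos × Bool)}, FreeGroup.IsReduced w → w.length ≤ L → ∀ s' : Slot,
      (ι (FreeGroup.mk w))⁻¹ * T s' * ι (FreeGroup.mk w) = T s ∨
      ∑ x : Om B n, (#{p ∈ Conf B n | col s' (endp p w x) = col s x} : ℝ)
        ≤ Fintype.card (Om B n) * (#(Conf B n) * eta B n L)
  | [], _, _, s' => by
    by_cases hs : s = s'
    · left
      rw [hs, ← FreeGroup.one_eq_mk]
      simp
    · right
      have h := card_fresh (B := B) (n := n) (fun _ => True) s' (col s) (fun _ _ h => h)
        fun y b => col_upd_ne y hs b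
      rw [filter_true, card_univ] at h
      have e : ∀ x : Om B n, (#{p ∈ Conf B n | col s' (endp p [] x) = col s x} : ℝ)
          = if True ∧ col s' x = col s x then (#(Conf B n) : ℝ) else 0 := fun x => by
        simp only [endp, true_and]
        split_ifs with h <;> simp [h]
      have hB' : (0 : ℝ) < B := by exact_mod_cast hB
      simp only [e]
      rw [← sum_filter, sum_const, nsmul_eq_mul, ← h, Nat.cast_mul, mul_assoc, mul_left_comm (B : ℝ)]
      refine mul_le_mul_of_nonneg_left (le_mul_of_one_le_right (by positivity) ?_) (by positivity)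
      rw [eta, mul_add, mul_div_cancel₀ _ hB'.ne']
      have : (0 : ℝ) ≤ B * (L * L / (n - L : ℕ)) := by positivity
      linarith
  | a :: w, hr, hL, s' => by
    have ih := sum_col_le hB hn s (hr.infix (List.suffix_cons a w).isInfix)
      ((Nat.le_succ _).trans hL)
    have key : ∀ s'' : Slot, (st P a)⁻¹ * T s' * st P a = T s'' →
        (∀ p ∈ Conf B n, ∀ u, col s' (st p a u) = col s'' u) →
        (ι (FreeGroup.mk (a :: w)))⁻¹ * T s' * ι (FreeGroup.mk (a :: w)) = T s ∨
        ∑ x : Om B n, (#{p ∈ Conf B n | col s' (endp p (a :: w) x) = col s x} : ℝ)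
          ≤ Fintype.card (Om B n) * (#(Conf B n) * eta B n L) := fun s'' h1 h2 => by
      refine (ih s'').imp (fun h => ?_) fun h => le_trans (le_of_eq ?_) h
      · rw [← h, ← h1, ι, lift_cons]
        simp only [mul_inv_rev, mul_assoc]
      · refine sum_congr rfl fun x _ => ?_
        rw [filter_congr fun p hp => by rw [endp, h2 p hp]]
    by_cases h1 : (tsl a).1 = s'
    · exact key _ (h1 ▸ (conj_tsl a).1) fun p hp u => h1 ▸ congrArg Prod.fst (col2_st hp a u)
    by_cases h2 : (tsl a).2 = s'
    · exact key _ (h2 ▸ (conj_tsl a).2) fun p hp u => h2 ▸ congrArg Prod.snd (col2_st hp a u)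
    right
    refine (sum_le_sum fun x _ => fresh_le hB hn x hr hL h1 h2 _).trans (le_of_eq ?_)
    rw [sum_const, card_univ, nsmul_eq_mul]

theorem sum_swap (E : (Pos → Equiv.Perm (Om B n)) → Om B n → Prop) [∀ p x, Decidable (E p x)] :
    ∑ p ∈ Conf B n, (#{x | E p x} : ℝ) = ∑ x, (#{p ∈ Conf B n | E p x} : ℝ) := by
  simp only [card_filter, Nat.cast_sum]
  exact sum_comm

theorem sum_fix_le (hB : 0 < B) {L : ℕ} (hn : 2 * L < n) {f : FreeGroup Pos} (hf : f ≠ 1)
    (hL : f.toWord.length ≤ L) : ∑ p ∈ Conf B n, (#{x | FreeGroup.lift p f x = x} : ℝ)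
      ≤ Fintype.card (Om B n) * (#(Conf B n) * eta B n L) := by
  rw [sum_swap, ← nsmul_eq_mul, ← card_univ, ← sum_const]
  refine sum_le_sum fun x _ => le_trans ?_ ((not_nodup_le hB (L := L) (by omega) x
    FreeGroup.isReduced_toWord hL).trans (mul_le_mul_of_nonneg_left
      (le_add_of_nonneg_left (by positivity)) (by positivity)))
  refine Nat.cast_le.2 (card_le_card (monotone_filter_right _ fun p _ hp hN => hf ?_))
  rw [← FreeGroup.mk_toWord (x := f), lift_eq_endp] at hp
  exact FreeGroup.toWord_eq_nil_iff.1 (eq_of_nodup hN List.nil_suffix hp.symm).symm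

end Sw

open Sw Finset

open Classical in
theorem random_model (𝒟 : Finset (FreeGroup Pos)) (ε : ℝ) (hε : 0 < ε) (N₀ : ℕ) :
    ∃ (B n : ℕ) (p : Pos → Equiv.Perm (Om B n)),
      Compat p ∧ Expanding p ∧ N₀ ≤ Fintype.card (Om B n) ∧
      (∀ f ∈ 𝒟, f ≠ 1 →
        ((Finset.univ.filter (fun x : Om B n => FreeGroup.lift p f x = x)).card : ℝ)
          ≤ ε * Fintype.card (Om B n)) ∧
      (∀ g ∈ 𝒟, ∀ s s' : Slot, (ι g)⁻¹ * T s' * ι g = T s ∨
        ((Finset.univ.filter
            (fun x : Om B n => col s' (FreeGroup.lift p g x) = col s x)).card : ℝ)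
          ≤ ε * Fintype.card (Om B n)) := by
  set L := 𝒟.sup fun f => f.toWord.length
  have hL : ∀ f ∈ 𝒟, f.toWord.length ≤ L := fun f hf =>
    le_sup (f := fun f : FreeGroup Pos => f.toWord.length) hf
  obtain ⟨R, hR⟩ : ∃ R : ℝ, R = #𝒟 * (1 + Fintype.card (Slot × Slot)) := ⟨_, rfl⟩
  have hR0 : 0 ≤ R := hR ▸ mul_nonneg (Nat.cast_nonneg _) (add_nonneg zero_le_one (Nat.cast_nonneg _))
  obtain ⟨B, hB⟩ := exists_nat_gt (8 * R / ε)
  obtain ⟨m, hm⟩ := exists_nat_gt (4 * R * (L * L) / ε)
  have hB0 : (0 : ℝ) < B := lt_of_le_of_lt (by positivity) hB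
  have hB1 : 0 < B := by exact_mod_cast hB0
  set n := 2 * L + 1 + N₀ + m with hn
  have hn1 : 2 * L < n := by omega
  have heta : R * eta B n L ≤ ε / 2 := by
    have h0 : (0 : ℝ) < (n - L : ℕ) := by exact_mod_cast Nat.sub_pos_of_lt (by omega)
    have h1 : (m : ℝ) ≤ (n - L : ℕ) := by exact_mod_cast (by omega : m ≤ n - L)
    rw [div_lt_iff₀ hε] at hB hm
    have h2 : R * (2 / B) ≤ ε / 4 := by
      rw [← mul_div_assoc, div_le_iff₀ hB0]; linarith
    have h3 : R * (L * L / (n - L : ℕ)) ≤ ε / 4 := by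
      rw [← mul_div_assoc, div_le_iff₀ h0]; nlinarith
    rw [eta, mul_add]
    linarith
  let F₁ : FreeGroup Pos → (Pos → Equiv.Perm (Om B n)) → ℝ := fun f p =>
    if f = 1 then 0 else #{x | FreeGroup.lift p f x = x}
  let F₂ : FreeGroup Pos → Slot × Slot → (Pos → Equiv.Perm (Om B n)) → ℝ := fun g s p =>
    if (ι g)⁻¹ * T s.2 * ι g = T s.1 then 0 else #{x | col s.2 (FreeGroup.lift p g x) = col s.1 x}
  have p1 : ∀ f p, 0 ≤ F₁ f p := fun f p => by simp only [F₁]; split_ifs <;> positivity
  have p2 : ∀ f s p, 0 ≤ F₂ f s p := fun f s p => by simp only [F₂]; split_ifs <;> positivity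
  set E : ℝ := Fintype.card (Om B n) * (#(Conf B n) * eta B n L) with hE
  have hE0 : 0 ≤ E := by rw [hE, eta]; positivity
  have b1 : ∀ f ∈ 𝒟, ∑ p ∈ Conf B n, F₁ f p ≤ E := fun f hf => by
    simp only [F₁]
    split_ifs with h
    · simpa using hE0
    · exact sum_fix_le hB1 hn1 h (hL f hf)
  have b2 : ∀ f ∈ 𝒟, ∀ s, ∑ p ∈ Conf B n, F₂ f s p ≤ E := fun f hf s => by
    simp only [F₂]
    split_ifs with h
    · simpa using hE0
    · have := sum_col_le hB1 hn1 s.1 FreeGroup.isReduced_toWord (hL f hf) s.2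
      simp only [← lift_eq_endp, FreeGroup.mk_toWord] at this
      rw [sum_swap]
      exact this.resolve_left h
  have pt : ∀ p, ∀ f ∈ 𝒟, 0 ≤ F₁ f p + ∑ s, F₂ f s p := fun p f _ =>
    add_nonneg (p1 f p) (sum_nonneg fun s _ => p2 f s p)
  have hx := expansion B n hB1 (by omega)
  have hx' := card_filter_add_card_filter_not (s := Conf B n) Expanding
  have hpos := (conf_nonempty B n).card_pos
  obtain ⟨p, hp, hp'⟩ := exists_le_of_sum_le (s := (Conf B n).filter Expanding)
    (f := fun p => ∑ f ∈ 𝒟, (F₁ f p + ∑ s, F₂ f s p)) (g := fun _ => ε * Fintype.card (Om B n))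
    (card_pos.1 (by omega)) (by
      refine (sum_le_sum_of_subset_of_nonneg (filter_subset _ _)
        fun p _ _ => sum_nonneg (pt p)).trans ?_
      rw [sum_comm]
      refine (sum_le_sum (g := fun _ => E + ∑ _s : Slot × Slot, E) fun f hf => ?_).trans ?_
      · rw [sum_add_distrib, sum_comm]
        exact add_le_add (b1 f hf) (sum_le_sum fun s _ => b2 f hf s)
      · have h1 : (#(Conf B n) : ℝ) ≤ 2 * #((Conf B n).filter Expanding) := by
          exact_mod_cast (by omega : #(Conf B n) ≤ 2 * #((Conf B n).filter Expanding))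
        simp only [sum_const, card_univ, nsmul_eq_mul]
        calc _ = Fintype.card (Om B n) * (#(Conf B n) * (R * eta B n L)) := by rw [hE, hR]; ring
          _ ≤ Fintype.card (Om B n) * ((2 * #((Conf B n).filter Expanding)) * (ε / 2)) := by
            refine mul_le_mul_of_nonneg_left (mul_le_mul h1 heta (mul_nonneg hR0 ?_)
              (by positivity)) (Nat.cast_nonneg _)
            rw [eta]; positivity
          _ = _ := by ring)
  obtain ⟨hp1, hp2⟩ := mem_filter.1 hp
  have hf : ∀ f ∈ 𝒟, F₁ f p + ∑ s, F₂ f s p ≤ ε * Fintype.card (Om B n) := fun f hf =>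
    (single_le_sum (pt p) hf).trans hp'
  refine ⟨B, n, p, mem_conf.1 hp1, hp2, ?_, fun f hf' h => ?_, fun g hg s s' => ?_⟩
  · simp only [Fintype.card_prod, Fintype.card_fun, Fintype.card_fin]
    exact le_trans (by omega) (Nat.le_mul_of_pos_left n (Nat.pow_pos hB1))
  · have := (le_add_of_nonneg_right (sum_nonneg fun s _ => p2 f s p)).trans (hf f hf')
    simpa only [F₁, if_neg h] using this
  · refine or_iff_not_imp_left.2 fun h => ?_
    have := ((single_le_sum (fun s _ => p2 g s p) (mem_univ (s, s'))).trans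
      (le_add_of_nonneg_left (p1 g p))).trans (hf g hg)
    simpa only [F₂, if_neg h] using this

end Crest.Agent.R191
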