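import Crest.Agent.R191.Model1
import Crest.Agent.R191.Random
import Crest.Agent.R191.Girth

/-!
The finite model, part 2: asymptotic freeness and the main finite statement.
-/

set_option autoImplicit false

namespace Crest.Agent.R191

namespace Md

/-- Conjugates of the `T_s` by words in the `p_k`. -/
def W : Set Big := {w | ∃ (g : FreeGroup Pos) (s : Slot), w = (ι g)⁻¹ * T s * ι g}

theorem normal_form (γ : Big) : ∃ (v : FreeGroup W) (f : FreeGroup Pos),
    γ = FreeGroup.lift (Subtype.val : W → Big) v * ι f := by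
  have hconj : ∀ (f : FreeGroup Pos), ∀ a ∈ Subgroup.closure W,
      ι f * a * (ι f)⁻¹ ∈ Subgroup.closure W := by
    intro f a ha
    induction ha using Subgroup.closure_induction with
    | mem x hx =>
      obtain ⟨g, s, rfl⟩ := hx
      exact Subgroup.subset_closure ⟨g * f⁻¹, s, by simp [mul_assoc]⟩
    | one => simp
    | mul x y _ _ hx hy =>
      have := Subgroup.mul_mem _ hx hy
      simpa [mul_assoc] using this
    | inv x _ hx =>
      have := Subgroup.inv_mem _ hx
      simpa [mul_assoc] using this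
  let S : Subgroup Big :=
    { carrier := {γ | ∃ a ∈ Subgroup.closure W, ∃ f, γ = a * ι f}
      one_mem' := ⟨1, Subgroup.one_mem _, 1, by simp⟩
      mul_mem' := by
        rintro _ _ ⟨a, ha, f, rfl⟩ ⟨b, hb, g, rfl⟩
        exact ⟨a * (ι f * b * (ι f)⁻¹), Subgroup.mul_mem _ ha (hconj f b hb), f * g,
          by simp [mul_assoc]⟩
      inv_mem' := by
        rintro _ ⟨a, ha, f, rfl⟩
        exact ⟨ι f⁻¹ * a⁻¹ * (ι f⁻¹)⁻¹, hconj _ _ (Subgroup.inv_mem _ ha), f⁻¹,
          by simp [mul_assoc]⟩ }
  have : γ ∈ S := PresentedGroup.generated_by _ S (by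
    rintro (k | s)
    · exact ⟨1, Subgroup.one_mem _, FreeGroup.of k, by simp [ι, P]⟩
    · exact ⟨T s, Subgroup.subset_closure ⟨1, s, by simp⟩, 1, by simp [T]⟩) γ
  obtain ⟨a, ha, f, rfl⟩ := this
  have h2 : a ∈ (FreeGroup.lift (Subtype.val : W → Big)).range := by
    rwa [FreeGroup.range_lift_eq_closure, Subtype.range_coe]
  obtain ⟨v, rfl⟩ := h2
  exact ⟨v, f, rfl⟩

section act

variable {Z C H : Type} [Group H] [MulAction Big (Z × H)] {π : Pos → Equiv.Perm Z}
  {κ : Slot → Z → C} {τ : C → H}

omit [Group H] in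
theorem act_iota (hP : ∀ k (z : Z) (h : H), P k • ((z, h) : Z × H) = (π k z, h))
    (f : FreeGroup Pos) : ∀ (z : Z) (h : H), ι f • ((z, h) : Z × H) = (FreeGroup.lift π f z, h) := by
  induction f with
  | C1 => simp
  | of k => simpa [ι] using hP k
  | inv_of k ih =>
    intro z h
    rw [map_inv, inv_smul_eq_iff, ih]
    simp
  | mul x y hx hy => intro z h; simp [mul_smul, hx, hy]

theorem act_free (hP : ∀ k (z : Z) (h : H), P k • ((z, h) : Z × H) = (π k z, h))
    (hT : ∀ s (z : Z) (h : H), T s • ((z, h) : Z × H) = (z, τ (κ s z) * h))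
    (gw : W → FreeGroup Pos) (sw : W → Slot)
    (hw : ∀ w : W, (w : Big) = (ι (gw w))⁻¹ * T (sw w) * ι (gw w)) (v : FreeGroup W) :
    ∀ (z : Z) (h : H), FreeGroup.lift (Subtype.val : W → Big) v • ((z, h) : Z × H) =
      (z, FreeGroup.lift τ (FreeGroup.map (fun w => κ (sw w) (FreeGroup.lift π (gw w) z)) v) * h) := by
  induction v with
  | C1 => simp
  | of w =>
    intro z h
    rw [FreeGroup.lift_apply_of, hw, mul_smul, mul_smul, act_iota hP, hT, inv_smul_eq_iff,
      act_iota hP]
    simp
  | inv_of w ih =>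
    intro z h
    rw [map_inv, inv_smul_eq_iff, ih]
    simp
  | mul x y hx hy => intro z h; simp [mul_smul, hx, hy, mul_assoc]

end act

theorem map_ne_one {α C : Type} [DecidableEq α] (κ : α → C) (v : FreeGroup α) (hv : v ≠ 1)
    (hinj : ∀ a ∈ v.toWord, ∀ b ∈ v.toWord, κ a.1 = κ b.1 → a.1 = b.1) :
    FreeGroup.map κ v ≠ 1 := by
  classical
  intro h
  apply hv
  have hex : ∀ y : C, ∃ r : FreeGroup α, ∀ a ∈ v.toWord, κ a.1 = y → r = FreeGroup.of a.1 := by
    intro y
    by_cases hy : ∃ a ∈ v.toWord, κ a.1 = y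
    · obtain ⟨a, ha, rfl⟩ := hy
      exact ⟨FreeGroup.of a.1, fun b hb hab => by rw [hinj b hb a ha hab]⟩
    · exact ⟨1, fun a ha h => absurd ⟨a, ha, h⟩ hy⟩
  choose r hr using hex
  have : FreeGroup.lift r (FreeGroup.map κ v) = v := by
    conv_rhs => rw [← FreeGroup.lift_of_apply (x := v)]
    conv_lhs => rw [← FreeGroup.mk_toWord (x := v)]
    conv_rhs => rw [← FreeGroup.mk_toWord (x := v)]
    rw [FreeGroup.map.mk, FreeGroup.lift_mk, FreeGroup.lift_mk, List.map_map]
    congr 1
    refine List.map_congr_left (fun a ha => ?_)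
    simp [hr _ a ha rfl]
  rw [← this, h, map_one]

theorem norm_map_le {α C : Type} [DecidableEq α] [DecidableEq C] (κ : α → C) (v : FreeGroup α) :
    (FreeGroup.map κ v).norm ≤ v.norm := by
  conv_lhs => rw [← FreeGroup.mk_toWord (x := v), FreeGroup.map.mk]
  refine FreeGroup.norm_mk_le.trans ?_
  simp [FreeGroup.norm]

open Classical in
theorem frac_prod {α β : Type} [Fintype α] [Fintype β] (Q : α → Prop) (Q' : α × β → Prop) (ε : ℝ)
    (hQ : ∀ x, Q' x → Q x.1)
    (h : ((Finset.univ.filter Q).card : ℝ) ≤ ε * Fintype.card α) :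
    ((Finset.univ.filter Q').card : ℝ) ≤ ε * Fintype.card (α × β) := by
  have h1 : (Finset.univ.filter Q').card ≤ (Finset.univ.filter Q).card * Fintype.card β := by
    rw [← Finset.card_univ (α := β), ← Finset.card_product]
    refine Finset.card_le_card (fun x hx => ?_)
    simp only [Finset.mem_filter, Finset.mem_univ, true_and, Finset.mem_product, and_true] at hx ⊢
    exact hQ x hx
  calc ((Finset.univ.filter Q').card : ℝ)
      ≤ (Finset.univ.filter Q).card * Fintype.card β := by exact_mod_cast h1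
    _ ≤ ε * Fintype.card α * Fintype.card β := by gcongr
    _ = ε * Fintype.card (α × β) := by rw [Fintype.card_prod]; push_cast; ring

end Md

open Md in
open Classical in
theorem finite_model (D : Finset Big) (ε : ℝ) (hε : 0 < ε) :
    ∃ (X : Type) (_ : Fintype X) (_ : Nonempty X) (_ : MulAction Big X),
      (∀ γ ∈ D, γ ≠ 1 →
        ((Finset.univ.filter (fun x : X => γ • x = x)).card : ℝ) ≤ ε * Fintype.card X) ∧
      ∀ Δ : Finset (Big × X), (∀ x : X, Gen (Δ : Set (Big × X)) x (T .ini)) →
        (∀ x : X, Gen (Δ : Set (Big × X)) x (P 1 * (P 0)⁻¹)) →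
        (1 + 1 / 6534000 - ε) * Fintype.card X ≤ Δ.card := by
  choose vv ff hvf using normal_form
  have hW : ∀ w : W, ∃ (g : FreeGroup Pos) (s : Slot), (w : Big) = (ι g)⁻¹ * T s * ι g :=
    fun w => w.2
  choose gw sw hw using hW
  let m : ℕ := D.sup (fun γ => (vv γ).norm)
  let let' : Big → Finset W := fun γ => ((vv γ).toWord.map Prod.fst).toFinset
  have hlet : ∀ γ ∈ D, (let' γ).card ≤ m := by
    intro γ hγ
    refine (List.toFinset_card_le _).trans ?_
    rw [List.length_map]
    exact Finset.le_sup (f := fun γ => (vv γ).norm) hγ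
  let 𝒟 : Finset (FreeGroup Pos) := D.image ff ∪
    D.biUnion (fun γ => (let' γ ×ˢ let' γ).image (fun a => gw a.2 * (gw a.1)⁻¹))
  let ε' : ℝ := ε / (m ^ 2 + 1)
  have hε' : 0 < ε' := by positivity
  have hε1 : ε' * (m ^ 2 + 1) = ε := by simp only [ε']; field_simp
  obtain ⟨B, n, p, hcomp, hexp, hcard, hfix, hcol⟩ := random_model 𝒟 ε' hε' 480
  obtain ⟨R₀, hR₀⟩ := exists_nat_gt (2 / ε)
  let R : ℕ := R₀ + 1
  obtain ⟨H, _, _, τ₀, hτ₀⟩ := exists_girth (Fin B) m
  let H' := H × Multiplicative (ZMod R)
  let τ : Fin B → H' := fun b => (τ₀ b, Multiplicative.ofAdd 1)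
  have hτ : ∀ w : FreeGroup (Fin B), w ≠ 1 → w.norm ≤ m → FreeGroup.lift τ w ≠ 1 := by
    intro w h1 h2 h3
    apply hτ₀ w h1 h2
    have : (MonoidHom.fst _ _).comp (FreeGroup.lift τ) = FreeGroup.lift τ₀ := by
      ext1 b; simp [τ]
    rw [← this, MonoidHom.comp_apply, h3, map_one]
  let Z := Om B n × Pos × Pos
  obtain ⟨N, _, c, hc, hrel, hG⟩ := exists_group (L := 165) (by norm_num)
    (fun k (x : Z) => tw p k x) (tw_P2 p)
  let F₀ := Fintype.card (Om B n) / 240
  have hcZ : Fintype.card Z = Fintype.card (Om B n) * 27225 := by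
    simp only [Z, Fintype.card_prod (Om B n), Fintype.card_prod Pos, ZMod.card]
  have hrank := rank_lower (L := 165) (by norm_num) (fun k (x : Z) => tw p k x) (tw_P1 p) (tw_P2 p)
    c hc hrel hG F₀ (by omega) (by omega) (mexp_tw (mexp_of_expanding hexp (by omega)))
  obtain ⟨act, β, hP, hT, hcoc, hβT, hβq⟩ := exists_action (tw p) (fun s (z : Z) => col s z.1)
    (fun k x => (hcomp k x.1).1) (fun k x => (hcomp k x.1).2) τ c hrel
  have : Nonempty (Om B n) := Fintype.card_pos_iff.1 (by omega)
  refine ⟨Z × H', inferInstance, inferInstance, act, ?_, ?_⟩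
  · intro γ hγ hγ1
    refine frac_prod (fun z : Z => ∃ h : H', γ • (z, h) = (z, h)) _ ε (fun x hx => ⟨x.2, hx⟩) ?_
    by_cases hf : ff γ = 1
    · have hv : vv γ ≠ 1 := by
        intro h
        apply hγ1
        rw [hvf γ, h, hf]; simp
      let bad : W × W → Finset (Om B n) := fun a => Finset.univ.filter (fun x =>
        col (sw a.2) (FreeGroup.lift p (gw a.2) x) = col (sw a.1) (FreeGroup.lift p (gw a.1) x))
      let J := (let' γ ×ˢ let' γ).filter (fun a => a.1 ≠ a.2)
      have hbad : ∀ a ∈ J, ((bad a).card : ℝ) ≤ ε' * Fintype.card (Om B n) := by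
        intro a ha
        obtain ⟨h1, h2⟩ := Finset.mem_filter.1 ha
        rcases hcol (gw a.2 * (gw a.1)⁻¹) (Finset.mem_union_right _ (Finset.mem_biUnion.2
          ⟨γ, hγ, Finset.mem_image_of_mem _ h1⟩)) (sw a.1) (sw a.2) with h3 | h3
        · exfalso
          apply h2
          apply Subtype.ext
          rw [hw a.1, hw a.2, ← h3]
          simp [mul_assoc]
        · refine le_trans (le_of_eq ?_) h3
          congr 1
          refine Finset.card_bijective (FreeGroup.lift p (gw a.1)) (Equiv.bijective _) ?_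
          intro x
          simp [bad]
      refine frac_prod (fun x : Om B n => x ∈ J.biUnion bad) _ ε ?_ ?_
      · rintro z ⟨h, hz⟩
        by_contra hc'
        rw [hvf γ, hf, map_one, mul_one, act_free hP hT gw sw hw] at hz
        simp only [Prod.mk.injEq, true_and, mul_eq_right] at hz
        refine hτ _ (map_ne_one _ _ hv ?_) ((norm_map_le _ _).trans
          (Finset.le_sup (f := fun γ => (vv γ).norm) hγ)) hz
        intro a ha b hb hab
        by_contra hne
        apply hc'
        refine Finset.mem_biUnion.2 ⟨(a.1, b.1), Finset.mem_filter.2 ⟨Finset.mem_product.2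
          ⟨List.mem_toFinset.2 (List.mem_map_of_mem ha),
            List.mem_toFinset.2 (List.mem_map_of_mem hb)⟩, hne⟩, ?_⟩
        simp only [lift_tw] at hab
        simpa [bad] using hab.symm
      · refine le_trans (b := ((J.biUnion bad).card : ℝ)) (by
          rw [Nat.cast_le]
          exact Finset.card_le_card (fun x hx => by simpa using hx)) ?_
        have hJ : (J.card : ℝ) ≤ m ^ 2 + 1 := by
          have h1 : J.card ≤ m * m := (Finset.card_filter_le _ _).trans (by
            rw [Finset.card_product]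
            exact Nat.mul_le_mul (hlet γ hγ) (hlet γ hγ))
          have : (J.card : ℝ) ≤ m * m := by exact_mod_cast h1
          nlinarith
        calc ((J.biUnion bad).card : ℝ) ≤ ∑ a ∈ J, ((bad a).card : ℝ) := by
              exact_mod_cast Finset.card_biUnion_le
          _ ≤ J.card • (ε' * Fintype.card (Om B n)) := Finset.sum_le_card_nsmul _ _ _ hbad
          _ ≤ (m ^ 2 + 1) * (ε' * Fintype.card (Om B n)) := by
              rw [nsmul_eq_mul]; gcongr
          _ = ε * Fintype.card (Om B n) := by rw [← hε1]; ring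
    · refine frac_prod (fun x : Om B n => FreeGroup.lift p (ff γ) x = x) _ ε ?_ ?_
      · rintro z ⟨h, hz⟩
        rw [hvf γ, mul_smul, act_iota hP, act_free hP hT gw sw hw] at hz
        have := congrArg (fun x => x.1.1) hz
        simpa [lift_tw] using this
      · refine le_trans (le_of_eq ?_) ((hfix _ (Finset.mem_union_left _
          (Finset.mem_image_of_mem _ hγ)) hf).trans ?_)
        · congr
        · have : ε' ≤ ε := by
            rw [← hε1]
            nlinarith [sq_nonneg (m : ℝ)]
          gcongr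
  · intro Δ h1 h2
    let X₀ : Finset (Z × H') := Finset.univ.filter (fun x => x.2.2 = 1)
    have hpow : ∀ (j : ℕ) (z : Z) (h : H'),
        T .ini ^ j • ((z, h) : Z × H') = (z, τ (col .ini z.1) ^ j * h) := by
      intro j z h
      induction j with
      | zero => simp
      | succ j ih => rw [pow_succ', mul_smul, ih, hT, pow_succ', mul_assoc]
    have hcount := count β c hc hcoc hβT hβq (F₀ + 1) hrank X₀ (by
      rintro ⟨z, h⟩
      refine ⟨(-h.2.toAdd).val, ?_⟩
      rw [hpow]
      simp only [X₀, Finset.mem_filter, Finset.mem_univ, true_and]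
      show (Multiplicative.ofAdd (1 : ZMod R)) ^ _ * h.2 = 1
      rw [← ofAdd_nsmul, nsmul_eq_mul, mul_one, ZMod.natCast_zmod_val]
      simp) Δ h1 h2
    have hX₀ : X₀.card * R = Fintype.card (Z × H') := by
      have : X₀ = Finset.univ ×ˢ (Finset.univ ×ˢ {1}) := by
        ext x
        simp only [X₀, Finset.mem_filter, Finset.mem_univ, true_and, Finset.mem_product,
          Finset.mem_singleton]
      rw [this, Finset.card_product, Finset.card_product, Finset.card_singleton,
        Fintype.card_prod Z, Fintype.card_prod H, Fintype.card_multiplicative, ZMod.card]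
      simp only [Finset.card_univ]
      ring
    have hpos : 0 < Fintype.card (Z × H') := Fintype.card_pos
    have hX1 : 1 ≤ X₀.card := by
      rcases Nat.eq_zero_or_pos X₀.card with h | h
      · rw [h] at hX₀; omega
      · exact h
    have hmain : Fintype.card (Z × H') ≤ 6534000 * (Fintype.card H' * (F₀ + 1)) := by
      rw [Fintype.card_prod Z, hcZ]
      have : Fintype.card (Om B n) ≤ 240 * (F₀ + 1) := by omega
      calc Fintype.card (Om B n) * 27225 * Fintype.card H'
          ≤ 240 * (F₀ + 1) * 27225 * Fintype.card H' := by gcongr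
        _ = _ := by ring
    have r1 : (Fintype.card H' * (F₀ + 1) + Fintype.card (Z × H') : ℝ) ≤ Δ.card + X₀.card + 1 := by
      exact_mod_cast hcount
    have r2 : (X₀.card * R : ℝ) = Fintype.card (Z × H') := by exact_mod_cast hX₀
    have r3 : (1 : ℝ) ≤ X₀.card := by exact_mod_cast hX1
    have r4 : (Fintype.card (Z × H') : ℝ) ≤ 6534000 * (Fintype.card H' * (F₀ + 1)) := by
      exact_mod_cast hmain
    have r5 : 2 ≤ ε * R := by
      rw [div_lt_iff₀ hε] at hR₀
      have : (R : ℝ) = R₀ + 1 := by simp [R]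
      rw [this]
      nlinarith
    have r6 : 2 * (X₀.card : ℝ) ≤ ε * Fintype.card (Z × H') := by
      rw [← r2]
      nlinarith
    linarith

end Crest.Agent.R191
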