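import Crest.Agent.R191.Rank
import Crest.Agent.R191.Grushko
import Crest.Agent.R191.Expand

/-!
The finite model, part 1: multiset expansion, the action with its cocycle, the rank count.
-/

set_option autoImplicit false

namespace Crest.Agent.R191

namespace Md

theorem mexp_of_expanding {Ω : Type} [Fintype Ω] {p : Pos → Equiv.Perm Ω} (h : Expanding p)
    {F₀ : ℕ} (hF : 240 * F₀ ≤ Fintype.card Ω) : MExp (fun k x => p k x) F₀ := by
  classical
  have key : ∀ m : ℕ, ∀ (ℓ μ : Ω → ℕ), (∀ x, ℓ x ≤ m) → (∀ k x, ℓ x ≤ μ (p k x)) →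
      (Finset.univ.filter (fun x => ℓ x ≠ 0)).card ≤ F₀ → 40 * ∑ x, ℓ x ≤ ∑ e, μ e := by
    intro m
    induction m with
    | zero =>
      intro ℓ μ h1 _ _
      have : ∑ x, ℓ x = 0 := Finset.sum_eq_zero (fun x _ => Nat.le_zero.1 (h1 x))
      omega
    | succ m ih =>
      intro ℓ μ h1 h2 h3
      have g1 := ih (fun x => ℓ x - 1) (fun x => μ x - 1) (fun x => by have := h1 x; omega)
        (fun k x => by have := h2 k x; omega) (le_trans (Finset.card_le_card (by
          intro x hx
          simp only [Finset.mem_filter, Finset.mem_univ, true_and] at hx ⊢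
          omega)) h3)
      have g2 := h (Finset.univ.filter (fun x => ℓ x ≠ 0)) (Finset.univ.filter (fun x => μ x ≠ 0))
        (by omega) (by
          intro k x hx
          simp only [Finset.mem_filter, Finset.mem_univ, true_and] at hx ⊢
          have := h2 k x; omega)
      have e : ∀ f : Ω → ℕ, ∑ x, f x = ∑ x, (f x - 1) +
          (Finset.univ.filter (fun x => f x ≠ 0)).card := by
        intro f
        rw [Finset.card_filter, ← Finset.sum_add_distrib]
        refine Finset.sum_congr rfl (fun x _ => ?_)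
        split_ifs <;> omega
      rw [e ℓ, e μ]
      omega
  intro ℓ μ h2 h3
  exact key (∑ x, ℓ x) ℓ μ (fun x => Finset.single_le_sum (fun _ _ => Nat.zero_le _)
    (Finset.mem_univ x)) h2 h3

/-- The twisted permutations. -/
def tw {Ω : Type} (p : Pos → Equiv.Perm Ω) (k : Pos) : Equiv.Perm (Ω × Pos × Pos) :=
  Equiv.prodCongr (p k) (Equiv.addRight (k, k ^ 2))

@[simp] theorem tw_apply {Ω : Type} (p : Pos → Equiv.Perm Ω) (k : Pos) (z : Ω × Pos × Pos) :
    tw p k z = (p k z.1, z.2 + (k, k ^ 2)) := rfl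

theorem tw_P1 {Ω : Type} (p : Pos → Equiv.Perm Ω) (k l : Pos) (x : Ω × Pos × Pos)
    (h : tw p k x = tw p l x) : k = l := by
  simp only [tw_apply, Prod.mk.injEq, add_right_inj] at h
  exact h.2.1

theorem tw_P2 {Ω : Type} (p : Pos → Equiv.Perm Ω) (k l : Pos) (x y : Ω × Pos × Pos)
    (h : tw p k x = tw p l y) (h' : tw p (k + 1) x = tw p (l + 1) y) : k = l ∧ x = y := by
  have h1 := congrArg (fun z => z.2.2) h
  have h2 := congrArg (fun z => z.2.2) h'
  simp only [tw_apply, Prod.snd_add] at h1 h2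
  have h3 : (166 : Pos) = 1 := by decide
  have : k = l := by linear_combination 83 * h2 - 83 * h1 - (k - l) * h3
  subst this
  exact ⟨rfl, (tw p k).injective h⟩

theorem mexp_tw {Ω : Type} [Fintype Ω] {p : Pos → Equiv.Perm Ω} {F₀ : ℕ}
    (h : MExp (fun k x => p k x) F₀) : MExp (fun k x => tw p k x) F₀ := by
  classical
  intro ℓ μ h1 h2
  have := h (fun x => ∑ a, ℓ (x, a)) (fun x => ∑ a, μ (x, a)) (by
    intro k x
    rw [← Equiv.sum_comp (Equiv.addRight (k, k ^ 2)) (fun a => μ (p k x, a))]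
    exact Finset.sum_le_sum (fun a _ => h1 k (x, a))) (by
    refine le_trans ?_ h2
    refine le_trans (Finset.card_le_card (t := (Finset.univ.filter (fun x => ℓ x ≠ 0)).image
      Prod.fst) ?_) Finset.card_image_le
    intro x hx
    obtain ⟨a, -, ha⟩ := Finset.exists_ne_zero_of_sum_ne_zero (Finset.mem_filter.1 hx).2
    exact Finset.mem_image.2 ⟨(x, a), by simpa using ha, rfl⟩)
  rw [Fintype.sum_prod_type, Fintype.sum_prod_type]
  exact this

theorem lift_tw {Ω : Type} (p : Pos → Equiv.Perm Ω) (f : FreeGroup Pos) :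
    ∀ z, (FreeGroup.lift (tw p) f z).1 = FreeGroup.lift p f z.1 := by
  induction f with
  | C1 => simp
  | of k => simp
  | inv_of k _ =>
    intro z
    simp only [map_inv, FreeGroup.lift_apply_of]
    rfl
  | mul x y hx hy => intro z; simp [hx, hy]

/-- Skew products. -/
def skew {X M : Type} [Group M] (σ : Equiv.Perm X) (b : X → M) : Equiv.Perm (X × M) where
  toFun z := (σ z.1, z.2 * b z.1)
  invFun z := (σ⁻¹ z.1, z.2 * (b (σ⁻¹ z.1))⁻¹)
  left_inv z := by simp
  right_inv z := by simp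

@[simp] theorem skew_apply {X M : Type} [Group M] (σ : Equiv.Perm X) (b : X → M) (z : X × M) :
    skew σ b z = (σ z.1, z.2 * b z.1) := rfl

/-- The action of the big group with its cocycle. -/
theorem exists_action {Z C H N : Type} [Group H] [Group N] (π : Pos → Equiv.Perm Z)
    (κ : Slot → Z → C) (hi : ∀ k x, κ .ini (π k x) = κ (.cor (k - 1)) x)
    (ht : ∀ k x, κ .ter (π k x) = κ (.cor k) x) (τ : C → H) (c : Z → N)
    (hrel : ∀ x, Closes (fun k => c (π k x))) :
    ∃ (_ : MulAction Big (Z × H)) (β : Big → Z × H → Monoid.CoprodI (fun _ : H => N)),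
      (∀ k (z : Z) (h : H), P k • ((z, h) : Z × H) = (π k z, h)) ∧
      (∀ s (z : Z) (h : H), T s • ((z, h) : Z × H) = (z, τ (κ s z) * h)) ∧
      (∀ γ γ' x, β (γ * γ') x = β γ' x * β γ (γ' • x)) ∧ (∀ x, β (T .ini) x = 1) ∧
      (∀ z h, β (P 1 * (P 0)⁻¹) (z, h) = Monoid.CoprodI.of (i := h) (c z)) := by
  choose pre hpre using hrel
  let M := Monoid.CoprodI (fun _ : H => N)
  let o : Slot → Z → N := fun s z => match s with
    | .ini => 1
    | .ter => c z
    | .cor k => pre z (k + 1)
  let σP : Pos → Equiv.Perm (Z × H) := fun k => Equiv.prodCongr (π k) (Equiv.refl H)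
  let σT : Slot → Equiv.Perm (Z × H) := fun s =>
    Equiv.prodCongrRight (fun z => Equiv.mulLeft (τ (κ s z)))
  let g : Pos ⊕ Slot → Equiv.Perm ((Z × H) × M) := fun a => match a with
    | .inl k => skew (σP k) (fun x => Monoid.CoprodI.of (i := x.2) (pre x.1 k))
    | .inr s => skew (σT s) (fun x => Monoid.CoprodI.of (i := x.2) (o s x.1) *
        (Monoid.CoprodI.of (i := τ (κ s x.1) * x.2) (o s x.1))⁻¹)
  have hg : ∀ r ∈ rels, FreeGroup.lift g r = 1 := by
    rintro r ⟨k, rfl | rfl⟩
    · simp only [map_mul, map_inv, FreeGroup.lift_apply_of]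
      rw [mul_inv_eq_one, mul_assoc, inv_mul_eq_iff_eq_mul]
      ext ⟨⟨z, h⟩, μ⟩ : 1
      simp [g, σP, σT, o, hi, mul_assoc]
      exact inv_mul_cancel _
    · simp only [map_mul, map_inv, FreeGroup.lift_apply_of]
      rw [mul_inv_eq_one, mul_assoc, inv_mul_eq_iff_eq_mul]
      ext ⟨⟨z, h⟩, μ⟩ : 1
      simp [g, σP, σT, o, ht, hpre, mul_assoc]
  let ρ : Big →* Equiv.Perm ((Z × H) × M) := PresentedGroup.toGroup hg
  have hρ : ∀ a, ρ (PresentedGroup.of a) = g a := fun a => PresentedGroup.toGroup.of hg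
  have hequi : ∀ γ : Big, ∀ x μ, ρ γ (x, μ) = ((ρ γ (x, 1)).1, μ * (ρ γ (x, 1)).2) := by
    let S : Subgroup Big :=
      { carrier := {γ | ∀ x μ ν, ρ γ (x, μ * ν) = ((ρ γ (x, ν)).1, μ * (ρ γ (x, ν)).2)}
        one_mem' := by intro x μ ν; simp
        mul_mem' := by
          intro a b ha hb x μ ν
          simp only [map_mul, Equiv.Perm.mul_apply]
          rw [hb, ha]
        inv_mem' := by
          intro a ha x μ ν
          apply (ρ a).injective
          rw [ha]
          simp }
    intro γ x μ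
    have : γ ∈ S := PresentedGroup.generated_by _ S (by
      rintro (k | s) x μ ν <;> simp [hρ, g, mul_assoc]) γ
    simpa using this x μ 1
  let act : MulAction Big (Z × H) :=
    { smul := fun γ x => (ρ γ (x, 1)).1
      one_smul := fun x => by
        show (ρ 1 (x, 1)).1 = x
        simp
      mul_smul := fun a b x => by
        show (ρ (a * b) (x, 1)).1 = (ρ a ((ρ b (x, 1)).1, 1)).1
        rw [map_mul, Equiv.Perm.mul_apply, ← Prod.mk.eta (p := ρ b (x, 1)), hequi] }
  have hcoc : ∀ γ γ' x, (ρ (γ * γ') (x, 1)).2 = (ρ γ' (x, 1)).2 * (ρ γ ((ρ γ' (x, 1)).1, 1)).2 := by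
    intro a b x
    rw [map_mul, Equiv.Perm.mul_apply, ← Prod.mk.eta (p := ρ b (x, 1)), hequi]
  refine ⟨act, fun γ x => (ρ γ (x, 1)).2, ?_, ?_, hcoc, ?_, ?_⟩
  · intro k z h
    show (ρ (PresentedGroup.of _) _).1 = _
    rw [hρ]; rfl
  · intro s z h
    show (ρ (PresentedGroup.of _) _).1 = _
    rw [hρ]; rfl
  · intro x
    show (ρ (PresentedGroup.of _) _).2 = _
    rw [hρ]; simp [g, o]
  · intro z h
    obtain ⟨x, rfl⟩ := (π 0).surjective z
    have e1 : (ρ (P 0))⁻¹ ((π 0 x, h), 1) =
        ((x, h), (Monoid.CoprodI.of (i := h) (pre x 0))⁻¹) := by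
      apply (ρ (P 0)).injective
      rw [← Equiv.Perm.mul_apply, mul_inv_cancel, P, hρ]
      simp [g, σP]
      exact (inv_mul_cancel _).symm
    simp only [map_mul, map_inv, Equiv.Perm.mul_apply, e1]
    rw [P, hρ]
    have := hpre x 0
    rw [zero_add] at this
    simp [g, this]
    exact inv_mul_cancel_left _ _

/-- The count given by Grushko's theorem. -/
theorem count {Z H N : Type} [Fintype Z] [Nonempty Z] [Fintype H] [Group H] [Group N]
    [MulAction Big (Z × H)] (β : Big → Z × H → Monoid.CoprodI (fun _ : H => N)) (c : Z → N)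
    (hc : Subgroup.closure (Set.range c) = ⊤)
    (hcoc : ∀ γ γ' x, β (γ * γ') x = β γ' x * β γ (γ' • x)) (hT : ∀ x, β (T .ini) x = 1)
    (hq : ∀ z h, β (P 1 * (P 0)⁻¹) (z, h) = Monoid.CoprodI.of (i := h) (c z))
    (r : ℕ) (hr : ∀ S : Finset N, Subgroup.closure (S : Set N) = ⊤ → r ≤ S.card)
    (X₀ : Finset (Z × H)) (hX₀ : ∀ x, ∃ j : ℕ, T .ini ^ j • x ∈ X₀) (Δ : Finset (Big × (Z × H)))
    (h1 : ∀ x, Gen (Δ : Set (Big × (Z × H))) x (T .ini))
    (h2 : ∀ x, Gen (Δ : Set (Big × (Z × H))) x (P 1 * (P 0)⁻¹)) :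
    Fintype.card H * r + Fintype.card (Z × H) ≤ Δ.card + X₀.card + 1 := by
  classical
  obtain ⟨x₀⟩ : Nonempty (Z × H) := inferInstance
  let M := Monoid.CoprodI (fun _ : H => N)
  let A : Finset ((Z × H) × M × (Z × H)) :=
    Δ.image (fun a => (a.2, β a.1 a.2, a.1 • a.2)) ∪ X₀.image (fun x => (x₀, 1, x))
  have hone : ∀ x, β 1 x = 1 := by
    intro x
    have := hcoc 1 1 x
    simpa using this
  have hgen : ∀ x g, Gen (Δ : Set (Big × (Z × H))) x g →
      Reach (A : Set ((Z × H) × M × (Z × H))) (fun e => e.2.1) x (β g x) (g • x) := by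
    intro x g h
    induction h with
    | one => simpa [hone] using Reach.refl
    | @fwd g γ _ h ih =>
      have : (g • x, β γ (g • x), γ • g • x) ∈ (A : Set ((Z × H) × M × (Z × H))) :=
        Finset.mem_union_left _ (Finset.mem_image.2 ⟨_, h, rfl⟩)
      rw [hcoc, mul_smul]
      exact ih.fwd this
    | @bwd g γ _ h ih =>
      have : (γ⁻¹ • g • x, β γ (γ⁻¹ • g • x), g • x) ∈ (A : Set ((Z × H) × M × (Z × H))) :=
        Finset.mem_union_left _ (Finset.mem_image.2 ⟨_, h, by simp⟩)
      rw [hcoc, mul_smul]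
      refine (ih.bwd this).cast ?_
      have e := hcoc γ γ⁻¹ (g • x)
      rw [mul_inv_cancel, hone] at e
      rw [eq_inv_of_mul_eq_one_left e.symm]
  have hpow : ∀ (j : ℕ) x, Reach (A : Set ((Z × H) × M × (Z × H))) (fun e => e.2.1) x 1
      (T .ini ^ j • x) := by
    intro j x
    induction j with
    | zero => simpa using Reach.refl
    | succ j ih =>
      rw [pow_succ', mul_smul]
      simpa [hT] using ih.trans (hgen _ _ (h1 _))
  have hall : ∀ x, Reach (A : Set ((Z × H) × M × (Z × H))) (fun e => e.2.1) x₀ 1 x := by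
    intro x
    obtain ⟨j, hj⟩ := hX₀ x
    have : (x₀, 1, T .ini ^ j • x) ∈ (A : Set ((Z × H) × M × (Z × H))) :=
      Finset.mem_union_right _ (Finset.mem_image.2 ⟨_, hj, rfl⟩)
    simpa using (Reach.edge' (φ := fun e => e.2.1) this).trans (hpow j x).symm
  have hhol : ∀ g : M, g ∈ Hol (A : Set ((Z × H) × M × (Z × H))) (fun e => e.2.1) x₀ := by
    intro g
    induction g using Monoid.CoprodI.induction_on with
    | one => exact Subgroup.one_mem _
    | mul x y hx hy => exact Subgroup.mul_mem _ hx hy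
    | of h n =>
      have : ⊤ ≤ (Hol (A : Set ((Z × H) × M × (Z × H))) (fun e => e.2.1) x₀).comap
          (Monoid.CoprodI.of (M := fun _ : H => N) (i := h)) := by
        rw [← hc, Subgroup.closure_le]
        rintro _ ⟨z, rfl⟩
        have := ((hall (z, h)).trans (hgen _ _ (h2 (z, h)))).trans (hall _).symm
        simpa [hq, mem_Hol] using this
      exact this (Subgroup.mem_top n)
  have := grushko r hr A Finset.univ (by simp) x₀ (by simp) (fun v _ g => by
    simpa using (mem_Hol.1 (hhol g)).trans (hall v))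
  have c1 : A.card ≤ Δ.card + X₀.card := (Finset.card_union_le _ _).trans
    (Nat.add_le_add Finset.card_image_le Finset.card_image_le)
  rw [Finset.card_univ] at this
  omega

end Md

end Crest.Agent.R191
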