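import Crest.Agent.R191.Rank3

/-!
Rank lower bound, part 4: counting and the main theorem.
-/

set_option autoImplicit false

namespace Crest.Agent.R191

namespace Rk

variable {Ω N : Type} [Group N] {L : ℕ} {π : ZMod L → Ω → Ω} {c : Ω → N} {d : ℕ}

/-- In-degree. -/
def din (A : Finset (ℕ × Ω × ℕ)) (v : ℕ) : ℕ := (A.filter (fun a => a.2.2 = v)).card

/-- Out-degree. -/
def dout (A : Finset (ℕ × Ω × ℕ)) (v : ℕ) : ℕ := (A.filter (fun a => a.1 = v)).card

/-- Special vertices. -/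
def Sp (K : Cpx Ω L) (v : ℕ) : Prop := v = K.v₀ ∨ 3 ≤ din K.A v + dout K.A v

theorem in_unique {K : Cpx Ω L} {v : ℕ} (hv : ¬ Sp K v) {a a' b : ℕ × Ω × ℕ} (ha : a ∈ K.A)
    (ha' : a' ∈ K.A) (hb : b ∈ K.A) (h1 : a.2.2 = v) (h2 : a'.2.2 = v) (h3 : b.1 = v) : a = a' := by
  by_contra hne
  apply hv
  right
  have g1 : 1 < din K.A v := Finset.one_lt_card.2
    ⟨a, Finset.mem_filter.2 ⟨ha, h1⟩, a', Finset.mem_filter.2 ⟨ha', h2⟩, hne⟩
  have g2 : 0 < dout K.A v := Finset.card_pos.2 ⟨b, Finset.mem_filter.2 ⟨hb, h3⟩⟩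
  omega

theorem out_unique {K : Cpx Ω L} {v : ℕ} (hv : ¬ Sp K v) {a b b' : ℕ × Ω × ℕ} (ha : a ∈ K.A)
    (hb : b ∈ K.A) (hb' : b' ∈ K.A) (h1 : a.2.2 = v) (h2 : b.1 = v) (h3 : b'.1 = v) : b = b' := by
  by_contra hne
  apply hv
  right
  have g1 : 1 < dout K.A v := Finset.one_lt_card.2
    ⟨b, Finset.mem_filter.2 ⟨hb, h2⟩, b', Finset.mem_filter.2 ⟨hb', h3⟩, hne⟩
  have g2 : 0 < din K.A v := Finset.card_pos.2 ⟨a, Finset.mem_filter.2 ⟨ha, h1⟩⟩
  omega

/-- A vertex of degree at most one can be removed. -/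
theorem Good.low_degree {K : Cpx Ω L} (h : Good π c d K) {v : ℕ} (hv : v ∈ K.Vs) (h0 : v ≠ K.v₀)
    (hd : din K.A v + dout K.A v ≤ 1) :
    ∃ K' : Cpx Ω L, Good π c d K' ∧ K'.Φ = K.Φ ∧ K'.A.card + 1 = K.A.card := by
  classical
  obtain ⟨g, hg⟩ := h.conn v hv
  have hex : ∃ a ∈ K.A, a.1 = v ∨ a.2.2 = v := by
    cases hg with
    | refl => exact absurd rfl h0
    | fwd _ he => exact ⟨_, he, Or.inr rfl⟩
    | bwd _ he => exact ⟨_, he, Or.inl rfl⟩
  obtain ⟨a, ha, hav⟩ := hex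
  have hi : ∀ e ∈ K.A, e.2.2 = v → 0 < din K.A v :=
    fun e he h' => Finset.card_pos.2 ⟨e, Finset.mem_filter.2 ⟨he, h'⟩⟩
  have ho : ∀ e ∈ K.A, e.1 = v → 0 < dout K.A v :=
    fun e he h' => Finset.card_pos.2 ⟨e, Finset.mem_filter.2 ⟨he, h'⟩⟩
  refine ⟨_, h.leaf (a := a) h0 ?_ hav ?_, rfl, Finset.card_erase_add_one ha⟩
  · intro e he hev
    by_contra hne
    rcases hev with h1 | h1 <;> rcases hav with h2 | h2
    · have : 1 < dout K.A v := Finset.one_lt_card.2
        ⟨e, Finset.mem_filter.2 ⟨he, h1⟩, a, Finset.mem_filter.2 ⟨ha, h2⟩, hne⟩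
      omega
    · have := ho e he h1; have := hi a ha h2; omega
    · have := hi e he h1; have := ho a ha h2; omega
    · have : 1 < din K.A v := Finset.one_lt_card.2
        ⟨e, Finset.mem_filter.2 ⟨he, h1⟩, a, Finset.mem_filter.2 ⟨ha, h2⟩, hne⟩
      omega
  · intro hl
    have h1 : a.1 = v := by rcases hav with h2 | h2 <;> simp [hl, ← h2]
    have := ho a ha h1; have := hi a ha (hl ▸ h1); omega

/-- Collapsing a face with three consecutive non-special vertices. -/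
theorem Good.collapse [NeZero L] (hL : 7 ≤ L) {K : Cpx Ω L} (h : Good π c d K)
    (P1 : ∀ k l x, π k x = π l x → k = l)
    (P2 : ∀ k l x y, π k x = π l y → π (k + 1) x = π (l + 1) y → k = l ∧ x = y)
    (hrel : ∀ x, Closes (fun k => c (π k x))) {f : Ω × (ZMod L → ℕ)} (hf : f ∈ K.Φ) {k : ZMod L}
    (n1 : ¬ Sp K (f.2 (k + 1))) (n2 : ¬ Sp K (f.2 (k + 1 + 1))) (n3 : ¬ Sp K (f.2 (k + 1 + 1 + 1))) :
    ∃ K' : Cpx Ω L, Good π c d K' ∧ K'.Φ.card + 1 = K.Φ.card ∧ K'.A.card + 4 = K.A.card := by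
  classical
  have hA := h.faces f hf
  have hne : ∀ i : ℕ, 0 < i → i < L → ∀ l, fe π f (l + (i : ℕ)) ≠ fe π f l := by
    intro i h1 h2 l h3
    have h4 := P1 _ _ _ (congrArg (fun e => e.2.1) h3)
    have : ((i : ℕ) : ZMod L) = 0 := by linear_combination h4
    rw [ZMod.natCast_eq_zero_iff] at this
    have := Nat.le_of_dvd h1 this
    omega
  have d1 : ∀ l, fe π f (l + 1) ≠ fe π f l := fun l => by
    simpa using hne 1 (by omega) (by omega) l
  have d2 : ∀ l, fe π f (l + 1 + 1) ≠ fe π f l := fun l => by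
    have := hne 2 (by omega) (by omega) l
    rwa [show l + ((2 : ℕ) : ZMod L) = l + 1 + 1 by push_cast; ring] at this
  have d3 : ∀ l, fe π f (l + 1 + 1 + 1) ≠ fe π f l := fun l => by
    have := hne 3 (by omega) (by omega) l
    rwa [show l + ((3 : ℕ) : ZMod L) = l + 1 + 1 + 1 by push_cast; ring] at this
  have inc : ∀ l, ¬ Sp K (f.2 (l + 1)) → ∀ e ∈ K.A, e.1 = f.2 (l + 1) ∨ e.2.2 = f.2 (l + 1) →
      e = fe π f l ∨ e = fe π f (l + 1) := by
    intro l hl e he h1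
    rcases h1 with h1 | h1
    · exact Or.inr (out_unique hl (hA l) he (hA (l + 1)) rfl h1 rfl)
    · exact Or.inl (in_unique hl he (hA l) (hA (l + 1)) h1 rfl rfl)
  have g1 := h.free hrel hf (j := k + 1) (by
    intro f' hf' k' h1
    have h2 : fe π f' (k' + 1) = fe π f (k + 1 + 1) :=
      out_unique n2 (hA (k + 1)) (h.faces f' hf' _) (hA _) rfl (congrArg (fun e => e.2.2) h1) rfl
    obtain ⟨rfl, h3⟩ := P2 _ _ _ _ (congrArg (fun e => e.2.1) h1) (congrArg (fun e => e.2.1) h2)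
    exact ⟨h.disj _ hf' _ hf h3 _ h1, rfl⟩)
  have g2 := g1.leaf (a := fe π f k) (v := f.2 (k + 1)) (fun h' => n1 (Or.inl h')) (by
    intro e he h1
    obtain ⟨h2, h3⟩ := Finset.mem_erase.1 he
    exact (inc k n1 e h3 h1).resolve_right h2) (Or.inr rfl) (by
    intro h1
    exact d1 k (out_unique n1 (hA k) (hA _) (hA k) rfl rfl h1))
  have g3 := g2.leaf (a := fe π f (k + 1 + 1)) (v := f.2 (k + 1 + 1)) (fun h' => n2 (Or.inl h')) (by
    intro e he h1
    obtain ⟨h2, h3⟩ := Finset.mem_erase.1 (Finset.mem_of_mem_erase he)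
    exact (inc _ n2 e h3 h1).resolve_left h2) (Or.inl rfl) (by
    intro h1
    exact d1 _ (in_unique n2 (hA _) (hA (k + 1)) (hA (k + 1 + 1)) h1.symm rfl rfl))
  have g4 := g3.leaf (a := fe π f (k + 1 + 1 + 1)) (v := f.2 (k + 1 + 1 + 1))
    (fun h' => n3 (Or.inl h')) (by
    intro e he h1
    obtain ⟨h2, h3⟩ := Finset.mem_erase.1 he
    exact (inc _ n3 e (Finset.mem_of_mem_erase (Finset.mem_of_mem_erase h3)) h1).resolve_left h2)
    (Or.inl rfl) (by
    intro h1
    exact d1 _ (in_unique n3 (hA _) (hA (k + 1 + 1)) (hA (k + 1 + 1 + 1)) h1.symm rfl rfl))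
  refine ⟨_, g4, Finset.card_erase_add_one hf, ?_⟩
  have c1 := Finset.card_erase_add_one (hA (k + 1))
  have c2 := Finset.card_erase_add_one (Finset.mem_erase.2 ⟨(d1 k).symm, hA k⟩)
  have c3 := Finset.card_erase_add_one (Finset.mem_erase.2 ⟨d2 k,
    Finset.mem_erase.2 ⟨d1 (k + 1), hA (k + 1 + 1)⟩⟩)
  have c4 := Finset.card_erase_add_one (Finset.mem_erase.2 ⟨d1 (k + 1 + 1), Finset.mem_erase.2 ⟨d3 k,
    Finset.mem_erase.2 ⟨d2 (k + 1), hA (k + 1 + 1 + 1)⟩⟩⟩)
  dsimp only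
  omega

/-- The final count. -/
theorem Good.count [NeZero L] [Fintype Ω] {K : Cpx Ω L} (h : Good π c d K) {F₀ : ℕ}
    (hexp : MExp π F₀) (hF : K.Φ.card ≤ F₀)
    (hdeg : ∀ v ∈ K.Vs, v ≠ K.v₀ → 2 ≤ din K.A v + dout K.A v)
    (hsp : ∀ f ∈ K.Φ, ∀ k, Sp K (f.2 (k + 1)) ∨ Sp K (f.2 (k + 1 + 1)) ∨ Sp K (f.2 (k + 1 + 1 + 1))) :
    40 * K.Φ.card ≤ 18 * (d + K.Φ.card) := by
  classical
  let C := K.A.filter (fun a => ∃ f ∈ K.Φ, ∃ k, fe π f k = a)
  -- expansion
  have h1 : 40 * K.Φ.card ≤ C.card := by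
    let ℓ : Ω → ℕ := fun x => (K.Φ.filter (fun f => f.1 = x)).card
    let μ : Ω → ℕ := fun e => (C.filter (fun a => a.2.1 = e)).card
    have s1 : K.Φ.card = ∑ x, ℓ x := Finset.card_eq_sum_card_fiberwise (by simp)
    have s2 : C.card = ∑ x, μ x := Finset.card_eq_sum_card_fiberwise (by simp)
    rw [s1, s2]
    refine hexp ℓ μ (fun k x => ?_) ?_
    · refine Finset.card_le_card_of_injOn (fun f => fe π f k) ?_ ?_
      · intro f hf
        simp only [Finset.coe_filter, Set.mem_ofPred_eq] at hf ⊢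
        exact ⟨Finset.mem_filter.2 ⟨h.faces f hf.1 k, f, hf.1, k, rfl⟩, by simp [fe, hf.2]⟩
      · intro f hf f' hf' hff
        simp only [Finset.coe_filter, Set.mem_ofPred_eq] at hf hf'
        exact h.disj f hf.1 f' hf'.1 (hf.2.trans hf'.2.symm) k hff
    · refine le_trans ?_ hF
      refine le_trans (Finset.card_le_card (t := K.Φ.image Prod.fst) ?_) Finset.card_image_le
      intro x hx
      obtain ⟨f, hf⟩ := Finset.card_ne_zero.1 (Finset.mem_filter.1 hx).2
      obtain ⟨g1, g2⟩ := Finset.mem_filter.1 hf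
      exact Finset.mem_image.2 ⟨f, g1, g2⟩
  let prev : Finset (ℕ × Ω × ℕ) → Finset (ℕ × Ω × ℕ) := fun T =>
    K.A.filter (fun a => ¬ Sp K a.2.2 ∧ ∃ b ∈ T, b.1 = a.2.2)
  have hprev : ∀ T ⊆ K.A, (prev T).card ≤ T.card := by
    intro T hT
    have : ∀ a, ∃ b, a ∈ prev T → b ∈ T ∧ b.1 = a.2.2 := by
      intro a
      by_cases ha : a ∈ prev T
      · obtain ⟨b, hb⟩ := (Finset.mem_filter.1 ha).2.2
        exact ⟨b, fun _ => hb⟩
      · exact ⟨a, fun h' => absurd h' ha⟩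
    choose nx hnx using this
    refine Finset.card_le_card_of_injOn nx (fun a ha => (hnx a ha).1) ?_
    intro a ha a' ha' haa
    have g1 := Finset.mem_filter.1 ha
    have g2 := Finset.mem_filter.1 ha'
    refine in_unique g1.2.1 g1.1 g2.1 (hT (hnx a ha).1) rfl ?_ (hnx a ha).2
    rw [← (hnx a' ha').2, ← haa, (hnx a ha).2]
  let T₀ := K.A.filter (fun a => Sp K a.2.2)
  have h2 : C.card ≤ 3 * T₀.card := by
    have hsub : C ⊆ T₀ ∪ prev T₀ ∪ prev (prev T₀) := by
      intro a ha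
      obtain ⟨-, f, hf, k, rfl⟩ := Finset.mem_filter.1 ha
      have hA := h.faces f hf
      by_cases s1 : Sp K (f.2 (k + 1))
      · exact Finset.mem_union_left _ (Finset.mem_union_left _ (Finset.mem_filter.2 ⟨hA k, s1⟩))
      by_cases s2 : Sp K (f.2 (k + 1 + 1))
      · exact Finset.mem_union_left _ (Finset.mem_union_right _ (Finset.mem_filter.2
          ⟨hA k, s1, fe π f (k + 1), Finset.mem_filter.2 ⟨hA _, s2⟩, rfl⟩))
      have s3 := ((hsp f hf k).resolve_left s1).resolve_left s2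
      exact Finset.mem_union_right _ (Finset.mem_filter.2 ⟨hA k, s1, fe π f (k + 1),
        Finset.mem_filter.2 ⟨hA _, s2, fe π f (k + 1 + 1), Finset.mem_filter.2 ⟨hA _, s3⟩, rfl⟩, rfl⟩)
    have c1 := hprev T₀ (Finset.filter_subset _ _)
    have c2 := hprev (prev T₀) (Finset.filter_subset _ _)
    have c3 := (Finset.card_le_card hsub).trans ((Finset.card_union_le _ _).trans
      (Nat.add_le_add_right (Finset.card_union_le _ _) _))
    omega
  let S := K.Vs.filter (Sp K)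
  let S' := K.Vs.filter (fun v => ¬ Sp K v)
  have h3 : T₀.card ≤ ∑ v ∈ S, (din K.A v + dout K.A v) := by
    have : T₀.card = ∑ v ∈ S, (T₀.filter (fun a => a.2.2 = v)).card :=
      Finset.card_eq_sum_card_fiberwise (fun a ha => by
        have := Finset.mem_filter.1 ha
        exact Finset.mem_filter.2 ⟨(h.ends a this.1).2, this.2⟩)
    rw [this]
    refine Finset.sum_le_sum (fun v _ => le_trans ?_ (Nat.le_add_right _ _))
    exact Finset.card_le_card (Finset.filter_subset_filter _ (Finset.filter_subset _ _))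
  have h4 : ∑ v ∈ K.Vs, (din K.A v + dout K.A v) = 2 * K.A.card := by
    have e1 : K.A.card = ∑ v ∈ K.Vs, din K.A v :=
      Finset.card_eq_sum_card_fiberwise (fun a ha => (h.ends a ha).2)
    have e2 : K.A.card = ∑ v ∈ K.Vs, dout K.A v :=
      Finset.card_eq_sum_card_fiberwise (fun a ha => (h.ends a ha).1)
    rw [Finset.sum_add_distrib]
    omega
  have h5 := Finset.sum_filter_add_sum_filter_not K.Vs (Sp K) (fun v => din K.A v + dout K.A v)
  have h6 : S'.card * 2 ≤ ∑ v ∈ S', (din K.A v + dout K.A v) := by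
    rw [← smul_eq_mul]
    refine Finset.card_nsmul_le_sum _ _ _ (fun v hv => ?_)
    have := Finset.mem_filter.1 hv
    exact hdeg v this.1 (fun h' => this.2 (Or.inl h'))
  have hv0 : K.v₀ ∈ S := Finset.mem_filter.2 ⟨h.base, Or.inl rfl⟩
  have h7 : (S.erase K.v₀).card * 3 ≤ ∑ v ∈ S, (din K.A v + dout K.A v) := by
    rw [← smul_eq_mul]
    refine le_trans (Finset.card_nsmul_le_sum _ _ _ (fun v hv => ?_))
      (Finset.sum_le_sum_of_subset (Finset.erase_subset _ _))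
    obtain ⟨g1, g2⟩ := Finset.mem_erase.1 hv
    exact (Finset.mem_filter.1 g2).2.resolve_left g1
  have h8 := Finset.card_erase_add_one hv0
  have h9 := Finset.card_filter_add_card_filter_not (s := K.Vs) (Sp K)
  have h10 := h.euler
  change ∑ v ∈ S, _ + ∑ v ∈ S', _ = _ at h5
  change S.card + S'.card = _ at h9
  omega

end Rk

open Rk in
theorem rank_lower {Ω N : Type} [Fintype Ω] [Group N] {L : ℕ} [NeZero L] (hL : 7 ≤ L)
    (π : ZMod L → Ω → Ω) (P1 : ∀ k l x, π k x = π l x → k = l)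
    (P2 : ∀ k l x y, π k x = π l y → π (k + 1) x = π (l + 1) y → k = l ∧ x = y)
    (c : Ω → N) (hgen : Subgroup.closure (Set.range c) = ⊤)
    (hrel : ∀ x, Closes (fun k => c (π k x))) (hG : Greendlinger π c) (F₀ : ℕ) (h1 : 1 ≤ F₀)
    (h2 : 2 * F₀ ≤ Fintype.card Ω) (hexp : MExp π F₀) (S : Finset N)
    (hS : Subgroup.closure (S : Set N) = ⊤) : F₀ + 1 ≤ S.card := by
  classical
  by_contra hc
  have hd : S.card ≤ F₀ := by omega
  have : Nonempty Ω := Fintype.card_pos_iff.1 (by omega)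
  have hex : ∃ n, ∃ K : Cpx Ω L, Good π c S.card K ∧ K.Φ.card ≤ F₀ ∧
      2 * K.A.card + 7 * (F₀ - K.Φ.card) = n := by
    obtain ⟨K, g1, g2⟩ := exists_initial (π := π) hgen S hS
    exact ⟨_, K, g1, by simp [g2], rfl⟩
  obtain ⟨K, hK, hF, hn⟩ := Nat.find_spec hex
  have hmin : ∀ K' : Cpx Ω L, Good π c S.card K' → K'.Φ.card ≤ F₀ →
      2 * K.A.card + 7 * (F₀ - K.Φ.card) ≤ 2 * K'.A.card + 7 * (F₀ - K'.Φ.card) := by
    intro K' g1 g2
    rw [hn]
    exact Nat.find_min' hex ⟨K', g1, g2, rfl⟩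
  have hfold : Folded K.A := by
    by_contra hf
    obtain ⟨K', g1, g2, g3, g4⟩ := hK.fold hexp hF hf
    have := hmin K' g1 (g2.trans hF)
    omega
  by_cases hlt : K.Φ.card < F₀
  · have hloop : ∀ e, (K.v₀, e, K.v₀) ∈ K.A := by
      intro e
      rcases hK.loop_or_add hL hfold hrel hG e with g | ⟨K', g1, g2, g3⟩
      · exact g
      · have := hmin K' g1 (by omega)
        omega
    have hV : K.Vs ⊆ {K.v₀} := by
      intro v hv
      obtain ⟨g, hg⟩ := hK.conn v hv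
      rw [Finset.mem_singleton]
      clear hv
      induction hg with
      | refl => rfl
      | fwd _ he ih => subst ih; exact hfold.1 _ _ _ _ he (hloop _)
      | bwd _ he ih => subst ih; exact hfold.2 _ _ _ _ he (hloop _)
    have c1 := Finset.card_le_card hV
    have c2 : (Finset.univ : Finset Ω).card ≤ K.A.card :=
      Finset.card_le_card_of_injOn (fun e => (K.v₀, e, K.v₀)) (fun e _ => hloop e)
        (fun e _ e' _ h => by simpa using h)
    have c3 := hK.euler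
    rw [Finset.card_univ] at c2
    rw [Finset.card_singleton] at c1
    omega
  · have := hK.count hexp hF (by
      intro v hv h0
      by_contra hd
      obtain ⟨K', g1, g2, g3⟩ := hK.low_degree hv h0 (by omega)
      have := hmin K' g1 (g2 ▸ hF)
      rw [g2] at this
      omega) (by
      intro f hf k
      by_contra hs
      simp only [not_or] at hs
      obtain ⟨K', g1, g2, g3⟩ := hK.collapse hL P1 P2 hrel hf hs.1 hs.2.1 hs.2.2
      have := hmin K' g1 (by omega)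
      omega)
    omega

end Crest.Agent.R191
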