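import Crest.Agent.R191.Reach
import Crest.Agent.R191.Cayley

/-!
Rank lower bound, part 1: complexes and elementary moves.
-/

set_option autoImplicit false

namespace Crest.Agent.R191

theorem exists_pre {L : ℕ} [NeZero L] {Q : Type} [Group Q] (f : ZMod L → Q) (j : ZMod L) :
    ∃ pre : ZMod L → Q, ∀ k, k ≠ j → pre (k + 1) = pre k * f k := by
  let R : ℕ → Q := fun i => Nat.rec 1 (fun i r => r * f (j + 1 + (i : ℕ))) i
  refine ⟨fun k => R (k - (j + 1)).val, fun k hk => ?_⟩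
  have hl := ZMod.val_lt (k - (j + 1))
  have h1 : k + 1 - (j + 1) = (((k - (j + 1)).val + 1 : ℕ) : ZMod L) := by simp; ring
  have h2 : (k - (j + 1)).val + 1 < L := by
    by_contra hc
    have : (k - (j + 1)).val + 1 = L := by omega
    rw [this] at h1
    apply hk
    simp only [CharP.cast_eq_zero] at h1
    linear_combination h1
  simp only
  rw [h1, ZMod.val_natCast, Nat.mod_eq_of_lt h2]
  show R _ * f (j + 1 + ((k - (j + 1)).val : ℕ)) = _
  simp

theorem closes_update {L : ℕ} [NeZero L] {Q : Type} [Group Q] (f : ZMod L → Q) (j : ZMod L) :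
    ∃ g : Q, ∀ f' : ZMod L → Q, f' j = g → (∀ k, k ≠ j → f' k = f k) → Closes f' := by
  obtain ⟨pre, h⟩ := exists_pre f j
  refine ⟨(pre j)⁻¹ * pre (j + 1), fun f' h1 h2 => ⟨pre, fun k => ?_⟩⟩
  by_cases hk : k = j
  · subst hk; simp [h1]
  · rw [h2 k hk, h k hk]

theorem closes_of_prod {L : ℕ} [NeZero L] {Q : Type} [CommGroup Q] (f : ZMod L → Q)
    (hf : ∏ k, f k = 1) : Closes f := by
  classical
  obtain ⟨pre, h⟩ := exists_pre f 0
  refine ⟨pre, fun k => ?_⟩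
  by_cases hk : k = 0
  · subst hk
    have h1 : ∏ k, pre (k + 1) = ∏ k, pre k :=
      Fintype.prod_equiv (Equiv.addRight 1) _ _ (fun _ => rfl)
    have h2 : ∏ k, pre k * f k = ∏ k, pre k := by rw [Finset.prod_mul_distrib, hf, mul_one]
    rw [← h2, ← Finset.mul_prod_erase _ _ (Finset.mem_univ 0),
      ← Finset.mul_prod_erase _ _ (Finset.mem_univ 0)] at h1
    rw [Finset.prod_congr rfl (fun k hk => h k (Finset.ne_of_mem_erase hk))] at h1
    exact mul_right_cancel h1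
  · exact h k hk

namespace Rk

/-- A finite complex with vertices in `ℕ`. -/
structure Cpx (Ω : Type) (L : ℕ) : Type where
  Vs : Finset ℕ
  A : Finset (ℕ × Ω × ℕ)
  Φ : Finset (Ω × (ZMod L → ℕ))
  v₀ : ℕ

variable {Ω N : Type} [Group N] {L : ℕ}

/-- The `k`-th edge of a placed face. -/
def fe (π : ZMod L → Ω → Ω) (f : Ω × (ZMod L → ℕ)) (k : ZMod L) : ℕ × Ω × ℕ :=
  (f.2 k, π k f.1, f.2 (k + 1))

/-- The labelling by generators. -/
abbrev lab (c : Ω → N) : ℕ × Ω × ℕ → N := fun e => c e.2.1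

/-- The class of complexes. -/
structure Good (π : ZMod L → Ω → Ω) (c : Ω → N) (d : ℕ) (K : Cpx Ω L) : Prop where
  base : K.v₀ ∈ K.Vs
  ends : ∀ e ∈ K.A, e.1 ∈ K.Vs ∧ e.2.2 ∈ K.Vs
  conn : ∀ v ∈ K.Vs, ∃ g : N, Reach (K.A : Set (ℕ × Ω × ℕ)) (lab c) K.v₀ g v
  hol : ∀ g : N, Reach (K.A : Set (ℕ × Ω × ℕ)) (lab c) K.v₀ g K.v₀
  faces : ∀ f ∈ K.Φ, ∀ k, fe π f k ∈ K.A
  disj : ∀ f ∈ K.Φ, ∀ f' ∈ K.Φ, f.1 = f'.1 → ∀ k, fe π f k = fe π f' k → f = f'
  rank : ∀ (Q : Type) [Group Q] (φ : ℕ × Ω × ℕ → Q), (∀ f ∈ K.Φ, Closes (fun k => φ (fe π f k))) →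
    ∃ S : Finset Q, S.card ≤ d ∧ Hol (K.A : Set (ℕ × Ω × ℕ)) φ K.v₀ ≤ Subgroup.closure (S : Set Q)

variable {π : ZMod L → Ω → Ω} {c : Ω → N} {d : ℕ}

theorem face_path {Q : Type} [Group Q] {A : Set (ℕ × Ω × ℕ)} {φ : ℕ × Ω × ℕ → Q}
    {f : Ω × (ZMod L → ℕ)} {pre : ZMod L → Q} (hpre : ∀ k, pre (k + 1) = pre k * φ (fe π f k))
    (k : ZMod L) (n : ℕ) (h : ∀ i < n, fe π f (k + (i : ℕ)) ∈ A) :
    Reach A φ (f.2 k) ((pre k)⁻¹ * pre (k + (n : ℕ))) (f.2 (k + (n : ℕ))) := by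
  induction n with
  | zero => simpa using Reach.refl
  | succ n ih =>
    have h1 := (ih (fun i hi => h i (by omega))).trans (Reach.edge (h n (by omega)))
    rw [Nat.cast_succ, ← add_assoc, hpre]
    exact h1.cast (by simp [mul_assoc])

theorem face_reach [NeZero L] {Q : Type} [Group Q] {A : Set (ℕ × Ω × ℕ)} {φ : ℕ × Ω × ℕ → Q}
    {f : Ω × (ZMod L → ℕ)} (hc : Closes (fun k => φ (fe π f k))) (j : ZMod L)
    (h : ∀ k, k ≠ j → fe π f k ∈ A) : Reach A φ (f.2 j) (φ (fe π f j)) (f.2 (j + 1)) := by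
  obtain ⟨pre, hpre⟩ := hc
  have hL : 0 < L := Nat.pos_of_ne_zero (NeZero.ne L)
  have e1 : j + 1 + ((L - 1 : ℕ) : ZMod L) = j := by
    rw [Nat.cast_sub (by omega)]; simp
  have h1 := face_path (π := π) (A := A) hpre (j + 1) (L - 1) (fun i hi => h _ (by
    intro hh
    have : ((i + 1 : ℕ) : ZMod L) = 0 := by push_cast; linear_combination hh
    rw [ZMod.natCast_eq_zero_iff] at this
    have := Nat.le_of_dvd (by omega) this
    omega))
  rw [e1] at h1
  exact h1.symm.cast (by simp [hpre j])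

theorem leaf_reach {V Λ Q : Type} [Group Q] {A A' : Set (V × Λ × V)} {φ : V × Λ × V → Q}
    {a : V × Λ × V} {v : V} (hA : ∀ e ∈ A', e = a ∨ (e ∈ A ∧ e.1 ≠ v ∧ e.2.2 ≠ v))
    (ha : a.1 = v ∨ a.2.2 = v) (hl : a.1 ≠ a.2.2) {y z : V} {g : Q}
    (h : Reach A' φ y g z) (hy : y ≠ v) (hz : z ≠ v) : Reach A φ y g z := by
  classical
  rcases ha with ha | ha
  · have := Reach.transfer (A' := A) (φ' := φ) (fun w => if w = v then a.2.2 else w)
      (fun w => if w = v then (φ a)⁻¹ else 1) (MonoidHom.id Q) (by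
        intro e he
        rcases hA e he with rfl | ⟨h1, h2, h3⟩
        · have : e.2.2 ≠ v := ha ▸ hl.symm
          simpa [ha, this] using Reach.refl
        · simpa [h2, h3] using Reach.edge h1) h
    simpa [hy, hz] using this
  · have := Reach.transfer (A' := A) (φ' := φ) (fun w => if w = v then a.1 else w)
      (fun w => if w = v then φ a else 1) (MonoidHom.id Q) (by
        intro e he
        rcases hA e he with rfl | ⟨h1, h2, h3⟩
        · have : e.1 ≠ v := ha ▸ hl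
          simpa [ha, this] using Reach.refl
        · simpa [h2, h3] using Reach.edge h1) h
    simpa [hy, hz] using this

open Classical in
/-- Removing a leaf. -/
theorem Good.leaf {K : Cpx Ω L} (h : Good π c d K) {a : ℕ × Ω × ℕ} {v : ℕ} (hv : v ≠ K.v₀)
    (honly : ∀ e ∈ K.A, e.1 = v ∨ e.2.2 = v → e = a) (ha : a.1 = v ∨ a.2.2 = v)
    (hl : a.1 ≠ a.2.2) : Good π c d ⟨K.Vs.erase v, K.A.erase a, K.Φ, K.v₀⟩ := by
  have hA : ∀ e ∈ (K.A : Set (ℕ × Ω × ℕ)), e = a ∨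
      (e ∈ ((K.A.erase a : Finset _) : Set (ℕ × Ω × ℕ)) ∧ e.1 ≠ v ∧ e.2.2 ≠ v) := by
    intro e he
    by_cases hea : e = a
    · exact Or.inl hea
    · exact Or.inr ⟨Finset.mem_erase.2 ⟨hea, he⟩, fun h' => hea (honly e he (Or.inl h')),
        fun h' => hea (honly e he (Or.inr h'))⟩
  refine ⟨Finset.mem_erase.2 ⟨hv.symm, h.base⟩, ?_, ?_, ?_, ?_, h.disj, ?_⟩
  · intro e he
    obtain ⟨h1, h2⟩ := Finset.mem_erase.1 he
    rcases hA e h2 with h3 | ⟨-, h3, h4⟩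
    · exact absurd h3 h1
    · exact ⟨Finset.mem_erase.2 ⟨h3, (h.ends e h2).1⟩, Finset.mem_erase.2 ⟨h4, (h.ends e h2).2⟩⟩
  · intro z hz
    obtain ⟨h1, h2⟩ := Finset.mem_erase.1 hz
    obtain ⟨g, hg⟩ := h.conn z h2
    exact ⟨g, leaf_reach hA ha hl hg hv.symm h1⟩
  · intro g
    exact leaf_reach hA ha hl (h.hol g) hv.symm hv.symm
  · intro f hf k
    refine Finset.mem_erase.2 ⟨fun hk => hl ?_, h.faces f hf k⟩
    rcases ha with ha | ha
    · have := honly _ (h.faces f hf (k - 1)) (Or.inr (by rw [← ha, ← hk]; simp [fe]))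
      have e1 : a.2.2 = f.2 k := by rw [← this]; simp [fe]
      rw [e1, ← hk]; rfl
    · have := honly _ (h.faces f hf (k + 1)) (Or.inl (by rw [← ha, ← hk]; simp [fe]))
      have e1 : a.1 = f.2 (k + 1) := by rw [← this]; simp [fe]
      rw [e1, ← hk]; rfl
  · intro Q _ φ hφ
    obtain ⟨S, h1, h2⟩ := h.rank Q φ hφ
    exact ⟨S, h1, fun g hg => h2 (Reach.mono (by simp) hg)⟩

open Classical in
/-- Attaching a whisker. -/
theorem Good.whisker {K : Cpx Ω L} (h : Good π c d K) {a : ℕ × Ω × ℕ} {v : ℕ} (hv : v ∉ K.Vs)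
    (ha : (a.1 = v ∧ a.2.2 ∈ K.Vs) ∨ (a.2.2 = v ∧ a.1 ∈ K.Vs)) :
    Good π c d ⟨insert v K.Vs, insert a K.A, K.Φ, K.v₀⟩ := by
  have hsub : (K.A : Set (ℕ × Ω × ℕ)) ⊆ ((insert a K.A : Finset _) : Set (ℕ × Ω × ℕ)) := by simp
  have haA : a ∈ ((insert a K.A : Finset _) : Set (ℕ × Ω × ℕ)) := by simp
  refine ⟨Finset.mem_insert_of_mem h.base, ?_, ?_, ?_, ?_, h.disj, ?_⟩
  · intro e he
    rcases Finset.mem_insert.1 he with rfl | he
    · rcases ha with ⟨h1, h2⟩ | ⟨h1, h2⟩ <;> simp [h1, h2]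
    · exact ⟨Finset.mem_insert_of_mem (h.ends e he).1, Finset.mem_insert_of_mem (h.ends e he).2⟩
  · intro z hz
    rcases Finset.mem_insert.1 hz with rfl | hz
    · rcases ha with ⟨h1, h2⟩ | ⟨h1, h2⟩
      · obtain ⟨g, hg⟩ := h.conn _ h2
        exact ⟨_, h1 ▸ (hg.mono hsub).trans (Reach.edge haA).symm⟩
      · obtain ⟨g, hg⟩ := h.conn _ h2
        exact ⟨_, h1 ▸ (hg.mono hsub).trans (Reach.edge haA)⟩
    · obtain ⟨g, hg⟩ := h.conn z hz
      exact ⟨g, hg.mono hsub⟩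
  · exact fun g => (h.hol g).mono hsub
  · exact fun f hf k => Finset.mem_insert_of_mem (h.faces f hf k)
  · intro Q _ φ hφ
    obtain ⟨S, h1, h2⟩ := h.rank Q φ hφ
    refine ⟨S, h1, fun g hg => h2 ?_⟩
    have hne : ∀ z ∈ K.Vs, z ≠ v := fun z hz h' => hv (h' ▸ hz)
    refine leaf_reach (a := a) (v := v) ?_ ?_ ?_ hg (hne _ h.base) (hne _ h.base)
    · intro e he
      rcases Finset.mem_insert.1 he with rfl | he
      · exact Or.inl rfl
      · exact Or.inr ⟨he, hne _ (h.ends e he).1, hne _ (h.ends e he).2⟩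
    · rcases ha with ⟨h1, -⟩ | ⟨h1, -⟩ <;> simp [h1]
    · rcases ha with ⟨h1, h2⟩ | ⟨h1, h2⟩
      · rw [h1]; exact (hne _ h2).symm
      · rw [h1]; exact hne _ h2

open Classical in
/-- Collapsing a face through a free edge. -/
theorem Good.free [NeZero L] {K : Cpx Ω L} (h : Good π c d K)
    (hrel : ∀ x, Closes (fun k => c (π k x))) {f : Ω × (ZMod L → ℕ)} (hf : f ∈ K.Φ) {j : ZMod L}
    (hfree : ∀ f' ∈ K.Φ, ∀ k, fe π f' k = fe π f j → f' = f ∧ k = j) :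
    Good π c d ⟨K.Vs, K.A.erase (fe π f j), K.Φ.erase f, K.v₀⟩ := by
  have hed : ∀ e ∈ (K.A : Set (ℕ × Ω × ℕ)),
      Reach ((K.A.erase (fe π f j) : Finset _) : Set (ℕ × Ω × ℕ)) (lab c) e.1 (lab c e) e.2.2 := by
    intro e he
    by_cases hea : e = fe π f j
    · subst hea
      exact face_reach (φ := lab c) (hrel f.1) j (fun k hk =>
        Finset.mem_erase.2 ⟨fun h' => hk (hfree f hf k h').2, h.faces f hf k⟩)
    · exact Reach.edge (Finset.mem_erase.2 ⟨hea, he⟩)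
  refine ⟨h.base, fun e he => h.ends e (Finset.mem_of_mem_erase he), ?_, ?_, ?_, ?_, ?_⟩
  · intro z hz
    obtain ⟨g, hg⟩ := h.conn z hz
    exact ⟨g, Reach.of_edges hed hg⟩
  · exact fun g => Reach.of_edges hed (h.hol g)
  · intro f' hf' k
    obtain ⟨h1, h2⟩ := Finset.mem_erase.1 hf'
    exact Finset.mem_erase.2 ⟨fun h' => h1 (hfree f' h2 k h').1, h.faces f' h2 k⟩
  · exact fun f₁ h1 f₂ h2 => h.disj f₁ (Finset.mem_of_mem_erase h1) f₂ (Finset.mem_of_mem_erase h2)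
  · intro Q _ φ hφ
    obtain ⟨g₀, hg₀⟩ := closes_update (fun k => φ (fe π f k)) j
    obtain ⟨S, h1, h2⟩ := h.rank Q (Function.update φ (fe π f j) g₀) (by
      intro f' hf'
      by_cases hff : f' = f
      · subst hff
        apply hg₀
        · simp
        · intro k hk
          rw [Function.update_of_ne (fun h' => hk (hfree _ hf k h').2)]
      · have := hφ f' (Finset.mem_erase.2 ⟨hff, hf'⟩)
        convert this using 2 with k
        rw [Function.update_of_ne (fun h' => hff (hfree _ hf' k h').1)])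
    refine ⟨S, h1, fun g hg => h2 (Reach.mono_congr (by simp) ?_ hg)⟩
    intro e he
    rw [Function.update_of_ne (Finset.mem_erase.1 he).1]

open Classical in
/-- Closing a face by a new edge. -/
theorem Good.close [NeZero L] {K : Cpx Ω L} (h : Good π c d K) {f : Ω × (ZMod L → ℕ)}
    {j : ZMod L} (hj : f.2 j ∈ K.Vs) (hj' : f.2 (j + 1) ∈ K.Vs)
    (hA : ∀ k, k ≠ j → fe π f k ∈ K.A)
    (hd : ∀ f' ∈ K.Φ, f'.1 = f.1 → ∀ k, fe π f' k ≠ fe π f k) :
    Good π c d ⟨K.Vs, insert (fe π f j) K.A, insert f K.Φ, K.v₀⟩ := by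
  have hsub : (K.A : Set (ℕ × Ω × ℕ)) ⊆
      ((insert (fe π f j) K.A : Finset _) : Set (ℕ × Ω × ℕ)) := by simp
  refine ⟨h.base, ?_, ?_, ?_, ?_, ?_, ?_⟩
  · intro e he
    rcases Finset.mem_insert.1 he with rfl | he
    · exact ⟨hj, hj'⟩
    · exact h.ends e he
  · intro z hz
    obtain ⟨g, hg⟩ := h.conn z hz
    exact ⟨g, hg.mono hsub⟩
  · exact fun g => (h.hol g).mono hsub
  · intro f' hf' k
    rcases Finset.mem_insert.1 hf' with rfl | hf'
    · by_cases hk : k = j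
      · simp [hk]
      · exact Finset.mem_insert_of_mem (hA k hk)
    · exact Finset.mem_insert_of_mem (h.faces f' hf' k)
  · intro f₁ h1 f₂ h2 h3 k h4
    rcases Finset.mem_insert.1 h1 with rfl | g1 <;> rcases Finset.mem_insert.1 h2 with rfl | g2
    · rfl
    · exact absurd h4.symm (hd _ g2 h3.symm k)
    · exact absurd h4 (hd _ g1 h3 k)
    · exact h.disj _ g1 _ g2 h3 k h4
  · intro Q _ φ hφ
    obtain ⟨S, h1, h2⟩ := h.rank Q φ (fun f' hf' => hφ f' (Finset.mem_insert_of_mem hf'))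
    refine ⟨S, h1, fun g hg => h2 (Reach.of_edges ?_ hg)⟩
    intro e he
    rcases Finset.mem_insert.1 he with rfl | he
    · exact face_reach (hφ f (by simp)) j hA
    · exact Reach.edge he

/-- The initial complex. -/
theorem exists_initial [Nonempty Ω] (hgen : Subgroup.closure (Set.range c) = ⊤) (S : Finset N)
    (hS : Subgroup.closure (S : Set N) = ⊤) :
    ∃ K : Cpx Ω L, Good π c S.card K ∧ K.Φ = ∅ := by
  classical
  obtain ⟨A, Vs, h1, h2, h3, h4, h5⟩ := subdivide c hgen (S.image (fun s => ((0 : ℕ), s, (0 : ℕ))))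
    {0} (by simp)
  have hconn : ∀ v ∈ Vs, ∃ g : N, Reach (A : Set (ℕ × Ω × ℕ)) (lab c) 0 g v := by
    intro v hv
    obtain ⟨u, hu, g, hg⟩ := h4 v hv
    rw [Finset.mem_singleton.1 hu] at hg
    exact ⟨g, hg⟩
  refine ⟨⟨Vs, A, ∅, 0⟩, ⟨h1 (by simp), h2, hconn, ?_, by simp, by simp, ?_⟩, rfl⟩
  · intro g
    have : ⊤ ≤ Hol (A : Set (ℕ × Ω × ℕ)) (lab c) 0 := by
      rw [← hS, Subgroup.closure_le]
      intro s hs
      exact h5 (0, s, 0) (Finset.mem_image.2 ⟨s, hs, rfl⟩)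
    exact this (Subgroup.mem_top g)
  · intro Q _ φ _
    obtain ⟨T, hT1, hT2⟩ := rank_lemma A φ Vs 0 (fun v hv => by
      obtain ⟨g, hg⟩ := hconn v hv
      exact hg.relabel φ)
    refine ⟨T, ?_, hT2.ge⟩
    have := Finset.card_image_le (s := S) (f := fun s => ((0 : ℕ), s, (0 : ℕ)))
    simp only [Finset.card_singleton] at h3
    omega

end Rk

end Crest.Agent.R191
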