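import Crest.Agent.R191.Rank1

/-!
Rank lower bound, part 2: folding and the Euler characteristic inequality.
-/

set_option autoImplicit false

namespace Crest.Agent.R191

namespace Rk

variable {Ω N : Type} [Group N] {L : ℕ} {π : ZMod L → Ω → Ω} {c : Ω → N} {d : ℕ}

/-- Folded (deterministic) graphs. -/
def Folded (A : Finset (ℕ × Ω × ℕ)) : Prop :=
  (∀ u e v v', (u, e, v) ∈ A → (u, e, v') ∈ A → v = v') ∧
  (∀ u e v v', (v, e, u) ∈ A → (v', e, u) ∈ A → v = v')

theorem Folded.propagate {A : Finset (ℕ × Ω × ℕ)} (h : Folded A) {x : Ω} {p : ZMod L → ℕ}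
    (hp : ∀ k, fe π (x, p) k ∈ A) {q : ℕ → ℕ} {k : ZMod L} {n : ℕ}
    (hq : ∀ i < n, (q i, π (k + (i : ℕ)) x, q (i + 1)) ∈ A) {j : ℕ} (hj : j ≤ n)
    (he : p (k + (j : ℕ)) = q j) : ∀ i ≤ n, p (k + (i : ℕ)) = q i := by
  have up : ∀ t, j + t ≤ n → p (k + (j + t : ℕ)) = q (j + t) := by
    intro t
    induction t with
    | zero => intro _; exact he
    | succ t ih =>
      intro ht
      have h1 := hp (k + (j + t : ℕ))
      simp only [fe] at h1
      rw [ih (by omega)] at h1
      have := h.1 _ _ _ _ h1 (hq (j + t) (by omega))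
      rw [← add_assoc j t 1, Nat.cast_succ, ← add_assoc]
      exact this
  have down : ∀ t i, i + t = j → p (k + (i : ℕ)) = q i := by
    intro t
    induction t with
    | zero => intro i hi; rw [show i = j by omega]; exact he
    | succ t ih =>
      intro i hi
      have h1 := hp (k + (i : ℕ))
      simp only [fe] at h1
      have h2 := ih (i + 1) (by omega)
      rw [Nat.cast_succ, ← add_assoc] at h2
      rw [h2] at h1
      exact h.2 _ _ _ _ h1 (hq i (by omega))
  intro i hi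
  by_cases hij : j ≤ i
  · obtain ⟨t, rfl⟩ := Nat.exists_eq_add_of_le hij
    exact up t hi
  · exact down (j - i) i (by omega)

theorem Folded.face_eq [NeZero L] {A : Finset (ℕ × Ω × ℕ)} (h : Folded A)
    {f f' : Ω × (ZMod L → ℕ)} (hf : ∀ k, fe π f k ∈ A) (hf' : ∀ k, fe π f' k ∈ A)
    (h1 : f.1 = f'.1) {k : ZMod L} (h2 : f.2 k = f'.2 k) : f = f' := by
  obtain ⟨x, p⟩ := f
  obtain ⟨x', p'⟩ := f'
  simp only at h1 h2
  subst h1
  have := h.propagate hf (q := fun i => p' (k + (i : ℕ))) (k := k) (n := L) (j := 0)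
    (fun i _ => by simpa [fe, add_assoc] using hf' (k + (i : ℕ))) (Nat.zero_le _) (by simpa using h2)
  congr 1
  funext l
  have h3 := this (l - k).val (ZMod.val_lt _).le
  simpa using h3

/-- The folding equivalence relation. -/
inductive Fold (A : Finset (ℕ × Ω × ℕ)) : ℕ → ℕ → Prop
  | refl (u : ℕ) : Fold A u u
  | symm {u v : ℕ} : Fold A u v → Fold A v u
  | trans {u v w : ℕ} : Fold A u v → Fold A v w → Fold A u w
  | out {u u' v v' : ℕ} {e : Ω} : Fold A u u' → (u, e, v) ∈ A → (u', e, v') ∈ A → Fold A v v'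
  | inn {u u' v v' : ℕ} {e : Ω} : Fold A u u' → (v, e, u) ∈ A → (v', e, u') ∈ A → Fold A v v'

theorem exists_rep (A : Finset (ℕ × Ω × ℕ)) : ∃ q : ℕ → ℕ, (∀ u v, q u = q v ↔ Fold A u v) ∧
    ∀ u, Fold A u (q u) := by
  let s : Setoid ℕ := ⟨Fold A, Fold.refl, Fold.symm, Fold.trans⟩
  refine ⟨fun u => (Quotient.mk s u).out, fun u v => ?_, fun u => ?_⟩
  · rw [Quotient.out_inj]
    exact Quotient.eq
  · exact (Quotient.mk_out (s := s) u).symm

theorem Good.fold [NeZero L] [Fintype Ω] {K : Cpx Ω L} (h : Good π c d K) {F₀ : ℕ}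
    (hexp : MExp π F₀) (hF : K.Φ.card ≤ F₀) (hK : ¬ Folded K.A) :
    ∃ K' : Cpx Ω L, Good π c d K' ∧ K'.Φ.card ≤ K.Φ.card ∧ K'.A.card < K.A.card ∧
      40 * K.Φ.card + K'.A.card ≤ 40 * K'.Φ.card + K.A.card := by
  classical
  obtain ⟨q, hq1, hq2⟩ := exists_rep K.A
  let qA : ℕ × Ω × ℕ → ℕ × Ω × ℕ := fun e => (q e.1, e.2.1, q e.2.2)
  let qΦ : Ω × (ZMod L → ℕ) → Ω × (ZMod L → ℕ) := fun f => (f.1, fun k => q (f.2 k))
  have hfe : ∀ f k, fe π (qΦ f) k = qA (fe π f k) := fun _ _ => rfl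
  have hfold : Folded (K.A.image qA) := by
    constructor
    · intro u e v v' h1 h2
      obtain ⟨⟨u₁, e₁, v₁⟩, g1, g2⟩ := Finset.mem_image.1 h1
      obtain ⟨⟨u₂, e₂, v₂⟩, g3, g4⟩ := Finset.mem_image.1 h2
      simp only [qA, Prod.mk.injEq] at g2 g4
      obtain ⟨a1, rfl, rfl⟩ := g2
      obtain ⟨b1, rfl, rfl⟩ := g4
      exact (hq1 _ _).2 (Fold.out ((hq1 _ _).1 (a1.trans b1.symm)) g1 g3)
    · intro u e v v' h1 h2
      obtain ⟨⟨u₁, e₁, v₁⟩, g1, g2⟩ := Finset.mem_image.1 h1
      obtain ⟨⟨u₂, e₂, v₂⟩, g3, g4⟩ := Finset.mem_image.1 h2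
      simp only [qA, Prod.mk.injEq] at g2 g4
      obtain ⟨rfl, rfl, a1⟩ := g2
      obtain ⟨rfl, rfl, b1⟩ := g4
      exact (hq1 _ _).2 (Fold.inn ((hq1 _ _).1 (a1.trans b1.symm)) g1 g3)
  have hpush : ∀ {u v : ℕ} {g : N}, Reach (K.A : Set (ℕ × Ω × ℕ)) (lab c) u g v →
      Reach ((K.A.image qA : Finset _) : Set (ℕ × Ω × ℕ)) (lab c) (q u) g (q v) := by
    intro u v g hr
    have := Reach.transfer (A' := ((K.A.image qA : Finset _) : Set (ℕ × Ω × ℕ))) (φ' := lab c) q
      (fun _ => 1) (MonoidHom.id N) (by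
        intro e he
        have : qA e ∈ ((K.A.image qA : Finset _) : Set (ℕ × Ω × ℕ)) :=
          Finset.mem_image_of_mem qA he
        simpa using Reach.edge (φ := lab c) this) hr
    simpa using this
  have hfaces : ∀ f ∈ K.Φ.image qΦ, ∀ k, fe π f k ∈ K.A.image qA := by
    intro f hf k
    obtain ⟨f₀, h1, rfl⟩ := Finset.mem_image.1 hf
    rw [hfe]
    exact Finset.mem_image_of_mem _ (h.faces f₀ h1 k)
  refine ⟨⟨K.Vs.image q, K.A.image qA, K.Φ.image qΦ, q K.v₀⟩,
    ⟨Finset.mem_image_of_mem _ h.base, ?_, ?_, fun g => hpush (h.hol g), hfaces, ?_, ?_⟩,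
    Finset.card_image_le, ?_, ?_⟩
  · intro e he
    obtain ⟨e₀, h1, rfl⟩ := Finset.mem_image.1 he
    exact ⟨Finset.mem_image_of_mem _ (h.ends e₀ h1).1, Finset.mem_image_of_mem _ (h.ends e₀ h1).2⟩
  · intro v hv
    obtain ⟨v₁, h1, rfl⟩ := Finset.mem_image.1 hv
    obtain ⟨g, hg⟩ := h.conn v₁ h1
    exact ⟨g, hpush hg⟩
  · intro f hf f' hf' h1 k h2
    exact hfold.face_eq (hfaces f hf) (hfaces f' hf') h1 (congrArg Prod.fst h2)
  · intro Q _ φ hφ
    obtain ⟨S, h1, h2⟩ := h.rank Q (fun e => φ (qA e))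
      (fun f hf => hφ (qΦ f) (Finset.mem_image_of_mem _ hf))
    refine ⟨S, h1, fun g hg => h2 ?_⟩
    have hlift : ∀ u v, Fold K.A u v →
        Reach (K.A : Set (ℕ × Ω × ℕ)) (fun e => φ (qA e)) u 1 v := by
      intro u v huv
      induction huv with
      | refl u => exact Reach.refl
      | symm _ ih => simpa using ih.symm
      | trans _ _ ih1 ih2 => simpa using ih1.trans ih2
      | @out u u' v v' e g1 g2 g3 ih =>
        refine (((Reach.edge' g2).symm.trans ih).trans (Reach.edge' g3)).cast ?_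
        have e1 : q u = q u' := (hq1 _ _).2 g1
        have e2 : q v = q v' := (hq1 _ _).2 (Fold.out g1 g2 g3)
        simp [qA, e1, e2]
      | @inn u u' v v' e g1 g2 g3 ih =>
        refine (((Reach.edge' g2).trans ih).trans (Reach.edge' g3).symm).cast ?_
        have e1 : q u = q u' := (hq1 _ _).2 g1
        have e2 : q v = q v' := (hq1 _ _).2 (Fold.inn g1 g2 g3)
        simp [qA, e1, e2]
    have h3 : Reach (K.A : Set (ℕ × Ω × ℕ)) (fun e => φ (qA e)) (q K.v₀) g (q K.v₀) := by
      refine Reach.of_edges ?_ hg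
      intro e he
      obtain ⟨e₀, g1, rfl⟩ := Finset.mem_image.1 he
      exact (((hlift _ _ (hq2 e₀.1)).symm.trans (Reach.edge g1)).trans
        (hlift _ _ (hq2 e₀.2.2))).cast (by simp)
    exact (((hlift _ _ (hq2 K.v₀)).trans h3).trans (hlift _ _ (hq2 K.v₀)).symm).cast (by simp)
  · refine lt_of_le_of_ne Finset.card_image_le (fun hc => hK ?_)
    have hinj := Finset.card_image_iff.1 hc
    constructor
    · intro u e v v' h1 h2
      have := hinj h1 h2 (by simp [qA, (hq1 _ _).2 (Fold.out (Fold.refl u) h1 h2)])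
      simpa using this
    · intro u e v v' h1 h2
      have := hinj h1 h2 (by simp [qA, (hq1 _ _).2 (Fold.inn (Fold.refl u) h1 h2)])
      simpa using this
  · let nΦ : Ω → ℕ := fun x => (K.Φ.filter (fun f => f.1 = x)).card
    let nΦ' : Ω → ℕ := fun x => ((K.Φ.image qΦ).filter (fun f => f.1 = x)).card
    let nA : Ω → ℕ := fun e => (K.A.filter (fun a => a.2.1 = e)).card
    let nA' : Ω → ℕ := fun e => ((K.A.image qA).filter (fun a => a.2.1 = e)).card
    have s1 : K.Φ.card = ∑ x, nΦ x := Finset.card_eq_sum_card_fiberwise (by simp)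
    have s2 : (K.Φ.image qΦ).card = ∑ x, nΦ' x := Finset.card_eq_sum_card_fiberwise (by simp)
    have s3 : K.A.card = ∑ x, nA x := Finset.card_eq_sum_card_fiberwise (by simp)
    have s4 : (K.A.image qA).card = ∑ x, nA' x := Finset.card_eq_sum_card_fiberwise (by simp)
    have l1 : ∀ x, nΦ' x ≤ nΦ x := by
      intro x
      simp only [nΦ', nΦ]
      rw [Finset.filter_image]
      exact Finset.card_image_le
    have l2 : ∀ x, nA' x ≤ nA x := by
      intro x
      simp only [nA', nA]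
      rw [Finset.filter_image]
      exact Finset.card_image_le
    have key : ∀ k x, nΦ x - nΦ' x ≤ nA (π k x) - nA' (π k x) := by
      intro k x
      let G := (K.Φ.filter (fun f => f.1 = x)).image (fun f => fe π f k)
      have hG : G.card = nΦ x := by
        apply Finset.card_image_of_injOn
        intro f hf f' hf' hff
        simp only [Finset.coe_filter, Set.mem_ofPred_eq] at hf hf'
        exact h.disj f hf.1 f' hf'.1 (hf.2.trans hf'.2.symm) k hff
      have hGs : G ⊆ K.A.filter (fun a => a.2.1 = π k x) := by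
        intro a ha
        obtain ⟨f, hf, rfl⟩ := Finset.mem_image.1 ha
        obtain ⟨g1, g2⟩ := Finset.mem_filter.1 hf
        exact Finset.mem_filter.2 ⟨h.faces f g1 k, by simp [fe, g2]⟩
      have hsub : (K.A.image qA).filter (fun a => a.2.1 = π k x) ⊆
          ((K.Φ.image qΦ).filter (fun f => f.1 = x)).image (fun f => fe π f k) ∪
          (K.A.filter (fun a => a.2.1 = π k x) \ G).image qA := by
        intro a ha
        obtain ⟨g1, g2⟩ := Finset.mem_filter.1 ha
        obtain ⟨a₀, g3, rfl⟩ := Finset.mem_image.1 g1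
        by_cases hc : a₀ ∈ G
        · obtain ⟨f, hf, rfl⟩ := Finset.mem_image.1 hc
          obtain ⟨g4, g5⟩ := Finset.mem_filter.1 hf
          exact Finset.mem_union_left _ (Finset.mem_image.2 ⟨qΦ f,
            Finset.mem_filter.2 ⟨Finset.mem_image_of_mem _ g4, g5⟩, rfl⟩)
        · exact Finset.mem_union_right _ (Finset.mem_image_of_mem _
            (Finset.mem_sdiff.2 ⟨Finset.mem_filter.2 ⟨g3, g2⟩, hc⟩))
      have c1 := (Finset.card_le_card hsub).trans ((Finset.card_union_le _ _).trans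
        (Nat.add_le_add Finset.card_image_le Finset.card_image_le))
      rw [Finset.card_sdiff_of_subset hGs, hG] at c1
      have c2 := Finset.card_le_card hGs
      rw [hG] at c2
      change nA' (π k x) ≤ nΦ' x + (nA (π k x) - nΦ x) at c1
      change nΦ x ≤ nA (π k x) at c2
      omega
    have hm := hexp (fun x => nΦ x - nΦ' x) (fun e => nA e - nA' e) key (by
      refine le_trans ?_ hF
      refine le_trans (Finset.card_le_card (t := K.Φ.image Prod.fst) ?_) Finset.card_image_le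
      intro x hx
      have h1 : nΦ x ≠ 0 := by
        have := (Finset.mem_filter.1 hx).2
        omega
      obtain ⟨f, hf⟩ := Finset.card_ne_zero.1 h1
      obtain ⟨g1, g2⟩ := Finset.mem_filter.1 hf
      exact Finset.mem_image.2 ⟨f, g1, g2⟩)
    have t1 : ∑ x, (nΦ x - nΦ' x) + ∑ x, nΦ' x = ∑ x, nΦ x := by
      rw [← Finset.sum_add_distrib]
      exact Finset.sum_congr rfl (fun x _ => Nat.sub_add_cancel (l1 x))
    have t2 : ∑ x, (nA x - nA' x) + ∑ x, nA' x = ∑ x, nA x := by
      rw [← Finset.sum_add_distrib]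
      exact Finset.sum_congr rfl (fun x _ => Nat.sub_add_cancel (l2 x))
    simp only
    omega

/-- The Euler characteristic inequality. -/
theorem Good.euler [NeZero L] {K : Cpx Ω L} (h : Good π c d K) :
    K.A.card + 1 ≤ d + K.Φ.card + K.Vs.card := by
  classical
  let W := (ℕ × Ω × ℕ) →₀ ℚ
  let fv : Ω × (ZMod L → ℕ) → W := fun f => ∑ k, Finsupp.single (fe π f k) 1
  let R : Submodule ℚ W := Submodule.span ℚ (K.Φ.image fv : Set W)
  let φ : ℕ × Ω × ℕ → Multiplicative (W ⧸ R) :=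
    fun a => Multiplicative.ofAdd (R.mkQ (Finsupp.single a 1))
  obtain ⟨S, hS1, hS2⟩ := h.rank (Multiplicative (W ⧸ R)) φ (by
    intro f hf
    apply closes_of_prod
    simp only [φ]
    rw [← ofAdd_sum, ← map_sum]
    have : (∑ k, Finsupp.single (fe π f k) (1 : ℚ) : W) ∈ R :=
      Submodule.subset_span (Finset.mem_image_of_mem fv hf)
    rw [Submodule.mkQ_apply, (Submodule.Quotient.mk_eq_zero R).2 this]
    rfl)
  have hpot : ∀ v, ∃ g, v ∈ K.Vs → Reach (K.A : Set (ℕ × Ω × ℕ)) φ K.v₀ g v := by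
    intro v
    by_cases hv : v ∈ K.Vs
    · obtain ⟨g, hg⟩ := h.conn v hv
      obtain ⟨g', hg'⟩ := hg.relabel φ
      exact ⟨g', fun _ => hg'⟩
    · exact ⟨1, fun h' => absurd h' hv⟩
  choose pot hpot using hpot
  obtain ⟨σ, hσ⟩ := R.mkQ_surjective.hasRightInverse
  let T : Finset W := (S ∪ (K.Vs.erase K.v₀).image pot).image (fun g => σ g.toAdd) ∪ K.Φ.image fv
  let U : Submodule ℚ W := Submodule.span ℚ (T : Set W)
  have hRU : R ≤ U := Submodule.span_mono (by simp [T])
  let U' : Subgroup (Multiplicative (W ⧸ R)) := (U.map R.mkQ).toAddSubgroup.toSubgroup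
  have hT : ∀ g ∈ S ∪ (K.Vs.erase K.v₀).image pot, g ∈ U' := by
    intro g hg
    refine ⟨σ g.toAdd, Submodule.subset_span ?_, hσ _⟩
    exact Finset.mem_union_left _ (Finset.mem_image_of_mem _ hg)
  have hH : Hol (K.A : Set (ℕ × Ω × ℕ)) φ K.v₀ ≤ U' :=
    hS2.trans ((Subgroup.closure_le _).2 (fun g hg => hT g (Finset.mem_union_left _ hg)))
  have hp : ∀ v ∈ K.Vs, pot v ∈ U' := by
    intro v hv
    by_cases h0 : v = K.v₀
    · subst h0
      exact hH (hpot _ hv)
    · exact hT _ (Finset.mem_union_right _ (Finset.mem_image_of_mem _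
        (Finset.mem_erase.2 ⟨h0, hv⟩)))
  have hA : ∀ a ∈ K.A, (Finsupp.single a 1 : W) ∈ U := by
    intro a ha
    have h1 : pot a.1 * φ a * (pot a.2.2)⁻¹ ∈ U' :=
      hH (((hpot _ (h.ends a ha).1).trans (Reach.edge ha)).trans (hpot _ (h.ends a ha).2).symm)
    have h2 : φ a ∈ U' := by
      have := U'.mul_mem (U'.mul_mem (U'.inv_mem (hp _ (h.ends a ha).1)) h1) (hp _ (h.ends a ha).2)
      simpa [mul_assoc] using this
    obtain ⟨w, hw, hw'⟩ := h2
    have h3 : w - Finsupp.single a 1 ∈ R := (Submodule.Quotient.eq R).1 hw'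
    have := U.sub_mem hw (hRU h3)
    simpa using this
  have hli : LinearIndependent ℚ (fun a : K.A => (Finsupp.single (a : ℕ × Ω × ℕ) 1 : W)) :=
    (Finsupp.linearIndependent_single_one ℚ (ℕ × Ω × ℕ)).comp _ Subtype.val_injective
  have := linearIndependent_le_span_aux' _ hli (T : Set W) (by
    rintro _ ⟨a, rfl⟩
    exact hA a a.2)
  simp only [Fintype.card_coe, Finset.coe_sort_coe] at this
  have c1 : T.card ≤ S.card + (K.Vs.erase K.v₀).card + K.Φ.card :=
    (Finset.card_union_le _ _).trans (Nat.add_le_add (Finset.card_image_le.trans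
      ((Finset.card_union_le _ _).trans (Nat.add_le_add_left Finset.card_image_le _)))
      Finset.card_image_le)
  have c2 := Finset.card_erase_add_one h.base
  omega

end Rk

end Crest.Agent.R191
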