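import Crest.Agent.R191.Rank2

/-!
Rank lower bound, part 3: walks, shortening, adding a face.
-/

set_option autoImplicit false

namespace Crest.Agent.R191

namespace Rk

open Cay (Adj adj_true adj_false)

variable {Ω N : Type} [Group N] {L : ℕ} {π : ZMod L → Ω → Ω} {c : Ω → N} {d : ℕ}

/-- Walks spelling a word. -/
inductive Walk (A : Set (ℕ × Ω × ℕ)) : ℕ → List (Ω × Bool) → ℕ → Prop
  | nil (u : ℕ) : Walk A u [] u
  | cons {u u' v : ℕ} {b : Ω × Bool} {w : List (Ω × Bool)} : Adj A u b u' → Walk A u' w v →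
      Walk A u (b :: w) v

theorem Walk.append {A : Set (ℕ × Ω × ℕ)} {u v z : ℕ} {w w' : List (Ω × Bool)}
    (h : Walk A u w v) (h' : Walk A v w' z) : Walk A u (w ++ w') z := by
  induction h with
  | nil => exact h'
  | cons h1 _ ih => exact .cons h1 (ih h')

theorem Walk.split {A : Set (ℕ × Ω × ℕ)} {w w' : List (Ω × Bool)} : ∀ {u z : ℕ},
    Walk A u (w ++ w') z → ∃ v, Walk A u w v ∧ Walk A v w' z := by
  induction w with
  | nil => intro u z h; exact ⟨u, .nil u, h⟩
  | cons b w ih =>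
    intro u z h
    cases h with
    | cons h1 h2 =>
      obtain ⟨v, h3, h4⟩ := ih h2
      exact ⟨v, .cons h1 h3, h4⟩

theorem adj_symm {A : Set (ℕ × Ω × ℕ)} {u v : ℕ} {b : Ω × Bool} (h : Adj A u b v) :
    Adj A v (b.1, !b.2) u := by
  obtain ⟨e, d⟩ := b
  cases d <;> simpa using h

theorem Walk.rev {A : Set (ℕ × Ω × ℕ)} {u v : ℕ} {w : List (Ω × Bool)} (h : Walk A u w v) :
    Walk A v (FreeGroup.invRev w) u := by
  induction h with
  | nil => exact .nil _
  | cons h1 _ ih =>
    rw [FreeGroup.invRev_cons]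
    exact ih.append (.cons (adj_symm h1) (.nil _))

theorem exists_walk {A : Set (ℕ × Ω × ℕ)} {u v : ℕ} {g : N} (h : Reach A (lab c) u g v) :
    ∃ w, Walk A u w v ∧ FreeGroup.lift c (FreeGroup.mk w) = g := by
  induction h with
  | refl => exact ⟨[], .nil _, by simp⟩
  | @fwd g v l w _ he ih =>
    obtain ⟨w, h1, rfl⟩ := ih
    refine ⟨w ++ [(l, true)], h1.append (.cons (adj_true.2 he) (.nil _)), ?_⟩
    rw [← FreeGroup.mul_mk, map_mul]
    simp
  | @bwd g v l w _ he ih =>
    obtain ⟨w, h1, rfl⟩ := ih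
    refine ⟨w ++ [(l, false)], h1.append (.cons (adj_false.2 he) (.nil _)), ?_⟩
    rw [← FreeGroup.mul_mk, map_mul]
    simp

theorem fwdSeg_succ (x : Ω) (k : ZMod L) (n : ℕ) :
    fwdSeg π x k (n + 1) = fwdSeg π x k n ++ [(π (k + (n : ℕ)) x, true)] := by
  simp [fwdSeg, List.range_succ]

theorem bwdSeg_succ (x : Ω) (k : ZMod L) (n : ℕ) :
    bwdSeg π x k (n + 1) = bwdSeg π x k n ++ [(π (k - 1 - (n : ℕ)) x, false)] := by
  simp [bwdSeg, List.range_succ]

theorem fwdSeg_succ' (x : Ω) (k : ZMod L) (n : ℕ) :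
    fwdSeg π x k (n + 1) = (π k x, true) :: fwdSeg π x (k + 1) n := by
  simp only [fwdSeg, List.range_succ_eq_map, List.map_cons, List.map_map, Nat.cast_zero, add_zero,
    List.cons.injEq, true_and]
  congr 1
  funext j
  simp only [Function.comp, Nat.succ_eq_add_one, Nat.cast_add, Nat.cast_one]
  congr 2
  ring

theorem invRev_bwdSeg (x : Ω) (k : ZMod L) (n : ℕ) :
    FreeGroup.invRev (bwdSeg π x k n) = fwdSeg π x (k - (n : ℕ)) n := by
  induction n with
  | zero => simp [bwdSeg, fwdSeg]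
  | succ n ih =>
    rw [bwdSeg_succ, FreeGroup.invRev_append, ih, fwdSeg_succ']
    simp only [FreeGroup.invRev, List.map_cons, List.map_nil, List.reverse_cons, List.reverse_nil,
      List.nil_append, List.cons_append, Nat.cast_add, Nat.cast_one, Bool.not_false]
    congr 3 <;> ring

theorem walk_fwdSeg {A : Set (ℕ × Ω × ℕ)} {x : Ω} {k : ZMod L} (n : ℕ) : ∀ {u v : ℕ},
    Walk A u (fwdSeg π x k n) v →
    ∃ q : ℕ → ℕ, q 0 = u ∧ q n = v ∧ ∀ i < n, (q i, π (k + (i : ℕ)) x, q (i + 1)) ∈ A := by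
  induction n with
  | zero =>
    intro u v h
    cases h
    exact ⟨fun _ => u, rfl, rfl, by simp⟩
  | succ n ih =>
    intro u v h
    rw [fwdSeg_succ] at h
    obtain ⟨z, h1, h2⟩ := h.split
    obtain ⟨q, g1, g2, g3⟩ := ih h1
    cases h2 with
    | cons h3 h4 =>
      cases h4
      refine ⟨Function.update q (n + 1) v, by simpa using g1, by simp, fun i hi => ?_⟩
      by_cases hin : i = n
      · subst hin
        simpa [g2] using h3
      · rw [Function.update_of_ne (by omega), Function.update_of_ne (by omega)]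
        exact g3 i (by omega)

theorem eval_fwdSeg {x : Ω} {pre : ZMod L → N} (h : ∀ k, pre (k + 1) = pre k * c (π k x))
    (k : ZMod L) (n : ℕ) :
    FreeGroup.lift c (FreeGroup.mk (fwdSeg π x k n)) = (pre k)⁻¹ * pre (k + (n : ℕ)) := by
  induction n with
  | zero => simp [fwdSeg]
  | succ n ih =>
    rw [fwdSeg_succ, ← FreeGroup.mul_mk, map_mul, ih, Nat.cast_succ, ← add_assoc, h]
    simp [mul_assoc]

open Classical in
/-- Either a long face segment can be shortened, or a new face can be attached along it. -/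
theorem Good.short_or_add [NeZero L] (hL : 7 ≤ L) {K : Cpx Ω L} (h : Good π c d K)
    (hK : Folded K.A) (hrel : ∀ x, Closes (fun k => c (π k x))) {x : Ω} {k : ZMod L} {y z : ℕ}
    (hw : Walk (K.A : Set (ℕ × Ω × ℕ)) y (fwdSeg π x k (L - 3)) z) :
    (∃ s, Walk (K.A : Set (ℕ × Ω × ℕ)) y s z ∧ s.length = 3 ∧
      FreeGroup.lift c (FreeGroup.mk s) = FreeGroup.lift c (FreeGroup.mk (fwdSeg π x k (L - 3)))) ∨
    ∃ K' : Cpx Ω L, Good π c d K' ∧ K'.Φ.card = K.Φ.card + 1 ∧ K'.A.card ≤ K.A.card + 3 := by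
  obtain ⟨q, rfl, rfl, hq⟩ := walk_fwdSeg _ hw
  have hcast : ((L - 3 : ℕ) : ZMod L) = -3 := by
    rw [Nat.cast_sub (by omega)]; simp
  by_cases hex : ∃ f ∈ K.Φ, f.1 = x ∧ ∃ j ≤ L - 3, f.2 (k + (j : ℕ)) = q j
  · left
    obtain ⟨⟨x', p⟩, hf, rfl, j, hj, hpj⟩ := hex
    have hp := h.faces _ hf
    have hpq := hK.propagate hp hq hj hpj
    have e0 : p k = q 0 := by simpa using hpq 0 (Nat.zero_le _)
    have e1 : p (k - 3) = q (L - 3) := by
      have := hpq (L - 3) le_rfl
      rwa [hcast, ← sub_eq_add_neg] at this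
    obtain ⟨pre, hpre⟩ := hrel x'
    have hwalk : Walk (K.A : Set (ℕ × Ω × ℕ)) (q (L - 3)) (fwdSeg π x' (k - 3) 3) (q 0) := by
      rw [← e0, ← e1, fwdSeg_succ', fwdSeg_succ', fwdSeg_succ']
      refine .cons (adj_true.2 (hp (k - 3))) (.cons (adj_true.2 (hp (k - 3 + 1)))
        (.cons (adj_true.2 (hp (k - 3 + 1 + 1))) ?_))
      rw [show k - 3 + 1 + 1 + 1 = k by ring]
      exact .nil _
    refine ⟨_, hwalk.rev, by simp [fwdSeg], ?_⟩
    rw [← FreeGroup.inv_mk, map_inv, eval_fwdSeg hpre, eval_fwdSeg hpre, hcast]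
    simp [sub_eq_add_neg]
  · right
    push Not at hex
    obtain ⟨z₁, hz₁⟩ := Infinite.exists_notMem_finset K.Vs
    obtain ⟨z₂, hz₂⟩ := Infinite.exists_notMem_finset (insert z₁ K.Vs)
    have hq0 : q 0 ∈ K.Vs := (h.ends _ (hq 0 (by omega))).1
    have hq1 : q (L - 3) ∈ K.Vs := by
      have := (h.ends _ (hq (L - 4) (by omega))).2
      rwa [show L - 4 + 1 = L - 3 by omega] at this
    let full : ℕ → ℕ := fun i => if i ≤ L - 3 then q i else if i = L - 2 then z₁ else
      if i = L - 1 then z₂ else q 0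
    let p : ZMod L → ℕ := fun l => full (l - k).val
    have hp : ∀ i : ℕ, i < L → p (k + (i : ℕ)) = full i := by
      intro i hi
      simp only [p]
      rw [add_sub_cancel_left, ZMod.val_natCast, Nat.mod_eq_of_lt hi]
    have hfe : ∀ i : ℕ, i < L → fe π (x, p) (k + (i : ℕ)) =
        (full i, π (k + (i : ℕ)) x, full (i + 1)) := by
      intro i hi
      simp only [fe, hp i hi, p]
      rw [show k + (i : ℕ) + 1 - k = (i : ℕ) + 1 by ring, cyc_val full (by
        simp only [full]
        rw [if_neg (by omega), if_neg (by omega), if_neg (by omega), if_pos (Nat.zero_le _)]),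
        ZMod.val_natCast, Nat.mod_eq_of_lt hi]
    have f1 : ∀ i ≤ L - 3, full i = q i := fun i hi => by simp [full, hi]
    have f2 : full (L - 2) = z₁ := by
      simp only [full]; rw [if_neg (by omega), if_pos trivial]
    have f3 : full (L - 1) = z₂ := by
      simp only [full]; rw [if_neg (by omega), if_neg (by omega), if_pos trivial]
    have f4 : full (L - 1 + 1) = q 0 := by
      simp only [full]; rw [if_neg (by omega), if_neg (by omega), if_neg (by omega)]
    have g1 := h.whisker (a := fe π (x, p) (k + (L - 3 : ℕ))) hz₁ (Or.inr (by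
      rw [hfe _ (by omega), show L - 3 + 1 = L - 2 by omega, f2, f1 _ le_rfl]
      exact ⟨rfl, hq1⟩))
    have g2 := g1.whisker (a := fe π (x, p) (k + (L - 1 : ℕ))) hz₂ (Or.inl (by
      rw [hfe _ (by omega), f3, f4]
      exact ⟨rfl, Finset.mem_insert_of_mem hq0⟩))
    have hnot : ∀ f' ∈ K.Φ, f'.1 = x → ∀ l, fe π f' l ≠ fe π (x, p) l := by
      intro f' hf' h1 l hl
      obtain ⟨i, hi, rfl⟩ : ∃ i : ℕ, i < L ∧ l = k + (i : ℕ) :=
        ⟨(l - k).val, ZMod.val_lt _, by simp⟩
      have hA := h.faces f' hf' (k + (i : ℕ))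
      have h2 : f'.2 (k + (i : ℕ)) = full i := by
        have := congrArg Prod.fst hl
        rwa [hfe i hi] at this
      by_cases hi' : i ≤ L - 3
      · exact hex f' hf' h1 i hi' (h2.trans (f1 i hi'))
      · have h3 : full i ∈ K.Vs := h2 ▸ (h.ends _ hA).1
        have : i = L - 2 ∨ i = L - 1 := by omega
        rcases this with rfl | rfl
        · exact hz₁ (f2 ▸ h3)
        · exact hz₂ (Finset.mem_insert_of_mem (f3 ▸ h3))
    have g3 := g2.close (f := (x, p)) (j := k + (L - 2 : ℕ))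
      (by dsimp only; rw [hp _ (by omega), f2]; simp)
      (by
        dsimp only
        rw [add_assoc, ← Nat.cast_succ, hp _ (by omega), show (L - 2).succ = L - 1 by omega, f3]
        simp)
      (by
        intro l hl
        obtain ⟨i, hi, rfl⟩ : ∃ i : ℕ, i < L ∧ l = k + (i : ℕ) :=
          ⟨(l - k).val, ZMod.val_lt _, by simp⟩
        by_cases hi' : i < L - 3
        · refine Finset.mem_insert_of_mem (Finset.mem_insert_of_mem ?_)
          rw [hfe i hi, f1 _ (by omega), f1 _ (by omega)]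
          exact hq i hi'
        · have : i = L - 3 ∨ i = L - 2 ∨ i = L - 1 := by omega
          rcases this with rfl | rfl | rfl
          · simp
          · exact absurd rfl hl
          · simp)
      hnot
    refine ⟨_, g3, ?_, ?_⟩
    · apply Finset.card_insert_of_notMem
      intro hf
      exact hnot _ hf rfl k rfl
    · exact (Finset.card_insert_le _ _).trans (Nat.succ_le_succ ((Finset.card_insert_le _ _).trans
        (Nat.succ_le_succ (Finset.card_insert_le _ _))))

theorem Folded.adj_det {A : Finset (ℕ × Ω × ℕ)} (h : Folded A) {u v v' : ℕ} {b : Ω × Bool}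
    (h1 : Adj (A : Set (ℕ × Ω × ℕ)) u b v) (h2 : Adj (A : Set (ℕ × Ω × ℕ)) u b v') : v = v' := by
  obtain ⟨e, d⟩ := b
  cases d
  · exact h.2 _ _ _ _ (adj_false.1 h1) (adj_false.1 h2)
  · exact h.1 _ _ _ _ (adj_true.1 h1) (adj_true.1 h2)

/-- Either every generator is a loop at the base point, or a face can be added. -/
theorem Good.loop_or_add [NeZero L] (hL : 7 ≤ L) {K : Cpx Ω L} (h : Good π c d K)
    (hK : Folded K.A) (hrel : ∀ x, Closes (fun k => c (π k x))) (hG : Greendlinger π c) (e : Ω) :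
    (K.v₀, e, K.v₀) ∈ K.A ∨
    ∃ K' : Cpx Ω L, Good π c d K' ∧ K'.Φ.card = K.Φ.card + 1 ∧ K'.A.card ≤ K.A.card + 3 := by
  classical
  by_contra hc
  rw [not_or] at hc
  obtain ⟨hc1, hc2⟩ := hc
  have hex : ∃ n, ∃ w : List (Ω × Bool), w.length = n ∧ Walk (K.A : Set (ℕ × Ω × ℕ)) K.v₀ w K.v₀ ∧
      FreeGroup.lift c (FreeGroup.mk w) = c e := by
    obtain ⟨w, h1, h2⟩ := exists_walk (h.hol (c e))
    exact ⟨_, w, rfl, h1, h2⟩
  obtain ⟨w, hw1, hw2, hw3⟩ := Nat.find_spec hex
  have hmin : ∀ w' : List (Ω × Bool), Walk (K.A : Set (ℕ × Ω × ℕ)) K.v₀ w' K.v₀ →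
      FreeGroup.lift c (FreeGroup.mk w') = c e → w.length ≤ w'.length := by
    intro w' h1 h2
    rw [hw1]
    exact Nat.find_min' hex ⟨w', rfl, h1, h2⟩
  have hred : FreeGroup.IsReduced w := by
    rw [FreeGroup.isReduced_iff_not_step]
    intro w' hs
    have hmk : FreeGroup.mk w = FreeGroup.mk w' := Quot.sound hs
    cases hs with
    | @not w₁ w₂ x b =>
      obtain ⟨u, g1, g2⟩ := hw2.split
      cases g2 with
      | cons g3 g4 =>
        cases g4 with
        | cons g5 g6 =>
          have := hK.adj_det g5 (adj_symm g3)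
          subst this
          have := hmin _ (g1.append g6) (hmk ▸ hw3)
          simp at this
  rcases hG w e hred hw3 with rfl | ⟨w₁, w₂, x, k, rfl | rfl⟩
  · cases hw2 with
    | cons g1 g2 =>
      cases g2
      exact hc1 (adj_true.1 g1)
  · obtain ⟨z, g1, g2⟩ := hw2.split
    obtain ⟨y, g3, g4⟩ := g1.split
    rcases h.short_or_add hL hK hrel g4 with ⟨s, s1, s2, s3⟩ | h'
    · have := hmin _ ((g3.append s1).append g2) (by
        rw [← hw3]
        simp only [← FreeGroup.mul_mk, map_mul, s3])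
      simp [s2, fwdSeg] at this
      omega
    · exact hc2 h'
  · obtain ⟨z, g1, g2⟩ := hw2.split
    obtain ⟨y, g3, g4⟩ := g1.split
    have g5 := g4.rev
    rw [invRev_bwdSeg] at g5
    rcases h.short_or_add hL hK hrel g5 with ⟨s, s1, s2, s3⟩ | h'
    · have := hmin _ ((g3.append s1.rev).append g2) (by
        rw [← hw3]
        rw [← invRev_bwdSeg, ← FreeGroup.inv_mk, map_inv] at s3
        simp only [← FreeGroup.mul_mk, map_mul, ← FreeGroup.inv_mk, map_inv, s3, inv_inv])
      simp [s2, bwdSeg] at this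
      omega
    · exact hc2 h'

end Rk

end Crest.Agent.R191
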