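import Crest.Agent.R191.Defs

/-!
Basic lemmas on labelled graphs.
-/

set_option autoImplicit false

namespace Crest.Agent.R191

namespace Reach

variable {V Λ Q : Type} [Group Q] {A : Set (V × Λ × V)} {φ : V × Λ × V → Q}

theorem cast {u v : V} {g g' : Q} (h : Reach A φ u g v) (e : g = g') : Reach A φ u g' v := e ▸ h

theorem edge {a : V × Λ × V} (h : a ∈ A) : Reach A φ a.1 (φ a) a.2.2 := by
  have := Reach.fwd (φ := φ) (Reach.refl (u := a.1)) (l := a.2.1) (w := a.2.2) h
  simpa using this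

theorem edge' {u v : V} {l : Λ} (h : (u, l, v) ∈ A) : Reach A φ u (φ (u, l, v)) v := edge h

theorem trans {u v w : V} {g g' : Q} (h : Reach A φ u g v) (h' : Reach A φ v g' w) :
    Reach A φ u (g * g') w := by
  induction h' with
  | refl => simpa using h
  | fwd _ he ih => exact (Reach.fwd ih he).cast (by simp [mul_assoc])
  | bwd _ he ih => exact (Reach.bwd ih he).cast (by simp [mul_assoc])

theorem symm {u v : V} {g : Q} (h : Reach A φ u g v) : Reach A φ v g⁻¹ u := by
  induction h with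
  | refl => simpa using Reach.refl
  | fwd _ he ih =>
    exact ((Reach.bwd Reach.refl he).trans ih).cast (by simp)
  | bwd _ he ih =>
    exact ((Reach.fwd Reach.refl he).trans ih).cast (by simp)

/-- Transfer of paths along a vertex map `r` with a gauge `a`. -/
theorem transfer {V' Λ' Q' : Type} [Group Q'] {A' : Set (V' × Λ' × V')} {φ' : V' × Λ' × V' → Q'}
    (r : V → V') (a : V → Q') (f : Q →* Q')
    (h : ∀ e ∈ A, Reach A' φ' (r e.1) (a e.1 * f (φ e) * (a e.2.2)⁻¹) (r e.2.2))
    {u v : V} {g : Q} (hr : Reach A φ u g v) :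
    Reach A' φ' (r u) (a u * f g * (a v)⁻¹) (r v) := by
  induction hr with
  | refl => simpa using Reach.refl
  | fwd _ he ih => exact (ih.trans (h _ he)).cast (by simp [mul_assoc])
  | bwd _ he ih => exact (ih.trans (h _ he).symm).cast (by simp [mul_assoc])

/-- Every edge of `A` is realised by a path of `A'`. -/
theorem of_edges {Λ' : Type} {A' : Set (V × Λ' × V)} {φ' : V × Λ' × V → Q}
    (h : ∀ e ∈ A, Reach A' φ' e.1 (φ e) e.2.2) {u v : V} {g : Q} (hr : Reach A φ u g v) :
    Reach A' φ' u g v := by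
  have := transfer (A' := A') (φ' := φ') id (fun _ => 1) (MonoidHom.id Q) (by simpa using h) hr
  simpa using this

theorem mono_congr {A' : Set (V × Λ × V)} {φ' : V × Λ × V → Q} (hA : A ⊆ A')
    (hφ : ∀ e ∈ A, φ' e = φ e) {u v : V} {g : Q} (hr : Reach A φ u g v) : Reach A' φ' u g v :=
  of_edges (fun e he => (edge (hA he)).cast (hφ e he)) hr

theorem mono {A' : Set (V × Λ × V)} (hA : A ⊆ A') {u v : V} {g : Q} (hr : Reach A φ u g v) :
    Reach A' φ u g v := mono_congr hA (fun _ _ => rfl) hr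

/-- Connectivity does not depend on the labelling. -/
theorem relabel {Q' : Type} [Group Q'] (ψ : V × Λ × V → Q') {u v : V} {g : Q}
    (hr : Reach A φ u g v) : ∃ g', Reach A ψ u g' v := by
  induction hr with
  | refl => exact ⟨1, Reach.refl⟩
  | fwd _ he ih => obtain ⟨g', h⟩ := ih; exact ⟨_, h.fwd he⟩
  | bwd _ he ih => obtain ⟨g', h⟩ := ih; exact ⟨_, h.bwd he⟩

theorem mem_of_closed {U : Set V} (hU : ∀ e ∈ A, (e.1 ∈ U ↔ e.2.2 ∈ U)) {u v : V} {g : Q}
    (hr : Reach A φ u g v) (hu : u ∈ U) : v ∈ U := by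
  induction hr with
  | refl => exact hu
  | fwd _ he ih => exact (hU _ he).1 ih
  | bwd _ he ih => exact (hU _ he).2 ih

theorem label_mem {S : Subgroup Q} (hS : ∀ e ∈ A, φ e ∈ S) {u v : V} {g : Q}
    (hr : Reach A φ u g v) : g ∈ S := by
  induction hr with
  | refl => exact S.one_mem
  | fwd _ he ih => exact S.mul_mem ih (hS _ he)
  | bwd _ he ih => exact S.mul_mem ih (S.inv_mem (hS _ he))

end Reach

/-- The holonomy group at `u`. -/
def Hol {V Λ Q : Type} [Group Q] (A : Set (V × Λ × V)) (φ : V × Λ × V → Q) (u : V) :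
    Subgroup Q where
  carrier := {g | Reach A φ u g u}
  one_mem' := Reach.refl
  mul_mem' := fun h h' => Reach.trans h h'
  inv_mem' := fun h => Reach.symm h

theorem mem_Hol {V Λ Q : Type} [Group Q] {A : Set (V × Λ × V)} {φ : V × Λ × V → Q} {u : V}
    {g : Q} : g ∈ Hol A φ u ↔ Reach A φ u g u := Iff.rfl

/-- Spanning tree: a finite set `U` of vertices (the component of `v₀`), tree edges `Tr` and
potentials `pot`. -/
theorem exists_tree {V Λ Q : Type} [Group Q] (A : Finset (V × Λ × V)) (φ : V × Λ × V → Q)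
    (v₀ : V) :
    ∃ (U : Finset V) (Tr : Finset (V × Λ × V)) (pot : V → Q), v₀ ∈ U ∧ pot v₀ = 1 ∧ Tr ⊆ A ∧
      Tr.card + 1 = U.card ∧ (∀ v ∈ U, Reach (A : Set _) φ v₀ (pot v) v) ∧
      (∀ e ∈ Tr, e.1 ∈ U ∧ e.2.2 ∈ U ∧ pot e.1 * φ e = pot e.2.2) ∧
      (∀ e ∈ A, (e.1 ∈ U ↔ e.2.2 ∈ U)) := by
  classical
  let Good : ℕ → Prop := fun n => ∃ (U : Finset V) (Tr : Finset (V × Λ × V)) (pot : V → Q),
    v₀ ∈ U ∧ pot v₀ = 1 ∧ Tr ⊆ A ∧
      Tr.card + 1 = U.card ∧ (∀ v ∈ U, Reach (A : Set _) φ v₀ (pot v) v) ∧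
      (∀ e ∈ Tr, e.1 ∈ U ∧ e.2.2 ∈ U ∧ pot e.1 * φ e = pot e.2.2) ∧ Tr.card = n
  have h0 : Good 0 := ⟨{v₀}, ∅, fun _ => 1, by simp, rfl, by simp, by simp,
    by simpa using Reach.refl, by simp, rfl⟩
  have hb : ∀ n, Good n → n ≤ A.card := by
    rintro n ⟨U, Tr, pot, -, -, h, -, -, -, rfl⟩
    exact Finset.card_le_card h
  let n := Nat.findGreatest Good A.card
  have hn : Good n := Nat.findGreatest_spec (Nat.zero_le _) h0
  have hmax : ¬ Good (n + 1) := fun h =>
    Nat.findGreatest_is_greatest (Nat.lt_succ_self n) (hb _ h) h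
  obtain ⟨U, Tr, pot, h1, h2, h3, h4, h5, h6, h7⟩ := hn
  refine ⟨U, Tr, pot, h1, h2, h3, h4, h5, h6, ?_⟩
  -- extension step
  have ext : ∀ e ∈ A, ∀ (z : V) (g : Q), z ∉ U → Reach (A : Set _) φ v₀ g z →
      (e.1 ∈ U ∧ e.2.2 = z ∧ pot e.1 * φ e = g) ∨ (e.2.2 ∈ U ∧ e.1 = z ∧ g * φ e = pot e.2.2) →
      False := by
    intro e he z g hz hr hc
    apply hmax
    have heT : e ∉ Tr := by
      intro h
      rcases hc with ⟨_, h', _⟩ | ⟨_, h', _⟩
      · exact hz (h' ▸ (h6 e h).2.1)
      · exact hz (h' ▸ (h6 e h).1)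
    have hne : ∀ v ∈ U, v ≠ z := fun v hv h => hz (h ▸ hv)
    refine ⟨insert z U, insert e Tr, Function.update pot z g, by simp [h1], ?_, ?_, ?_, ?_, ?_, ?_⟩
    · rw [Function.update_of_ne (hne _ h1), h2]
    · exact Finset.insert_subset he h3
    · rw [Finset.card_insert_of_notMem heT, Finset.card_insert_of_notMem hz, h4]
    · intro v hv
      rcases Finset.mem_insert.1 hv with rfl | hv
      · simpa using hr
      · rw [Function.update_of_ne (hne _ hv)]; exact h5 v hv
    · intro e' he'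
      rcases Finset.mem_insert.1 he' with rfl | he'
      · rcases hc with ⟨ha, hb, hc⟩ | ⟨ha, hb, hc⟩
        · refine ⟨by simp [ha], by simp [hb], ?_⟩
          rw [Function.update_of_ne (hne _ ha), hb, Function.update_self, hc]
        · refine ⟨by simp [hb], by simp [ha], ?_⟩
          rw [Function.update_of_ne (hne _ ha), hb, Function.update_self, hc]
      · obtain ⟨ha, hb, hc⟩ := h6 e' he'
        refine ⟨by simp [ha], by simp [hb], ?_⟩
        rw [Function.update_of_ne (hne _ ha), Function.update_of_ne (hne _ hb), hc]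
    · rw [Finset.card_insert_of_notMem heT, h7]
  intro e he
  constructor
  · intro h
    by_contra hz
    exact ext e he e.2.2 (pot e.1 * φ e) hz ((h5 _ h).trans (Reach.edge he))
      (Or.inl ⟨h, rfl, rfl⟩)
  · intro h
    by_contra hz
    exact ext e he e.1 (pot e.2.2 * (φ e)⁻¹) hz ((h5 _ h).trans (Reach.edge he).symm)
      (Or.inr ⟨h, rfl, by simp⟩)

/-- The holonomy group of a connected graph has at most `E - V + 1` generators. -/
theorem rank_lemma {V Λ Q : Type} [Group Q] (A : Finset (V × Λ × V)) (φ : V × Λ × V → Q)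
    (Vs : Finset V) (v₀ : V) (hconn : ∀ v ∈ Vs, ∃ g, Reach (A : Set _) φ v₀ g v) :
    ∃ S : Finset Q, S.card + Vs.card ≤ A.card + 1 ∧
      Subgroup.closure (S : Set Q) = Hol (A : Set _) φ v₀ := by
  classical
  obtain ⟨U, Tr, pot, h1, h2, h3, h4, h5, h6, h7⟩ := exists_tree A φ v₀
  have hVU : Vs ⊆ U := by
    intro v hv
    obtain ⟨g, hg⟩ := hconn v hv
    exact Reach.mem_of_closed (U := (U : Set V)) (fun e he => h7 e he) hg h1
  let S : Finset Q := ((A \ Tr).filter (fun e => e.1 ∈ U)).image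
    (fun e => pot e.1 * φ e * (pot e.2.2)⁻¹)
  refine ⟨S, ?_, ?_⟩
  · have hc : S.card ≤ (A \ Tr).card :=
      Finset.card_image_le.trans (Finset.card_filter_le _ _)
    rw [Finset.card_sdiff_of_subset h3] at hc
    have := Finset.card_le_card h3
    have := Finset.card_le_card hVU
    omega
  · apply le_antisymm
    · rw [Subgroup.closure_le]
      intro s hs
      obtain ⟨e, he, rfl⟩ := Finset.mem_image.1 hs
      obtain ⟨he, heU⟩ := Finset.mem_filter.1 he
      have heA := (Finset.mem_sdiff.1 he).1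
      exact ((h5 _ heU).trans (Reach.edge heA)).trans (h5 _ ((h7 e heA).1 heU)).symm
    · have key : ∀ g v, Reach (A : Set _) φ v₀ g v →
          v ∈ U ∧ g * (pot v)⁻¹ ∈ Subgroup.closure (S : Set Q) := by
        have hedge : ∀ e ∈ A, e.1 ∈ U →
            pot e.1 * φ e * (pot e.2.2)⁻¹ ∈ Subgroup.closure (S : Set Q) := by
          intro e he hU
          by_cases hT : e ∈ Tr
          · rw [(h6 e hT).2.2]; simp
          · exact Subgroup.subset_closure (Finset.mem_image.2
              ⟨e, Finset.mem_filter.2 ⟨Finset.mem_sdiff.2 ⟨he, hT⟩, hU⟩, rfl⟩)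
        intro g v hr
        induction hr with
        | refl => exact ⟨h1, by simp [h2]⟩
        | @fwd g v l w _ he ih =>
          refine ⟨(h7 _ he).1 ih.1, ?_⟩
          have := Subgroup.mul_mem _ ih.2 (hedge _ he ih.1)
          simpa [mul_assoc] using this
        | @bwd g v l w _ he ih =>
          have hw : w ∈ U := (h7 _ he).2 ih.1
          refine ⟨hw, ?_⟩
          have := Subgroup.mul_mem _ ih.2 (Subgroup.inv_mem _ (hedge _ he hw))
          simpa [mul_assoc] using this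
      intro g hg
      have := (key g v₀ hg).2
      simpa [h2] using this

/-- One edge labelled by a nonempty word is replaced by a path through fresh vertices. -/
theorem subdivide_one {V Λ G : Type} [Infinite V] [Group G] (ev : Λ → G)
    (w : List (Λ × Bool)) : ∀ (a : Λ × Bool) (u v : V) (Vs : Finset V), u ∈ Vs → v ∈ Vs →
    ∃ (A' : Finset (V × Λ × V)) (Vs' : Finset V), Vs ⊆ Vs' ∧
      (∀ e ∈ A', e.1 ∈ Vs' ∧ e.2.2 ∈ Vs') ∧ A'.card + Vs.card ≤ 1 + Vs'.card ∧
      (∀ z ∈ Vs', z ∈ Vs ∨ ∃ g, Reach (A' : Set _) (fun e => ev e.2.1) u g z) ∧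
      Reach (A' : Set _) (fun e => ev e.2.1) u (FreeGroup.lift ev (FreeGroup.mk (a :: w))) v := by
  classical
  have one : ∀ (a : Λ × Bool) (u v : V), ∃ e : V × Λ × V,
      ((e.1 = u ∧ e.2.2 = v) ∨ (e.1 = v ∧ e.2.2 = u)) ∧
      Reach ({e} : Set _) (fun e => ev e.2.1) u (FreeGroup.lift ev (FreeGroup.mk [a])) v := by
    rintro ⟨l, b⟩ u v
    cases b
    · refine ⟨(v, l, u), Or.inr ⟨rfl, rfl⟩, ?_⟩
      refine (Reach.edge' (φ := fun e => ev e.2.1) (u := v) (l := l) (v := u) (Set.mem_singleton _)).symm.cast ?_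
      simp
    · refine ⟨(u, l, v), Or.inl ⟨rfl, rfl⟩, ?_⟩
      refine (Reach.edge' (φ := fun e => ev e.2.1) (u := u) (l := l) (v := v) (Set.mem_singleton _)).cast ?_
      simp
  induction w with
  | nil =>
    intro a u v Vs hu hv
    obtain ⟨e, he, hr⟩ := one a u v
    refine ⟨{e}, Vs, subset_rfl, ?_, by simp, fun z hz => Or.inl hz, by simpa using hr⟩
    intro e' he'
    rw [Finset.mem_singleton.1 he']
    rcases he with ⟨h1, h2⟩ | ⟨h1, h2⟩ <;> simp [h1, h2, hu, hv]
  | cons b w ih =>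
    intro a u v Vs hu hv
    obtain ⟨z, hz⟩ := Infinite.exists_notMem_finset Vs
    obtain ⟨e, he, hr⟩ := one a u z
    obtain ⟨A', Vs', h1, h2, h3, h4, h5⟩ := ih b z v (insert z Vs) (by simp) (by simp [hv])
    have hr' : Reach ((insert e A' : Finset _) : Set (V × Λ × V)) (fun e => ev e.2.1) u
        (FreeGroup.lift ev (FreeGroup.mk [a])) z := hr.mono (by simp)
    refine ⟨insert e A', Vs', (Finset.subset_insert _ _).trans h1, ?_, ?_, ?_, ?_⟩
    · intro e' he'
      rcases Finset.mem_insert.1 he' with rfl | he'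
      · have hu' : u ∈ Vs' := h1 (by simp [hu])
        have hz' : z ∈ Vs' := h1 (by simp)
        rcases he with ⟨h1, h2⟩ | ⟨h1, h2⟩ <;> simp [h1, h2, hu', hz']
      · exact h2 e' he'
    · have := Finset.card_insert_le e A'
      rw [Finset.card_insert_of_notMem hz] at h3
      omega
    · intro y hy
      rcases h4 y hy with h | ⟨g, h⟩
      · rcases Finset.mem_insert.1 h with rfl | h
        · exact Or.inr ⟨_, hr'⟩
        · exact Or.inl h
      · exact Or.inr ⟨_, hr'.trans (h.mono (by simp))⟩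
    · refine (hr'.trans (h5.mono (by simp))).cast ?_
      rw [← map_mul, FreeGroup.mul_mk]
      rfl

/-- Subdivision of a graph labelled by group elements into a graph labelled by generators. -/
theorem subdivide {V Λ G : Type} [Infinite V] [Group G] [Nonempty Λ] (ev : Λ → G)
    (hev : Subgroup.closure (Set.range ev) = ⊤) (A : Finset (V × G × V)) (Vs : Finset V)
    (hA : ∀ e ∈ A, e.1 ∈ Vs ∧ e.2.2 ∈ Vs) :
    ∃ (A' : Finset (V × Λ × V)) (Vs' : Finset V), Vs ⊆ Vs' ∧
      (∀ e ∈ A', e.1 ∈ Vs' ∧ e.2.2 ∈ Vs') ∧ A'.card + Vs.card ≤ A.card + Vs'.card ∧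
      (∀ z ∈ Vs', ∃ u ∈ Vs, ∃ g, Reach (A' : Set _) (fun e => ev e.2.1) u g z) ∧
      ∀ e ∈ A, Reach (A' : Set _) (fun e => ev e.2.1) e.1 e.2.1 e.2.2 := by
  classical
  have hw : ∀ g : G, ∃ (a : Λ × Bool) (w : List (Λ × Bool)),
      FreeGroup.lift ev (FreeGroup.mk (a :: w)) = g := by
    intro g
    have : g ∈ (FreeGroup.lift ev).range := by
      rw [FreeGroup.range_lift_eq_closure, hev]; trivial
    obtain ⟨x, rfl⟩ := this
    obtain ⟨l⟩ := ‹Nonempty Λ›
    refine ⟨(l, true), (l, false) :: x.toWord, ?_⟩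
    have : FreeGroup.mk ((l, true) :: (l, false) :: x.toWord) =
        FreeGroup.mk [(l, true)] * (FreeGroup.mk [(l, false)] * FreeGroup.mk x.toWord) := by
      simp [FreeGroup.mul_mk]
    rw [this, FreeGroup.mk_toWord, map_mul, map_mul]
    simp
  induction A using Finset.induction_on with
  | empty =>
    exact ⟨∅, Vs, subset_rfl, by simp, by simp, fun z hz => ⟨z, hz, 1, Reach.refl⟩, by simp⟩
  | insert e A he ih =>
    obtain ⟨A', Vs', h1, h2, h3, h4, h5⟩ := ih (fun e' he' => hA e' (by simp [he']))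
    obtain ⟨a, w, hw⟩ := hw e.2.1
    have heV := hA e (by simp)
    obtain ⟨A'', Vs'', g1, g2, g3, g4, g5⟩ :=
      subdivide_one ev w a e.1 e.2.2 Vs' (h1 heV.1) (h1 heV.2)
    refine ⟨A' ∪ A'', Vs'', h1.trans g1, ?_, ?_, ?_, ?_⟩
    · intro e' he'
      rcases Finset.mem_union.1 he' with h | h
      · exact ⟨g1 (h2 e' h).1, g1 (h2 e' h).2⟩
      · exact g2 e' h
    · have := Finset.card_union_le A' A''
      rw [Finset.card_insert_of_notMem he]
      omega
    · intro z hz
      rcases g4 z hz with h | ⟨g, h⟩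
      · obtain ⟨u, hu, g, h⟩ := h4 z h
        exact ⟨u, hu, g, h.mono (by simp)⟩
      · exact ⟨e.1, heV.1, g, h.mono (by simp)⟩
    · intro e' he'
      rcases Finset.mem_insert.1 he' with rfl | he'
      · exact (g5.mono (by simp)).cast hw
      · exact (h5 e' he').mono (by simp)

end Crest.Agent.R191
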