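import Crest.Agent.R191.Upper

/-!
Task R191-T: the cost of the Bernoulli shift is at least the combinatorial cost of asymptotically
free finite actions.  (`bern_free` from `Upper.lean` may be used; it is proved in task R191-U.)

Plan.  Let `Φ` be a generating graphing of cost `< ∞`, write `Φ i = (γ i, A i)`; fix `ε > 0`.
1. A chain is a `List (ℕ × Bool)`.  For a family of sets `A'` define recursively
   `Valid A' : List (ℕ × Bool) → Bern Γ → Prop` (`(i, true) :: c` valid at `ω` iff `ω ∈ A' i` and `c`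
   valid at `γ i • ω`; `(i,false) :: c` valid iff `(γ i)⁻¹ • ω ∈ A' i` and `c` valid at
   `(γ i)⁻¹ • ω`) and `prod : List (ℕ × Bool) → Γ` (`prod ((i,true) :: c) = prod c * γ i`).
   `EqvGen step ω ω'` gives a chain `c` valid at `ω` with `prod c • ω = ω'` (append, reverse; or first
   `Relation.EqvGen` ↔ `ReflTransGen` of the symmetrised step).  Off the null set
   `N ∪ ⋃_{g ≠ 1} Fix g` (countable union, `bern_free`), `prod c • ω = s • ω` forces `prod c = s`.
   So for `s ∈ gens` the measurable sets `U c = {ω | Valid A c ω}`, `prod c = s`, cover almost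
   everything; countably many chains, so a finite set `𝒞 s` of chains has
   `μ (⋃ c ∈ 𝒞 s, U c)ᶜ ≤ ε` (continuity of measure, e.g. `tendsto_measure_iInter`/`iUnion` along an
   enumeration, or `Filter.atTop` on `Finset`).
2. Let `I` be the finite set of indices in these chains.  Approximate `A i` (`i ∈ I`) by
   `A' i ∈ measurableCylinders` with `μ (A i ∆ A' i) < δ`
   (`Measure.MeasureDense.of_generateFrom_isSetAlgebra_finite`, `isSetAlgebra_measurableCylinders`,
   `generateFrom_measurableCylinders`, `MeasureDense.approx`).  By induction on `c` and invariance,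
   `μ (U c \ U' c) ≤ c.length * δ`.  Put `B s = (⋃ c ∈ 𝒞 s, U' c)ᶜ`, `μ (B s) ≤ 2ε` for small `δ`.
   All `A' i`, `B s` depend on finitely many coordinates: the class of measurable sets `E` with
   `∃ D₀ : Finset Γ, ∀ ω ω', (∀ h ∈ D₀, ω h = ω' h) → (ω ∈ E ↔ ω' ∈ E)` is closed under
   `∩, ∪, ᶜ`, preimage by `g • ·`.
3. For a finite `Γ`-set `X`, `lam : X → unitInterval`, `x : X`, let `pt lam x : Bern Γ := fun h =>
   lam (h⁻¹ • x)`; `pt lam (g • x) = g • pt lam x`.  If `h ↦ h⁻¹ • x` is injective on `D₀` and `E` is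
   measurable and depends on `D₀` only, then `(Measure.pi volume) {lam | pt lam x ∈ E} = μ E`
   (both sides are the measure of the base of the cylinder under `Measure.pi` on `D₀ → I`:
   `infinitePi_map_restrict`, `infinitePi_eq_pi`, independence under an injective reindexing).
   The number of `x` where injectivity fails is `≤ |D₀|² ε' |X|` when `D ⊇ {h * h'⁻¹ | h,h' ∈ D₀}`.
4. `Δ lam = {(γ i, x) | i ∈ I, pt lam x ∈ A' i} ∪ {(s, x) | s ∈ gens, pt lam x ∈ B s}`;
   `Gen (Δ lam) x s` for all `x`, `s ∈ gens` (induction on the chain).  The expectation of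
   `∑_{i∈I} #{x | pt lam x ∈ A' i} + ∑_s #{x | pt lam x ∈ B s}` is at most
   `(∑_{i ∈ I} μ (A i) + |I| δ + 2 ε |gens|) |X| + (|I| + |gens|) |D₀|² ε' |X|`; choose `lam` not above
   the expectation (`exists_le_lintegral` / `exists_le_integral`).  Hence
   `a - ε' ≤ cost + small`, let the small parameters tend to `0` (`ENNReal.le_of_forall_pos_le_add`).
-/

set_option autoImplicit false

namespace Crest.Agent.R191

open MeasureTheory

namespace Tr

open scoped symmDiff

variable {Γ : Type}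

/-- `E` depends only on the coordinates in `D`. -/
def Dep (E : Set (Bern Γ)) (D : Finset Γ) : Prop :=
  ∀ ω ω' : Bern Γ, (∀ h ∈ D, ω h = ω' h) → ω ∈ E → ω' ∈ E

theorem Dep.mono {E : Set (Bern Γ)} {D D' : Finset Γ} (h : Dep E D) (hD : D ⊆ D') : Dep E D' :=
  fun ω ω' hh => h ω ω' fun k hk => hh k (hD hk)

theorem Dep.compl {E : Set (Bern Γ)} {D : Finset Γ} (h : Dep E D) : Dep Eᶜ D :=
  fun ω ω' hh h1 h2 => h1 (h ω' ω (fun k hk => (hh k hk).symm) h2)

theorem approx (A : Set (Bern Γ)) (hA : MeasurableSet A) {δ : ℝ} (hδ : 0 < δ) :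
    ∃ (A' : Set (Bern Γ)) (D : Finset Γ), MeasurableSet A' ∧ Dep A' D ∧
      (bernMeasure Γ).real (A' ∆ A) ≤ δ := by
  obtain ⟨t, ht, hlt⟩ := exists_measure_symmDiff_lt_of_generateFrom_isSetRing
    (μ := bernMeasure Γ) (C := measurableCylinders (fun _ : Γ => unitInterval))
    isSetRing_measurableCylinders
    ⟨{Set.univ}, Set.countable_singleton _, by
      intro x hx
      rw [Set.mem_singleton_iff.1 hx]
      exact univ_mem_measurableCylinders _, by simp⟩
    generateFrom_measurableCylinders.symm hA (ENNReal.ofReal_pos.2 hδ)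
  have hm : MeasurableSet t := MeasurableSet.of_mem_measurableCylinders ht
  obtain ⟨s, S, hS, rfl⟩ := (mem_measurableCylinders _).1 ht
  refine ⟨_, s, hm, ?_, ENNReal.toReal_le_of_le_ofReal hδ.le hlt.le⟩
  intro ω ω' hh h1
  have : s.restrict (ω' : Γ → unitInterval) = s.restrict (ω : Γ → unitInterval) :=
    funext fun k => (hh k k.2).symm
  change s.restrict (ω' : Γ → unitInterval) ∈ S
  rw [this]
  exact h1

theorem law_aux {T : Type} (E : Set (Bern Γ)) (D : Finset Γ) (hE : MeasurableSet E) (hD : Dep E D)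
    (e : Γ → T) (he : Set.InjOn e D) :
    (bernMeasure T) {lam : Bern T | (fun h => lam (e h) : Bern Γ) ∈ E} = bernMeasure Γ E := by
  classical
  let σ : (D → unitInterval) → Bern Γ := fun y h => if hh : h ∈ D then y ⟨h, hh⟩ else 0
  have hσ : Measurable σ := by
    refine measurable_pi_lambda _ fun h => ?_
    by_cases hh : h ∈ D
    · simp only [σ, hh, dif_pos]; exact measurable_pi_apply _
    · simp only [σ, hh, dif_neg, not_false_iff]; exact measurable_const
  have key : ∀ {T : Type} (e : Γ → T), Set.InjOn e D →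
      (bernMeasure T) {lam : Bern T | (fun h => lam (e h) : Bern Γ) ∈ E} =
        Measure.infinitePi (fun _ : D => (volume : Measure unitInterval)) (σ ⁻¹' E) := by
    intro T e he
    have hinj : Function.Injective (fun k : D => e k) := fun a b h =>
      Subtype.ext (he a.2 b.2 h)
    have h1 := Measure.map_infinitePi_infinitePi_of_inj
      (P := fun _ : T => (volume : Measure unitInterval)) hinj
    rw [← h1, Measure.map_apply (by fun_prop) (hσ hE)]
    unfold bernMeasure
    congr 1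
    ext lam
    constructor
    · intro h
      exact hD _ _ (fun k hk => by simp [σ, hk]) h
    · intro h
      exact hD _ _ (fun k hk => by simp [σ, hk]) h
  rw [key e he, ← key id (Set.injOn_id _)]
  rfl

variable [Group Γ]

theorem Dep.smul [DecidableEq Γ] {E : Set (Bern Γ)} {D : Finset Γ} (h : Dep E D) (k : Γ) :
    Dep {ω | k • ω ∈ E} (D.image fun h => k⁻¹ * h) :=
  fun ω ω' hh h1 => h _ _ (fun j hj => hh _ (Finset.mem_image_of_mem _ hj)) h1

/-- The point of the Bernoulli space seen from `x`. -/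
def pt {X : Type} [MulAction Γ X] (lam : Bern X) (x : X) : Bern Γ := fun h => lam (h⁻¹ • x)

theorem pt_smul {X : Type} [MulAction Γ X] (lam : Bern X) (x : X) (g : Γ) :
    pt (Γ := Γ) lam (g • x) = g • pt (Γ := Γ) lam x := by
  funext h
  rw [bern_smul_apply]
  simp [pt, mul_smul]

theorem measurable_pt {X : Type} [MulAction Γ X] (x : X) :
    Measurable fun lam : Bern X => pt (Γ := Γ) lam x :=
  measurable_pi_lambda _ fun _ => measurable_pi_apply _

open Classical in
theorem exists_lam {κ : Type} (J : Finset κ) (E : κ → Set (Bern Γ)) (D : Finset Γ)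
    (hE : ∀ j ∈ J, MeasurableSet (E j) ∧ Dep (E j) D) (X : Type) [Fintype X] [MulAction Γ X]
    (bad : Finset X) (hbad : ∀ x ∉ bad, Set.InjOn (fun h : Γ => h⁻¹ • x) D) :
    ∃ lam : Bern X, (((J ×ˢ Finset.univ).filter fun p : κ × X => pt lam p.2 ∈ E p.1).card : ℝ) ≤
      Fintype.card X * ∑ j ∈ J, (bernMeasure Γ).real (E j) + J.card * bad.card := by
  let S : κ × X → Set (Bern X) := fun p => {lam | pt (Γ := Γ) lam p.2 ∈ E p.1}
  have hS : ∀ p ∈ J ×ˢ (Finset.univ : Finset X), MeasurableSet (S p) := fun p hp =>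
    measurable_pt p.2 (hE p.1 (Finset.mem_product.1 hp).1).1
  let f : Bern X → ℝ := fun lam => ∑ p ∈ J ×ˢ Finset.univ, (S p).indicator 1 lam
  have hint : ∀ p ∈ J ×ˢ (Finset.univ : Finset X),
      Integrable ((S p).indicator (1 : Bern X → ℝ)) (bernMeasure X) := fun p hp =>
    (integrable_const (1 : ℝ)).indicator (hS p hp)
  obtain ⟨lam, hlam⟩ := exists_le_integral (μ := bernMeasure X) (f := f)
    (integrable_finset_sum _ hint)
  refine ⟨lam, ?_⟩
  have h1 : (((J ×ˢ Finset.univ).filter fun p : κ × X => pt lam p.2 ∈ E p.1).card : ℝ) = f lam := by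
    rw [Finset.card_filter]
    push_cast
    refine Finset.sum_congr rfl fun p _ => ?_
    simp [S, Set.indicator_apply]
  rw [h1]
  refine hlam.trans ?_
  rw [integral_finset_sum _ hint]
  have h2 : ∀ p ∈ J ×ˢ (Finset.univ : Finset X),
      ∫ a, (S p).indicator (1 : Bern X → ℝ) a ∂(bernMeasure X) ≤
        (bernMeasure Γ).real (E p.1) + if p.2 ∈ bad then 1 else 0 := by
    intro p hp
    rw [integral_indicator_one (hS p hp)]
    by_cases hb : p.2 ∈ bad
    · rw [if_pos hb]
      have := measureReal_le_one (μ := bernMeasure X) (s := S p)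
      have := measureReal_nonneg (μ := bernMeasure Γ) (s := E p.1)
      linarith
    · rw [if_neg hb, add_zero]
      have := law_aux (E p.1) D (hE p.1 (Finset.mem_product.1 hp).1).1
        (hE p.1 (Finset.mem_product.1 hp).1).2 (fun h : Γ => h⁻¹ • p.2) (hbad _ hb)
      exact le_of_eq (congrArg ENNReal.toReal this)
  refine (Finset.sum_le_sum h2).trans (le_of_eq ?_)
  rw [Finset.sum_product]
  simp [Finset.sum_add_distrib, Finset.mul_sum]

/-- Combinatorial reachability in the group along a pattern of allowed (position, index) pairs. -/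
inductive Good (γ : ℕ → Γ) (S : Set (Γ × ℕ)) : Γ → Prop
  | one : Good γ S 1
  | fwd {g : Γ} {i : ℕ} : Good γ S g → (g, i) ∈ S → Good γ S (γ i * g)
  | bwd {g : Γ} {i : ℕ} : Good γ S g → ((γ i)⁻¹ * g, i) ∈ S → Good γ S ((γ i)⁻¹ * g)

theorem Good.mono {γ : ℕ → Γ} {S S' : Set (Γ × ℕ)} (h : S ⊆ S') {g : Γ} (hg : Good γ S g) :
    Good γ S' g := by
  induction hg with
  | one => exact Good.one
  | fwd _ e ih => exact ih.fwd (h e)
  | bwd _ e ih => exact ih.bwd (h e)

theorem Good.finite {γ : ℕ → Γ} {S : Set (Γ × ℕ)} {g : Γ} (hg : Good γ S g) :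
    ∃ F : Finset (Γ × ℕ), (F : Set (Γ × ℕ)) ⊆ S ∧ Good γ F g := by
  classical
  induction hg with
  | one => exact ⟨∅, by simp, Good.one⟩
  | @fwd g i _ e ih =>
    obtain ⟨F, h1, h2⟩ := ih
    refine ⟨insert (g, i) F, ?_, (h2.mono (by simp)).fwd (by simp)⟩
    rw [Finset.coe_insert]
    exact Set.insert_subset e h1
  | @bwd g i _ e ih =>
    obtain ⟨F, h1, h2⟩ := ih
    refine ⟨insert ((γ i)⁻¹ * g, i) F, ?_, (h2.mono (by simp)).bwd (by simp)⟩
    rw [Finset.coe_insert]
    exact Set.insert_subset e h1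

theorem Good.gen {γ : ℕ → Γ} {S : Set (Γ × ℕ)} {X : Type} [MulAction Γ X] {Δ : Set (Γ × X)} {x : X}
    (h : ∀ p ∈ S, (γ p.2, p.1 • x) ∈ Δ) {g : Γ} (hg : Good γ S g) : Gen Δ x g := by
  induction hg with
  | one => exact Gen.one
  | fwd _ e ih => exact ih.fwd (h _ e)
  | bwd _ e ih => exact ih.bwd (by simpa [mul_smul] using h _ e)

theorem good_of_eqvGen {Y : Type} [MulAction Γ Y] (Φ : ℕ → Γ × Set Y) (ω : Y)
    (hfree : ∀ g : Γ, g • ω = ω → g = 1) {s : Γ}
    (h : Relation.EqvGen (Crest.Dynamics.GraphingStep Φ) ω (s • ω)) :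
    Good (fun i => (Φ i).1) {p | p.1 • ω ∈ (Φ p.2).2} s := by
  have hinj : ∀ g h : Γ, g • ω = h • ω → g = h := by
    intro g h e
    have := hfree (h⁻¹ * g) (by rw [mul_smul, e, inv_smul_smul])
    rw [inv_mul_eq_one] at this
    exact this.symm
  have key : ∀ y z : Y, Relation.EqvGen (Crest.Dynamics.GraphingStep Φ) y z →
      (∃ k : Γ, z = k • y) ∧ ∀ g h : Γ, y = g • ω → z = h • ω →
        (Good (fun i => (Φ i).1) {p | p.1 • ω ∈ (Φ p.2).2} g ↔
          Good (fun i => (Φ i).1) {p | p.1 • ω ∈ (Φ p.2).2} h) := by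
    intro y z hyz
    induction hyz with
    | rel y z hr =>
      obtain ⟨i, hi, rfl⟩ := hr
      refine ⟨⟨_, rfl⟩, ?_⟩
      rintro g h rfl e
      rw [← mul_smul] at e
      obtain rfl := hinj _ _ e
      constructor
      · intro hg
        exact hg.fwd (i := i) hi
      · intro hg
        have := hg.bwd (i := i) (by simpa using hi)
        simpa using this
    | refl y =>
      refine ⟨⟨1, (one_smul _ _).symm⟩, ?_⟩
      rintro g h rfl e
      rw [hinj _ _ e]
    | symm y z _ ih =>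
      obtain ⟨⟨k, rfl⟩, h2⟩ := ih
      exact ⟨⟨k⁻¹, (inv_smul_smul _ _).symm⟩, fun g h e1 e2 => (h2 h g e2 e1).symm⟩
    | trans y z w _ _ ih1 ih2 =>
      obtain ⟨⟨k, rfl⟩, h1⟩ := ih1
      obtain ⟨⟨k', rfl⟩, h2⟩ := ih2
      refine ⟨⟨k' * k, (mul_smul _ _ _).symm⟩, ?_⟩
      rintro g h rfl e
      exact (h1 g (k * g) rfl (mul_smul _ _ _).symm).trans (h2 (k * g) h (mul_smul _ _ _).symm e)
  exact ((key _ _ h).2 1 s (one_smul _ _).symm rfl).1 Good.one

/-- The points at which the finite pattern `F` suffices to reach all generators. -/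
def U (γ : ℕ → Γ) (gens : Finset Γ) (A : ℕ → Set (Bern Γ)) (F : Finset (Γ × ℕ)) : Set (Bern Γ) :=
  {ω | ∃ F' ∈ F.powerset, (∀ s ∈ gens, Good γ (F' : Set (Γ × ℕ)) s) ∧
    ∀ p ∈ F', p.1 • ω ∈ A p.2}

theorem measurable_smul' (k : Γ) : Measurable fun ω : Bern Γ => k • ω :=
  measurable_pi_lambda _ fun _ => measurable_pi_apply _

theorem measurableSet_U (γ : ℕ → Γ) (gens : Finset Γ) (A : ℕ → Set (Bern Γ))
    (hA : ∀ i, MeasurableSet (A i)) (F : Finset (Γ × ℕ)) : MeasurableSet (U γ gens A F) := by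
  have : U γ gens A F = ⋃ F' ∈ F.powerset, ({_ω | ∀ s ∈ gens, Good γ (F' : Set (Γ × ℕ)) s} ∩
      ⋂ p ∈ F', (fun ω : Bern Γ => p.1 • ω) ⁻¹' A p.2) := by
    ext ω
    simp only [U, Set.mem_setOf_eq, Set.mem_iUnion, Set.mem_inter_iff, Set.mem_iInter,
      Set.mem_preimage, exists_prop]
  rw [this]
  refine Finset.measurableSet_biUnion _ fun F' _ => (MeasurableSet.const _).inter ?_
  exact Finset.measurableSet_biInter _ fun p _ => measurable_smul' p.1 (hA p.2)

theorem U_mono (γ : ℕ → Γ) (gens : Finset Γ) (A : ℕ → Set (Bern Γ)) : Monotone (U γ gens A) := by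
  rintro F G hFG ω ⟨F', h1, h2⟩
  exact ⟨F', Finset.powerset_mono.2 hFG h1, h2⟩

theorem exists_U [Countable Γ] (gens : Finset Γ) (Φ : ℕ → Γ × Set (Bern Γ))
    (hΦ : Crest.Dynamics.Generates (Γ := Γ) (bernMeasure Γ) Φ) {ε : ℝ} (hε : 0 < ε) :
    ∃ F : Finset (Γ × ℕ),
      (bernMeasure Γ).real (U (fun i => (Φ i).1) gens (fun i => (Φ i).2) F)ᶜ ≤ ε := by
  classical
  obtain ⟨hmeas, N, hN, hgen⟩ := hΦ
  have hfree := (bern_free Γ).2
  have hnull : bernMeasure Γ (⋂ F, (U (fun i => (Φ i).1) gens (fun i => (Φ i).2) F)ᶜ) = 0 := by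
    have h0 : bernMeasure Γ (N ∪ ⋃ g : {g : Γ // g ≠ 1}, {x : Bern Γ | g.1 • x = x}) = 0 :=
      measure_union_null hN (measure_iUnion_null fun g => hfree g.1 g.2)
    refine measure_mono_null ?_ h0
    intro ω hω
    by_contra hcon
    simp only [Set.mem_union, Set.mem_iUnion, Set.mem_setOf_eq, not_or, not_exists] at hcon
    have hf : ∀ g : Γ, g • ω = ω → g = 1 := fun g e => by
      by_contra hg
      exact hcon.2 ⟨g, hg⟩ e
    choose F hF1 hF2 using fun s : Γ => (good_of_eqvGen Φ ω hf (hgen ω hcon.1 s)).finite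
    refine Set.mem_iInter.1 hω (gens.biUnion F) ⟨gens.biUnion F, Finset.mem_powerset_self _, ?_, ?_⟩
    · intro s hs
      exact (hF2 s).mono (Finset.coe_subset.2 (Finset.subset_biUnion_of_mem F hs))
    · intro p hp
      obtain ⟨s, _, hp⟩ := Finset.mem_biUnion.1 hp
      exact hF1 s hp
  have ht := tendsto_measure_iInter_atTop (μ := bernMeasure Γ)
    (s := fun F => (U (fun i => (Φ i).1) gens (fun i => (Φ i).2) F)ᶜ)
    (fun F => (measurableSet_U _ gens _ hmeas F).compl.nullMeasurableSet)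
    (fun F G h => Set.compl_subset_compl.2 (U_mono _ _ _ h)) ⟨∅, measure_ne_top _ _⟩
  rw [hnull] at ht
  obtain ⟨F, hF⟩ := (ht.eventually (gt_mem_nhds (ENNReal.ofReal_pos.2 hε))).exists
  exact ⟨F, ENNReal.toReal_le_of_le_ofReal hε.le hF.le⟩

theorem U_approx [Countable Γ] (γ : ℕ → Γ) (gens : Finset Γ) (A A' : ℕ → Set (Bern Γ))
    (hA : ∀ i, MeasurableSet (A i)) (hA' : ∀ i, MeasurableSet (A' i)) (F : Finset (Γ × ℕ)) {δ : ℝ}
    (h : ∀ i, (bernMeasure Γ).real (A' i ∆ A i) ≤ δ) :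
    (bernMeasure Γ).real (U γ gens A' F)ᶜ ≤ (bernMeasure Γ).real (U γ gens A F)ᶜ + F.card * δ := by
  have hsub : (U γ gens A' F)ᶜ ⊆ (U γ gens A F)ᶜ ∪
      ⋃ p ∈ F, (fun ω : Bern Γ => p.1 • ω) ⁻¹' (A' p.2 ∆ A p.2) := by
    intro ω hω
    by_contra hcon
    simp only [Set.mem_union, Set.mem_compl_iff, Set.mem_iUnion, not_or, not_not, not_exists,
      Set.mem_preimage] at hcon
    obtain ⟨⟨F', h1, h2, h3⟩, h4⟩ := hcon
    refine hω ⟨F', h1, h2, fun p hp => ?_⟩
    by_contra h5
    exact h4 p (Finset.mem_powerset.1 h1 hp) (Or.inr ⟨h3 p hp, h5⟩)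
  refine (measureReal_mono hsub (measure_ne_top _ _)).trans ((measureReal_union_le _ _).trans ?_)
  refine add_le_add_right ((measureReal_biUnion_finset_le _ _).trans ?_) _
  have : ∀ p ∈ F, (bernMeasure Γ).real ((fun ω : Bern Γ => p.1 • ω) ⁻¹' (A' p.2 ∆ A p.2)) ≤ δ := by
    intro p _
    rw [((bern_free Γ).1 p.1).measureReal_preimage
      ((hA' p.2).symmDiff (hA p.2)).nullMeasurableSet]
    exact h p.2
  simpa using Finset.sum_le_card_nsmul _ _ _ this

open Classical in
theorem main [Countable Γ] (gens : Finset Γ) (a : ℝ)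
    (hmodel : ∀ (D : Finset Γ) (ε : ℝ), 0 < ε →
      ∃ (X : Type) (_ : Fintype X) (_ : Nonempty X) (_ : MulAction Γ X),
        (∀ γ ∈ D, γ ≠ 1 →
          ((Finset.univ.filter (fun x : X => γ • x = x)).card : ℝ) ≤ ε * Fintype.card X) ∧
        ∀ Δ : Finset (Γ × X), (∀ s ∈ gens, ∀ x : X, Gen (Δ : Set (Γ × X)) x s) →
          (a - ε) * Fintype.card X ≤ Δ.card)
    (Φ : ℕ → Γ × Set (Bern Γ)) (hΦ : Crest.Dynamics.Generates (Γ := Γ) (bernMeasure Γ) Φ)
    {η : ℝ} (hη : 0 < η) :
    ∃ I : Finset ℕ, a ≤ ∑ i ∈ I, (bernMeasure Γ).real (Φ i).2 + 3 * η := by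
  set γ : ℕ → Γ := fun i => (Φ i).1 with hγ
  set A : ℕ → Set (Bern Γ) := fun i => (Φ i).2 with hAdef
  obtain ⟨F, hF⟩ := exists_U gens Φ hΦ (ε := η / (gens.card + 1)) (by positivity)
  let I := F.image Prod.snd
  set δ : ℝ := η / (I.card + gens.card * F.card + 1) with hδ
  have hδ0 : 0 < δ := by positivity
  choose A' D' hA' hD' hAA' using fun i => approx (A i) (hΦ.1 i) hδ0
  let B := (U γ gens A' F)ᶜ
  have hB : (bernMeasure Γ).real B ≤ η / (gens.card + 1) + F.card * δ :=
    (U_approx γ gens A A' hΦ.1 hA' F hAA').trans (by gcongr)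
  let D : Finset Γ := I.biUnion D' ∪ F.biUnion fun p => (D' p.2).image fun h => p.1⁻¹ * h
  let J : Finset (ℕ ⊕ Γ) := I.disjSum gens
  let E : ℕ ⊕ Γ → Set (Bern Γ) := Sum.elim A' fun _ => B
  let lab : ℕ ⊕ Γ → Γ := Sum.elim γ id
  have hE : ∀ j ∈ J, MeasurableSet (E j) ∧ Dep (E j) D := by
    rintro (i | s) hj
    · refine ⟨hA' i, (hD' i).mono ?_⟩
      exact (Finset.subset_biUnion_of_mem D' (Finset.inl_mem_disjSum.1 hj)).trans
        Finset.subset_union_left
    · refine ⟨(measurableSet_U γ gens A' hA' F).compl, Dep.compl ?_⟩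
      rintro ω ω' hh ⟨F', h1, h2, h3⟩
      refine ⟨F', h1, h2, fun p hp => ?_⟩
      refine ((hD' p.2).smul p.1).mono ?_ ω ω' hh (h3 p hp)
      exact (Finset.subset_biUnion_of_mem (fun p => (D' p.2).image fun h => p.1⁻¹ * h)
        (Finset.mem_powerset.1 h1 hp)).trans Finset.subset_union_right
  set ε' : ℝ := η / (J.card * (D.card * D.card) + 1) with hε'
  have hε'0 : 0 < ε' := by positivity
  obtain ⟨X, _, _, _, hfix, hlow⟩ := hmodel ((D ×ˢ D).image fun p => p.1 * p.2⁻¹) ε' hε'0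
  let bad : Finset X := ((D ×ˢ D).filter fun p => p.1 ≠ p.2).biUnion fun p =>
    Finset.univ.filter fun x : X => (p.1 * p.2⁻¹) • x = x
  have hbad : ∀ x ∉ bad, Set.InjOn (fun h : Γ => h⁻¹ • x) D := by
    intro x hx h hh h' hh' e
    by_contra hne
    refine hx (Finset.mem_biUnion.2 ⟨(h, h'), by simpa using ⟨⟨hh, hh'⟩, hne⟩, ?_⟩)
    simp only at e
    simp [mul_smul, ← e]
  have hbadc : (bad.card : ℝ) ≤ D.card * D.card * (ε' * Fintype.card X) := by
    have h1 : (bad.card : ℝ) ≤ ∑ p ∈ (D ×ˢ D).filter fun p => p.1 ≠ p.2,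
        ((Finset.univ.filter fun x : X => (p.1 * p.2⁻¹) • x = x).card : ℝ) := by
      exact_mod_cast Finset.card_biUnion_le
    refine h1.trans ((Finset.sum_le_card_nsmul _ _ (ε' * Fintype.card X) ?_).trans ?_)
    · intro p hp
      obtain ⟨hp1, hp2⟩ := Finset.mem_filter.1 hp
      exact hfix _ (Finset.mem_image_of_mem _ hp1) (by rwa [Ne, mul_inv_eq_one])
    · rw [nsmul_eq_mul]
      have : (((D ×ˢ D).filter fun p => p.1 ≠ p.2).card : ℝ) ≤ D.card * D.card := by
        rw [← Nat.cast_mul, ← Finset.card_product]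
        exact_mod_cast Finset.card_filter_le _ _
      gcongr
  obtain ⟨lam, hlam⟩ := exists_lam J E D hE X bad hbad
  let Δ : Finset (Γ × X) := ((J ×ˢ Finset.univ).filter fun p : (ℕ ⊕ Γ) × X =>
    pt lam p.2 ∈ E p.1).image fun p => (lab p.1, p.2)
  have hgen : ∀ s ∈ gens, ∀ x : X, Gen (Δ : Set (Γ × X)) x s := by
    intro s hs x
    by_cases hx : pt (Γ := Γ) lam x ∈ B
    · have : Gen (Δ : Set (Γ × X)) x (s * 1) := Gen.one.fwd (by
        rw [one_smul]
        refine Finset.mem_coe.2 (Finset.mem_image.2 ⟨(Sum.inr s, x), ?_, rfl⟩)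
        exact Finset.mem_filter.2 ⟨Finset.mem_product.2
          ⟨Finset.inr_mem_disjSum.2 hs, Finset.mem_univ _⟩, hx⟩)
      simpa using this
    · obtain ⟨F', h1, h2, h3⟩ := not_not.1 hx
      refine (h2 s hs).gen fun p hp => ?_
      refine Finset.mem_coe.2 (Finset.mem_image.2 ⟨(Sum.inl p.2, p.1 • x), ?_, rfl⟩)
      refine Finset.mem_filter.2 ⟨Finset.mem_product.2 ⟨Finset.inl_mem_disjSum.2
        (Finset.mem_image_of_mem _ (Finset.mem_powerset.1 h1 hp)), Finset.mem_univ _⟩, ?_⟩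
      change pt lam (p.1 • x) ∈ A' p.2
      rw [pt_smul]
      exact h3 p hp
  have h1 := hlow Δ hgen
  have h2 : (Δ.card : ℝ) ≤ (((J ×ˢ Finset.univ).filter fun p : (ℕ ⊕ Γ) × X =>
      pt lam p.2 ∈ E p.1).card : ℝ) := by exact_mod_cast Finset.card_image_le
  have hX : (0 : ℝ) < Fintype.card X := by exact_mod_cast Fintype.card_pos
  have h3 : ∑ j ∈ J, (bernMeasure Γ).real (E j) ≤
      ∑ i ∈ I, (bernMeasure Γ).real (A i) + I.card * δ +
        gens.card * (η / (gens.card + 1) + F.card * δ) := by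
    rw [Finset.sum_disjSum]
    refine add_le_add ?_ ?_
    · have : ∀ i ∈ I, (bernMeasure Γ).real (E (Sum.inl i)) ≤ (bernMeasure Γ).real (A i) + δ := by
        intro i _
        have hsub : A' i ⊆ A i ∪ (A' i ∆ A i) := fun ω hω => by
          by_cases h : ω ∈ A i
          · exact Or.inl h
          · exact Or.inr (Or.inl ⟨hω, h⟩)
        exact (measureReal_mono hsub (measure_ne_top _ _)).trans
          ((measureReal_union_le _ _).trans (add_le_add_right (hAA' i) _))
      refine (Finset.sum_le_sum this).trans (le_of_eq ?_)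
      simp [Finset.sum_add_distrib]
    · simpa only [nsmul_eq_mul] using Finset.sum_le_card_nsmul gens
        (fun s => (bernMeasure Γ).real (E (Sum.inr s))) _ (fun s _ => hB)
  refine ⟨I, ?_⟩
  have h4 : a - ε' ≤ ∑ i ∈ I, (bernMeasure Γ).real (A i) + I.card * δ +
        gens.card * (η / (gens.card + 1) + F.card * δ) + J.card * (D.card * D.card) * ε' := by
    refine le_of_mul_le_mul_right (h1.trans (h2.trans (hlam.trans ?_))) hX
    have h5 := mul_le_mul_of_nonneg_left h3 hX.le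
    have h6 := mul_le_mul_of_nonneg_left hbadc (Nat.cast_nonneg J.card : (0 : ℝ) ≤ J.card)
    nlinarith
  have e1 : (I.card + gens.card * F.card + 1) * δ = η := by rw [hδ]; field_simp
  have e2 : (J.card * (D.card * D.card) + 1) * ε' = η := by rw [hε']; field_simp
  have e3 : (gens.card + 1) * (η / (gens.card + 1)) = η := by field_simp
  have e4 : 0 < η / (gens.card + 1) := by positivity
  nlinarith

end Tr

open Classical in
theorem transfer (Γ : Type) [Group Γ] [Countable Γ] (gens : Finset Γ) (a : ℝ)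
    (hmodel : ∀ (D : Finset Γ) (ε : ℝ), 0 < ε →
      ∃ (X : Type) (_ : Fintype X) (_ : Nonempty X) (_ : MulAction Γ X),
        (∀ γ ∈ D, γ ≠ 1 →
          ((Finset.univ.filter (fun x : X => γ • x = x)).card : ℝ) ≤ ε * Fintype.card X) ∧
        ∀ Δ : Finset (Γ × X), (∀ s ∈ gens, ∀ x : X, Gen (Δ : Set (Γ × X)) x s) →
          (a - ε) * Fintype.card X ≤ Δ.card) :
    ENNReal.ofReal a ≤ Crest.Dynamics.actionCost Γ (Bern Γ) (bernMeasure Γ) := by
  refine le_sInf ?_
  rintro c ⟨Φ, hΦ, rfl⟩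
  refine ENNReal.le_of_forall_pos_le_add fun η hη _ => ?_
  obtain ⟨I, hI⟩ := Tr.main gens a hmodel Φ hΦ (η := η / 3) (by positivity)
  refine (ENNReal.ofReal_le_ofReal hI).trans (ENNReal.ofReal_add_le.trans (add_le_add ?_ ?_))
  · rw [ENNReal.ofReal_sum_of_nonneg fun _ _ => measureReal_nonneg]
    simp only [ofReal_measureReal (measure_ne_top _ _)]
    exact ENNReal.sum_le_tsum I
  · rw [show 3 * ((η : ℝ) / 3) = η by ring]
    simp

end Crest.Agent.R191
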