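import Crest.Agent.R191.Defs

/-!
Task R191-U: the Bernoulli shift is free and measure preserving; the upper bound on cost.

## `bern_free`
* measure preserving: `g • ω = ω ∘ (g⁻¹ * ·)` is a reindexing by the equivalence `Equiv.mulLeft g`;
  use `Measure.infinitePi_map_piCongrLeft` (or the `.precomp` reindexing lemma near l.127-150 of
  `Mathlib/Probability/Independence/InfinitePi.lean`).
* free: for `g ≠ 1`, `{ω | g • ω = ω} ⊆ {ω | ω g⁻¹ = ω 1}`; the pair `(ω g⁻¹, ω 1)` has law
  `volume.prod volume` (`iIndepFun_infinitePi`, `IndepFun` map prod), the diagonal is null because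
  `volume` on `unitInterval` has no atoms (`Measure.prod_apply` / `measure_prod_null`).

## `upper`
Space `Y = Bern Γ × ZMod M × ZMod M` (use a type synonym or a structure-free `def` so that the
`MulAction` instance is the one you want), measure `bernMeasure Γ` times the uniform measures
(`ProbabilityTheory.uniformOn Set.univ` or `(PMF.uniformOfFintype _).toMeasure`, `MeasurableSpace := ⊤`),
action `g • (ω, a, b) = (g • ω, a + (χ₁ g).toAdd, b + (χ₂ g).toAdd)` (integers cast to `ZMod M`).
Free because the first coordinate is free.  Graphing: `Φ 0 = (t, univ)`,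
`Φ k = (q k * (q 0)⁻¹, {b = 0})` for `1 ≤ k ≤ n`, `Φ (n+1) = (q 0, {a.val < n})`, all others `(1, ∅)`.
Cost `≤ 1 + n/M + n/M`.  It generates with empty null set; write `~` for `EqvGen` of the steps:
* `y ~ t • y`, hence `y ~ t^j • y`; with `j = (-b).val`, `t^j • y` has third coordinate `0`, so
  `y ~ t^j • y ~ a_k • t^j • y = t^j • a_k • y ~ a_k • y` for `a_k = q k * (q 0)⁻¹`.
* claim `y ~ q 0 • y` for every `y` (then `y ~ q k • y = a_k • q 0 • y` for `k ≤ n`): strong induction
  on the level `m = a.val`.  If `m < n` it is a step.  If `m ≥ n` put `y_i = (R i * (R n)⁻¹) • y`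
  for `i ≤ n`; `y_{i+1} = q i • y_i`, `y_n = y`; `χ₁ (R i * (R n)⁻¹) = i - n`, so `y_i` has level
  `m - n + i < m` for `i < n`, so by induction `y_0 ~ y_1 ~ ... ~ y_n = y`; and
  `q n • y = (R (n+1) * (R n)⁻¹) • y = y_0`, so `y ~ q n • y = a_n • q 0 • y ~ q 0 • y`.
* the set of `g` with `∀ y, y ~ g • y` is a subgroup containing the generators.
-/

set_option autoImplicit false

namespace Crest.Agent.R191

open MeasureTheory

theorem bern_free (Γ : Type) [Group Γ] [Countable Γ] :
    Crest.Dynamics.IsFreePMPAction Γ (Bern Γ) (bernMeasure Γ) := by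
  refine ⟨fun g => ⟨?_, ?_⟩, fun g hg => ?_⟩
  · show Measurable (fun (ω : Γ → unitInterval) (h : Γ) => ω (g⁻¹ * h))
    fun_prop
  · exact Measure.map_infinitePi_infinitePi_of_inj
      (P := fun _ : Γ => (volume : Measure unitInterval)) (f := fun h : Γ => g⁻¹ * h)
      (mul_right_injective g⁻¹)
  · have hne : g⁻¹ ≠ 1 := inv_ne_one.mpr hg
    have hsub : {x : Bern Γ | g • x = x} ⊆
        (fun ω : Γ → unitInterval => (ω g⁻¹, ω 1)) ⁻¹' (Set.diagonal unitInterval) := by
      intro x hx
      have h1 : (g • x) 1 = x 1 := congrFun hx 1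
      rw [bern_smul_apply, mul_one] at h1
      exact h1
    refine measure_mono_null hsub ?_
    have hm : Measurable (fun ω : Γ → unitInterval => (ω g⁻¹, ω 1)) := by fun_prop
    have hd : MeasurableSet (Set.diagonal unitInterval) := measurableSet_diagonal
    have h2 := Measure.infinitePi_map_eval_prod
      (P := fun _ : Γ => (volume : Measure unitInterval)) hne
    have h3 : (Measure.infinitePi (fun _ : Γ => (volume : Measure unitInterval)))
        ((fun ω : Γ → unitInterval => (ω g⁻¹, ω 1)) ⁻¹' (Set.diagonal unitInterval)) = 0 := by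
      rw [← Measure.map_apply hm hd, h2, Measure.measure_prod_null hd]
      refine Filter.Eventually.of_forall fun a => ?_
      have : Prod.mk a ⁻¹' Set.diagonal unitInterval = {a} := by
        ext b
        simp [Set.mem_diagonal_iff, eq_comm]
      simp [this]
    exact h3

namespace U

/-- The space of the cheap action. -/
def Sp (Γ : Type) [Group Γ] (_χ₁ _χ₂ : Γ →* Multiplicative ℤ) (M : ℕ) : Type :=
  Bern Γ × ZMod M × ZMod M

variable {Γ : Type} [Group Γ] (χ₁ χ₂ : Γ →* Multiplicative ℤ) (M : ℕ)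

instance : MeasurableSpace (Sp Γ χ₁ χ₂ M) :=
  inferInstanceAs (MeasurableSpace (Bern Γ × ZMod M × ZMod M))

instance zmodDisc : DiscreteMeasurableSpace (ZMod M) := ⟨fun _ => trivial⟩

instance [Countable Γ] [NeZero M] : StandardBorelSpace (Sp Γ χ₁ χ₂ M) :=
  inferInstanceAs (StandardBorelSpace (Bern Γ × ZMod M × ZMod M))

/-- The uniform measure. -/
noncomputable def unif : Measure (ZMod M) := ProbabilityTheory.uniformOn Set.univ

instance [NeZero M] : IsProbabilityMeasure (unif M) :=
  inferInstanceAs (IsProbabilityMeasure (ProbabilityTheory.uniformOn (Set.univ : Set (ZMod M))))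

theorem unif_apply [NeZero M] (s : Set (ZMod M)) : unif M s = Measure.count s / (M : ENNReal) := by
  rw [unif, ProbabilityTheory.uniformOn_univ, ZMod.card]

theorem unif_add [NeZero M] (c : ZMod M) :
    MeasurePreserving (fun a : ZMod M => a + c) (unif M) (unif M) := by
  refine ⟨measurable_from_top, ?_⟩
  ext s hs
  rw [Measure.map_apply measurable_from_top hs, unif_apply, unif_apply,
    measure_preimage_add_right]

/-- The measure. -/
noncomputable def meas : Measure (Sp Γ χ₁ χ₂ M) :=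
  (bernMeasure Γ).prod ((unif M).prod (unif M))

instance [NeZero M] : IsProbabilityMeasure (meas χ₁ χ₂ M) :=
  inferInstanceAs (IsProbabilityMeasure ((bernMeasure Γ).prod ((unif M).prod (unif M))))

instance : MulAction Γ (Sp Γ χ₁ χ₂ M) where
  smul g y := (g • y.1, y.2.1 + (((χ₁ g).toAdd : ℤ) : ZMod M), y.2.2 + (((χ₂ g).toAdd : ℤ) : ZMod M))
  one_smul y := by
    show ((1 : Γ) • y.1, y.2.1 + (((χ₁ 1).toAdd : ℤ) : ZMod M),
      y.2.2 + (((χ₂ 1).toAdd : ℤ) : ZMod M)) = y
    simp only [one_smul, map_one, toAdd_one, Int.cast_zero, add_zero]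
    rfl
  mul_smul g h y := by
    show ((g * h) • y.1, y.2.1 + (((χ₁ (g * h)).toAdd : ℤ) : ZMod M),
      y.2.2 + (((χ₂ (g * h)).toAdd : ℤ) : ZMod M)) =
      (g • h • y.1, y.2.1 + (((χ₁ h).toAdd : ℤ) : ZMod M) + (((χ₁ g).toAdd : ℤ) : ZMod M),
      y.2.2 + (((χ₂ h).toAdd : ℤ) : ZMod M) + (((χ₂ g).toAdd : ℤ) : ZMod M))
    simp only [mul_smul, map_mul, toAdd_mul, Int.cast_add]
    congr 2 <;> ring

variable {χ₁ χ₂ M}

theorem smul_fst (g : Γ) (y : Sp Γ χ₁ χ₂ M) : (g • y).1 = g • y.1 := rfl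

theorem smul_a (g : Γ) (y : Sp Γ χ₁ χ₂ M) :
    (g • y).2.1 = y.2.1 + (((χ₁ g).toAdd : ℤ) : ZMod M) := rfl

theorem smul_b (g : Γ) (y : Sp Γ χ₁ χ₂ M) :
    (g • y).2.2 = y.2.2 + (((χ₂ g).toAdd : ℤ) : ZMod M) := rfl

variable (χ₁ χ₂ M)

theorem free [Countable Γ] [NeZero M] :
    Crest.Dynamics.IsFreePMPAction Γ (Sp Γ χ₁ χ₂ M) (meas χ₁ χ₂ M) := by
  refine ⟨fun g => ?_, fun g hg => ?_⟩
  · exact ((bern_free Γ).1 g).prod ((unif_add M _).prod (unif_add M _))
  · have hsub : {y : Sp Γ χ₁ χ₂ M | g • y = y} ⊆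
        ({x : Bern Γ | g • x = x} ×ˢ (Set.univ : Set (ZMod M × ZMod M))) := by
      intro y hy
      exact ⟨congrArg Prod.fst hy, trivial⟩
    refine measure_mono_null hsub ?_
    have h : ((bernMeasure Γ).prod ((unif M).prod (unif M)))
        ({x : Bern Γ | g • x = x} ×ˢ (Set.univ : Set (ZMod M × ZMod M))) = 0 := by
      rw [Measure.prod_prod, (bern_free Γ).2 g hg, zero_mul]
    exact h

/-- The set where the third coordinate vanishes. -/
def setB : Set (Sp Γ χ₁ χ₂ M) := {y | y.2.2 = 0}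

/-- The set where the second coordinate is small. -/
def setA (n : ℕ) : Set (Sp Γ χ₁ χ₂ M) := {y | y.2.1.val < n}

theorem setB_eq : setB χ₁ χ₂ M =
    ((Set.univ : Set (Bern Γ)) ×ˢ ((Set.univ : Set (ZMod M)) ×ˢ ({0} : Set (ZMod M)))) := by
  ext y
  constructor
  · intro h; exact ⟨trivial, trivial, h⟩
  · intro h; exact h.2.2

theorem setA_eq (n : ℕ) : setA χ₁ χ₂ M n =
    ((Set.univ : Set (Bern Γ)) ×ˢ ({a : ZMod M | a.val < n} ×ˢ (Set.univ : Set (ZMod M)))) := by
  ext y
  constructor
  · intro h; exact ⟨trivial, h, trivial⟩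
  · intro h; exact h.2.1

theorem meas_setB : MeasurableSet (setB χ₁ χ₂ M) := by
  rw [setB_eq]
  exact MeasurableSet.univ.prod (MeasurableSet.univ.prod trivial)

theorem meas_setA (n : ℕ) : MeasurableSet (setA χ₁ χ₂ M n) := by
  rw [setA_eq]
  exact MeasurableSet.univ.prod (MeasurableSet.prod trivial MeasurableSet.univ)

theorem measure_setB [NeZero M] : meas χ₁ χ₂ M (setB χ₁ χ₂ M) = 1 / (M : ENNReal) := by
  have h : ((bernMeasure Γ).prod ((unif M).prod (unif M)))
      ((Set.univ : Set (Bern Γ)) ×ˢ ((Set.univ : Set (ZMod M)) ×ˢ ({0} : Set (ZMod M)))) =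
      1 / (M : ENNReal) := by
    rw [Measure.prod_prod, Measure.prod_prod, measure_univ, measure_univ, one_mul, one_mul,
      unif_apply, Measure.count_singleton]
  rw [setB_eq]
  exact h

theorem measure_setA [NeZero M] (n : ℕ) :
    meas χ₁ χ₂ M (setA χ₁ χ₂ M n) ≤ (n : ENNReal) / (M : ENNReal) := by
  have h : ((bernMeasure Γ).prod ((unif M).prod (unif M)))
      ((Set.univ : Set (Bern Γ)) ×ˢ ({a : ZMod M | a.val < n} ×ˢ (Set.univ : Set (ZMod M)))) ≤
      (n : ENNReal) / (M : ENNReal) := by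
    rw [Measure.prod_prod, Measure.prod_prod, measure_univ, measure_univ, one_mul, mul_one,
      unif_apply]
    gcongr
    have hsub : {a : ZMod M | a.val < n} ⊆
        ((Finset.range n).image (fun i : ℕ => (i : ZMod M)) : Finset (ZMod M)) := by
      intro a ha
      simp only [Finset.coe_image, Finset.coe_range, Set.mem_image, Set.mem_Iio]
      exact ⟨a.val, ha, ZMod.natCast_zmod_val a⟩
    refine (measure_mono hsub).trans ?_
    rw [Measure.count_apply_finset]
    exact_mod_cast Finset.card_image_le.trans (Finset.card_range n).le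
  rw [setA_eq]
  exact h

/-- The graphing. -/
def graphing (n : ℕ) (t : Γ) (q : ℕ → Γ) (i : ℕ) : Γ × Set (Sp Γ χ₁ χ₂ M) :=
  if i = 0 then (t, Set.univ)
  else if i = 1 then (q 0, setA χ₁ χ₂ M n)
  else if i < n + 2 then (q (i - 1) * (q 0)⁻¹, setB χ₁ χ₂ M)
  else (1, ∅)

theorem graphing_meas (n : ℕ) (t : Γ) (q : ℕ → Γ) (i : ℕ) :
    MeasurableSet (graphing χ₁ χ₂ M n t q i).2 := by
  unfold graphing
  split_ifs
  · exact MeasurableSet.univ
  · exact meas_setA χ₁ χ₂ M n
  · exact meas_setB χ₁ χ₂ M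
  · exact MeasurableSet.empty

theorem graphing_cost [NeZero M] (n : ℕ) (t : Γ) (q : ℕ → Γ) :
    Crest.Dynamics.graphingCost (meas χ₁ χ₂ M) (graphing χ₁ χ₂ M n t q) ≤
      1 + 2 * (n : ENNReal) / (M : ENNReal) := by
  unfold Crest.Dynamics.graphingCost
  rw [tsum_eq_sum (s := Finset.range (n + 2))]
  · rw [Finset.sum_range_succ', Finset.sum_range_succ']
    have h0 : meas χ₁ χ₂ M (graphing χ₁ χ₂ M n t q 0).2 = 1 := by
      simp [graphing]
    have h1 : meas χ₁ χ₂ M (graphing χ₁ χ₂ M n t q (0 + 1)).2 ≤ (n : ENNReal) / (M : ENNReal) := by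
      simpa [graphing] using measure_setA χ₁ χ₂ M n
    have h2 : ∑ k ∈ Finset.range n, meas χ₁ χ₂ M (graphing χ₁ χ₂ M n t q (k + 1 + 1)).2 =
        (n : ENNReal) / (M : ENNReal) := by
      rw [Finset.sum_congr rfl (g := fun _ => 1 / (M : ENNReal))]
      · simp [div_eq_mul_inv]
      · intro k hk
        have hk' : k + 1 + 1 < n + 2 := by
          have := Finset.mem_range.mp hk
          omega
        have : (graphing χ₁ χ₂ M n t q (k + 1 + 1)).2 = setB χ₁ χ₂ M := by
          unfold graphing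
          rw [if_neg (by omega), if_neg (by omega), if_pos hk']
        rw [this, measure_setB]
    rw [h0, h2]
    calc (n : ENNReal) / (M : ENNReal) + meas χ₁ χ₂ M (graphing χ₁ χ₂ M n t q (0 + 1)).2 + 1
        ≤ (n : ENNReal) / (M : ENNReal) + (n : ENNReal) / (M : ENNReal) + 1 := by gcongr
      _ = 1 + 2 * (n : ENNReal) / (M : ENNReal) := by
        rw [add_comm, two_mul, ENNReal.add_div]
  · intro i hi
    have hi' : ¬ i < n + 2 := by simpa using hi
    have : (graphing χ₁ χ₂ M n t q i).2 = ∅ := by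
      unfold graphing
      rw [if_neg (by omega), if_neg (by omega), if_neg hi']
    rw [this, measure_empty]

/-- The group elements along which every point is connected to its image. -/
def good {X : Type} [MulAction Γ X] (r : X → X → Prop) : Subgroup Γ where
  carrier := {g | ∀ y, Relation.EqvGen r y (g • y)}
  one_mem' := fun y => by
    rw [one_smul]
    exact Relation.EqvGen.refl y
  mul_mem' := fun {g h} hg hh y => by
    rw [mul_smul]
    exact Relation.EqvGen.trans _ _ _ (hh y) (hg _)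
  inv_mem' := fun {g} hg y => by
    have := hg (g⁻¹ • y)
    rw [smul_inv_smul] at this
    exact Relation.EqvGen.symm _ _ this

theorem mem_good {X : Type} [MulAction Γ X] (r : X → X → Prop) (g : Γ) :
    g ∈ good (Γ := Γ) r ↔ ∀ y, Relation.EqvGen r y (g • y) := Iff.rfl

theorem generates [NeZero M] (n : ℕ) (t : Γ) (q R : ℕ → Γ)
    (hgen : Subgroup.closure ({t} ∪ q '' {k | k ≤ n}) = ⊤)
    (hcomm : ∀ k ≤ n, Commute t (q k * (q 0)⁻¹))
    (hR : ∀ k ≤ n, R (k + 1) = q k * R k) (hR' : R (n + 1) = R 0)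
    (h₁ : ∀ k < n, χ₁ (q k) = Multiplicative.ofAdd 1) (h₂ : χ₂ t = Multiplicative.ofAdd 1)
    (g : Γ) : g ∈ good (Γ := Γ) (Crest.Dynamics.GraphingStep (graphing χ₁ χ₂ M n t q)) := by
  set r := Crest.Dynamics.GraphingStep (graphing χ₁ χ₂ M n t q) with hr
  have ht : t ∈ good (Γ := Γ) r := fun y =>
    Relation.EqvGen.rel _ _ ⟨0, by simp [graphing], by simp [graphing]⟩
  have ha : ∀ k ≤ n, q k * (q 0)⁻¹ ∈ good (Γ := Γ) r := by
    intro k hk y
    rcases Nat.eq_zero_or_pos k with rfl | hk0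
    · rw [mul_inv_cancel, one_smul]
      exact Relation.EqvGen.refl y
    set j : ℕ := (-y.2.2).val with hj
    have htj : t ^ j ∈ good (Γ := Γ) r := Subgroup.pow_mem _ ht j
    have hb : (t ^ j • y) ∈ setB χ₁ χ₂ M := by
      show (t ^ j • y).2.2 = 0
      rw [smul_b, map_pow, h₂]
      simp [hj]
    have hstep : r (t ^ j • y) ((q k * (q 0)⁻¹) • t ^ j • y) := by
      have hΦ : graphing χ₁ χ₂ M n t q (k + 1) = (q k * (q 0)⁻¹, setB χ₁ χ₂ M) := by
        unfold graphing
        rw [if_neg (by omega), if_neg (by omega), if_pos (by omega)]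
        rfl
      exact ⟨k + 1, by rw [hΦ]; exact hb, by rw [hΦ]⟩
    have hc : (q k * (q 0)⁻¹) • t ^ j • y = t ^ j • (q k * (q 0)⁻¹) • y := by
      rw [← mul_smul, ← mul_smul, ((hcomm k hk).pow_left j).eq]
    refine Relation.EqvGen.trans _ _ _ (htj y) (Relation.EqvGen.trans _ _ _
      (Relation.EqvGen.rel _ _ hstep) ?_)
    rw [hc]
    exact Relation.EqvGen.symm _ _ (htj _)
  have hq_of : ∀ k ≤ n, ∀ y : Sp Γ χ₁ χ₂ M, Relation.EqvGen r y (q 0 • y) →
      Relation.EqvGen r y (q k • y) := by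
    intro k hk y hy
    have := ha k hk (q 0 • y)
    rw [← mul_smul, inv_mul_cancel_right] at this
    exact Relation.EqvGen.trans _ _ _ hy this
  have hχR : ∀ i ≤ n, (χ₁ (R i)).toAdd = (χ₁ (R 0)).toAdd + i := by
    intro i
    induction i with
    | zero => intro _; simp
    | succ i ih =>
      intro hi
      rw [hR i (by omega), map_mul, toAdd_mul, h₁ i (by omega), ih (by omega)]
      simp only [toAdd_ofAdd]
      push_cast
      ring
  have hq0 : ∀ m : ℕ, ∀ y : Sp Γ χ₁ χ₂ M, y.2.1.val = m → Relation.EqvGen r y (q 0 • y) := by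
    intro m
    induction m using Nat.strong_induction_on with
    | _ m ih =>
      intro y hy
      by_cases hm : m < n
      · refine Relation.EqvGen.rel _ _ ⟨1, ?_, by simp [graphing]⟩
        have : (graphing χ₁ χ₂ M n t q 1).2 = setA χ₁ χ₂ M n := by simp [graphing]
        rw [this]
        show y.2.1.val < n
        omega
      · have hmM : m < M := hy ▸ ZMod.val_lt y.2.1
        have hlev : ∀ i < n, ((R i * (R n)⁻¹) • y).2.1.val = m - n + i := by
          intro i hi
          have h1 : ((R i * (R n)⁻¹) • y).2.1 = ((m - n + i : ℕ) : ZMod M) := by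
            rw [smul_a, map_mul, map_inv, toAdd_mul, toAdd_inv, hχR i hi.le, hχR n le_rfl,
              ← ZMod.natCast_zmod_val y.2.1, hy]
            have hmn : n ≤ m := by omega
            push_cast [hmn]
            ring
          rw [h1, ZMod.val_natCast, Nat.mod_eq_of_lt (by omega)]
        have hchain : ∀ i ≤ n, Relation.EqvGen r ((R 0 * (R n)⁻¹) • y) ((R i * (R n)⁻¹) • y) := by
          intro i
          induction i with
          | zero => intro _; exact Relation.EqvGen.refl _
          | succ i ihi =>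
            intro hi
            refine Relation.EqvGen.trans _ _ _ (ihi (by omega)) ?_
            have h2 := hq_of i (by omega) _ (ih (m - n + i) (by omega) _ (hlev i (by omega)))
            rw [← mul_smul, ← mul_assoc, ← hR i (by omega)] at h2
            exact h2
        have h3 := hchain n le_rfl
        rw [mul_inv_cancel, one_smul, ← hR', hR n le_rfl, mul_inv_cancel_right] at h3
        have h4 := ha n le_rfl (q 0 • y)
        rw [← mul_smul, inv_mul_cancel_right] at h4
        exact Relation.EqvGen.trans _ _ _ (Relation.EqvGen.symm _ _ h3)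
          (Relation.EqvGen.symm _ _ h4)
  have hle : Subgroup.closure ({t} ∪ q '' {k | k ≤ n}) ≤ good (Γ := Γ) r := by
    rw [Subgroup.closure_le]
    rintro x (hx | ⟨k, hk, rfl⟩)
    · rw [Set.mem_singleton_iff.mp hx]
      exact ht
    · exact fun y => hq_of k hk y (hq0 _ y rfl)
  rw [hgen] at hle
  exact hle (Subgroup.mem_top g)

end U

theorem upper (Γ : Type) [Group Γ] [Countable Γ] (n : ℕ) (t : Γ) (q R : ℕ → Γ)
    (hgen : Subgroup.closure ({t} ∪ q '' {k | k ≤ n}) = ⊤)
    (hcomm : ∀ k ≤ n, Commute t (q k * (q 0)⁻¹))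
    (hR : ∀ k ≤ n, R (k + 1) = q k * R k) (hR' : R (n + 1) = R 0)
    (χ₁ χ₂ : Γ →* Multiplicative ℤ)
    (h₁ : ∀ k < n, χ₁ (q k) = Multiplicative.ofAdd 1) (h₂ : χ₂ t = Multiplicative.ofAdd 1)
    (M : ℕ) (hM : 0 < M) :
    ∃ (Y : Type) (_ : MeasurableSpace Y) (_ : StandardBorelSpace Y) (ν : Measure Y)
      (_ : IsProbabilityMeasure ν) (_ : MulAction Γ Y),
      Crest.Dynamics.IsFreePMPAction Γ Y ν ∧
      Crest.Dynamics.actionCost Γ Y ν ≤ 1 + 2 * (n : ENNReal) / (M : ENNReal) := by
  have : NeZero M := ⟨hM.ne'⟩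
  refine ⟨U.Sp Γ χ₁ χ₂ M, inferInstance, inferInstance, U.meas χ₁ χ₂ M, inferInstance,
    inferInstance, U.free χ₁ χ₂ M, ?_⟩
  refine le_trans (sInf_le ⟨U.graphing χ₁ χ₂ M n t q, ⟨U.graphing_meas χ₁ χ₂ M n t q, ∅,
    measure_empty, fun y _ g => ?_⟩, rfl⟩) (U.graphing_cost χ₁ χ₂ M n t q)
  exact U.generates χ₁ χ₂ M n t q R hgen hcomm hR hR' h₁ h₂ g y

end Crest.Agent.R191
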